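import Vale.Agent.P039.Data

/-! Linear algebra on the abstract map: Euler inequalities and exactness. -/

namespace Vale.Agent.P039

open Finset

theorem card_le_of_ker {α β : Type} [Fintype α] [Fintype β] [DecidableEq α] [DecidableEq β]
    (s : Finset α) (t : Finset β) (L : (α → ℚ) →ₗ[ℚ] (β → ℚ))
    (h : ∀ c : α → ℚ, (∀ a, a ∉ s → c a = 0) → (∀ y ∈ t, L c y = 0) → c = 0) :
    s.card ≤ t.card ∧ (s.card = t.card → ∀ z : β → ℚ, ∃ c : α → ℚ, (∀ a, a ∉ s → c a = 0) ∧
      ∀ y ∈ t, L c y = z y) := by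
  classical
  let ext : (s → ℚ) →ₗ[ℚ] (α → ℚ) :=
    { toFun := fun c a => if ha : a ∈ s then c ⟨a, ha⟩ else 0
      map_add' := fun c c' => by
        funext a; by_cases ha : a ∈ s <;> simp [ha]
      map_smul' := fun r c => by
        funext a; by_cases ha : a ∈ s <;> simp [ha] }
  let res : (β → ℚ) →ₗ[ℚ] (t → ℚ) := LinearMap.funLeft ℚ ℚ Subtype.val
  have hinj : Function.Injective (res ∘ₗ L ∘ₗ ext) := by
    rw [← LinearMap.ker_eq_bot, LinearMap.ker_eq_bot']
    intro c hc
    have h0 : ext c = 0 := by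
      refine h _ (fun a ha => by simp [ext, ha]) (fun y hy => ?_)
      exact congrFun hc ⟨y, hy⟩
    funext a
    have := congrFun h0 a.1
    simpa [ext, a.2] using this
  refine ⟨?_, fun hc z => ?_⟩
  · have := LinearMap.finrank_le_finrank_of_injective hinj
    simpa using this
  · have hsurj : Function.Surjective (res ∘ₗ L ∘ₗ ext) := by
      refine (LinearMap.injective_iff_surjective_of_finrank_eq_finrank ?_).1 hinj
      simp [hc]
    obtain ⟨c, hc'⟩ := hsurj (res z)
    refine ⟨ext c, fun a ha => by simp [ext, ha], fun y hy => ?_⟩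
    exact congrFun hc' ⟨y, hy⟩

variable {E F V : Type} [Fintype E] [Fintype F] [Fintype V] [DecidableEq E]
  [DecidableEq F] [DecidableEq V]

namespace Data

variable (D : Data E F V)

/-- Coboundary of a function on the vertices of the triangulation. -/
def d (μ : V → ℚ) (e : E) : ℚ := μ (D.hd e) - μ (D.tl e)

/-- Boundary of a function on the triangles. -/
def bd (h : F → ℚ) (e : E) : ℚ := h (D.b e) - h (D.w e)

theorem sum_b (z : E → ℚ) (h : F → ℚ) :
    ∑ e, z e * h (D.b e) = ∑ x, h x * ∑ e with D.b e = x, z e := by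
  rw [← Finset.sum_fiberwise (s := univ) (g := D.b)]
  refine Finset.sum_congr rfl fun x _ => ?_
  rw [Finset.mul_sum]
  refine Finset.sum_congr rfl fun e he => ?_
  rw [(mem_filter.1 he).2, mul_comm]

theorem sum_w (z : E → ℚ) (h : F → ℚ) :
    ∑ e, z e * h (D.w e) = ∑ x, h x * ∑ e with D.w e = x, z e := D.swap.sum_b z h

theorem sum_d_b (μ : V → ℚ) (x : F) : ∑ e with D.b e = x, D.d μ e = 0 := by
  simp only [d, Finset.sum_sub_distrib, D.cyc_b x μ, sub_self]

theorem sum_d_w (μ : V → ℚ) (x : F) : ∑ e with D.w e = x, D.d μ e = 0 := by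
  simp only [d, Finset.sum_sub_distrib, D.cyc_w x μ, sub_self]

theorem orth (μ : V → ℚ) (h : F → ℚ) : ∑ e, D.d μ e * D.bd h e = 0 := by
  simp only [bd, mul_sub, Finset.sum_sub_distrib, sum_b, sum_w, sum_d_b, sum_d_w]
  simp

theorem closed (S : Finset F) (h : ∀ e, D.b e ∈ S ↔ D.w e ∈ S) : S = ∅ ∨ S = univ := by
  by_contra hc
  push Not at hc
  have := D.conn3 S hc.1 hc.2
  rw [Finset.filter_eq_empty_iff.2 (fun e _ => by simp [h e])] at this
  simp at this

theorem const_of_bd (h : F → ℚ) (H : ∀ e, h (D.b e) = h (D.w e)) (x y : F) : h x = h y := by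
  rcases D.closed (univ.filter fun z => h z = h y) (fun e => by simp [H e]) with h0 | h0
  · have : y ∈ univ.filter fun z => h z = h y := by simp
    rw [h0] at this; simp at this
  · have : x ∈ univ.filter fun z => h z = h y := by rw [h0]; simp
    simpa using this

/-- Edges of the triangles in `S`. -/
def ES (S : Finset F) : Finset E := univ.filter (fun e => D.b e ∈ S ∨ D.w e ∈ S)

/-- Vertices of the triangles in `S`. -/
def VS (S : Finset F) : Finset V := (D.ES S).image D.tl

theorem mem_ES {S : Finset F} {e : E} : e ∈ D.ES S ↔ D.b e ∈ S ∨ D.w e ∈ S := by simp [ES]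

theorem mem_VS {S : Finset F} {v : V} : v ∈ D.VS S ↔ ∃ e, (D.b e ∈ S ∨ D.w e ∈ S) ∧ D.tl e = v := by
  simp [VS, ES]

theorem exists_next_b (e : E) : ∃ e', D.b e' = D.b e ∧ D.tl e' = D.hd e := by
  by_contra hc
  push Not at hc
  have h1 := D.cyc_b (D.b e) (fun v => if v = D.hd e then 1 else 0)
  rw [Finset.sum_eq_zero (s := univ.filter fun e' => D.b e' = D.b e)
    (f := fun e' => if D.tl e' = D.hd e then (1 : ℚ) else 0)
    (fun e' he' => by simp [hc e' (mem_filter.1 he').2])] at h1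
  rw [Finset.sum_eq_zero_iff_of_nonneg (fun e' _ => by positivity)] at h1
  simpa using h1 e (by simp)

theorem exists_next_w (e : E) : ∃ e', D.w e' = D.w e ∧ D.tl e' = D.hd e := D.swap.exists_next_b e

theorem tl_mem_VS {S : Finset F} {e : E} (h : e ∈ D.ES S) : D.tl e ∈ D.VS S :=
  Finset.mem_image_of_mem _ h

theorem hd_mem_VS {S : Finset F} {e : E} (h : e ∈ D.ES S) : D.hd e ∈ D.VS S := by
  rcases D.mem_ES.1 h with h | h
  · obtain ⟨e', h1, h2⟩ := D.exists_next_b e
    exact D.mem_VS.2 ⟨e', Or.inl (h1 ▸ h), h2⟩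
  · obtain ⟨e', h1, h2⟩ := D.exists_next_w e
    exact D.mem_VS.2 ⟨e', Or.inr (h1 ▸ h), h2⟩

/-- The map `(μ, h) ↦ d μ + bd h`. -/
def Psi : (V ⊕ F → ℚ) →ₗ[ℚ] (E → ℚ) where
  toFun c e := D.d (fun v => c (Sum.inl v)) e + D.bd (fun x => c (Sum.inr x)) e
  map_add' c c' := by funext e; simp [d, bd]; ring
  map_smul' r c := by funext e; simp [d, bd]; ring

theorem split_zero (T : Finset E) (μ : V → ℚ) (h : F → ℚ) (h1 : ∀ e, e ∉ T → D.bd h e = 0)
    (h2 : ∀ e ∈ T, D.d μ e + D.bd h e = 0) : (∀ e, D.bd h e = 0) ∧ ∀ e ∈ T, D.d μ e = 0 := by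
  have h3 : ∑ e, D.bd h e * D.bd h e = 0 := by
    have := D.orth μ h
    have h4 : ∀ e, D.d μ e * D.bd h e = -(D.bd h e * D.bd h e) := by
      intro e
      by_cases he : e ∈ T
      · have := h2 e he
        rw [show D.d μ e = -D.bd h e by linarith]; ring
      · simp [h1 e he]
    simp only [h4, Finset.sum_neg_distrib, neg_eq_zero] at this
    exact this
  rw [Finset.sum_eq_zero_iff_of_nonneg (fun e _ => mul_self_nonneg _)] at h3
  have h5 : ∀ e, D.bd h e = 0 := fun e => mul_self_eq_zero.1 (h3 e (mem_univ e))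
  exact ⟨h5, fun e he => by simpa [h5 e] using h2 e he⟩

/-- Euler inequality for a proper set of triangles with connected one-skeleton. -/
theorem euler_le (S : Finset F) (hS : S ≠ univ)
    (hc : ∀ μ : V → ℚ, (∀ e ∈ D.ES S, μ (D.hd e) = μ (D.tl e)) →
      ∀ u ∈ D.VS S, ∀ v ∈ D.VS S, μ u = μ v) :
    (D.VS S).card + S.card ≤ (D.ES S).card + 1 := by
  obtain ⟨x0, hx0⟩ : ∃ x0, x0 ∉ S := by
    by_contra hc; push Not at hc; exact hS (Finset.eq_univ_of_forall hc)
  have key : ∀ U : Finset V, U ⊆ D.VS S → (D.VS S = ∅ ∨ ∃ r ∈ D.VS S, r ∉ U) →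
      U.card + S.card ≤ (D.ES S).card := by
    intro U hU hr
    have := (card_le_of_ker (U.disjSum S) (D.ES S) D.Psi ?_).1
    · simpa using this
    intro c hc0 hc1
    have hb : ∀ e, e ∉ D.ES S → D.bd (fun x => c (Sum.inr x)) e = 0 := by
      intro e he
      rw [mem_ES, not_or] at he
      simp only [bd]
      rw [hc0 _ (by simpa using he.1), hc0 _ (by simpa using he.2), sub_self]
    obtain ⟨h1, h2⟩ := D.split_zero (D.ES S) _ _ hb hc1
    funext a
    rcases a with v | x
    · by_cases hv : v ∈ U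
      · rcases hr with hr | ⟨r, hr, hrU⟩
        · have := hU hv; rw [hr] at this; simp at this
        · have := hc (fun v => c (Sum.inl v)) (fun e he => sub_eq_zero.1 (h2 e he)) v (hU hv) r hr
          rw [this]; exact hc0 _ (by simpa using hrU)
      · exact hc0 _ (by simpa using hv)
    · have := D.const_of_bd (fun x => c (Sum.inr x)) (fun e => sub_eq_zero.1 (h1 e)) x x0
      rw [this]; exact hc0 _ (by simpa using hx0)
  rcases (D.VS S).eq_empty_or_nonempty with h0 | ⟨r, hr⟩
  · have := key ∅ (by simp) (Or.inl h0)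
    rw [h0]; simp at this ⊢; omega
  · have := key ((D.VS S).erase r) (Finset.erase_subset _ _) (Or.inr ⟨r, hr, by simp⟩)
    rw [Finset.card_erase_of_mem hr] at this
    have := Finset.card_pos.2 ⟨r, hr⟩
    omega

theorem face_b (μ : V → ℚ) (e e' : E) (h : D.b e = D.b e') (h1 : μ (D.hd e) = μ (D.tl e))
    (h2 : μ (D.hd e') = μ (D.tl e')) : μ (D.tl e) = μ (D.tl e') := by
  by_cases he : e = e'
  · rw [he]
  · rcases D.adj_b e e' h he with h3 | h3
    · rw [← h1, h3]
    · rw [← h2, h3]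

theorem face_w (μ : V → ℚ) (e e' : E) (h : D.w e = D.w e') (h1 : μ (D.hd e) = μ (D.tl e))
    (h2 : μ (D.hd e') = μ (D.tl e')) : μ (D.tl e) = μ (D.tl e') := D.swap.face_b μ e e' h h1 h2

theorem b_ne_w (e e' : E) : D.b e ≠ D.w e' := by
  intro h
  have := D.isB_b e
  rw [h, D.isB_w] at this
  simp at this

theorem face_inc (μ : V → ℚ) (x : F) (e e' : E) (h : D.b e = x ∨ D.w e = x)
    (h' : D.b e' = x ∨ D.w e' = x) (h1 : μ (D.hd e) = μ (D.tl e))
    (h2 : μ (D.hd e') = μ (D.tl e')) : μ (D.tl e) = μ (D.tl e') := by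
  rcases h with h | h <;> rcases h' with h' | h'
  · exact D.face_b μ e e' (h.trans h'.symm) h1 h2
  · exact absurd (h.trans h'.symm) (D.b_ne_w _ _)
  · exact absurd (h'.trans h.symm) (D.b_ne_w _ _)
  · exact D.face_w μ e e' (h.trans h'.symm) h1 h2

theorem const_of_d (μ : V → ℚ) (H : ∀ e, μ (D.hd e) = μ (D.tl e)) (u v : V) : μ u = μ v := by
  obtain ⟨e, rfl⟩ := D.tl_surj u
  obtain ⟨e0, rfl⟩ := D.tl_surj v
  rcases D.closed (univ.filter fun x => ∀ e, (D.b e = x ∨ D.w e = x) → μ (D.tl e) = μ (D.tl e0))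
    (fun e1 => by
      simp only [mem_filter, mem_univ, true_and]
      constructor
      · intro h e2 h2
        rw [← h e1 (Or.inl rfl)]
        exact D.face_inc μ _ e2 e1 h2 (Or.inr rfl) (H _) (H _)
      · intro h e2 h2
        rw [← h e1 (Or.inr rfl)]
        exact D.face_inc μ _ e2 e1 h2 (Or.inl rfl) (H _) (H _)) with h0 | h0
  · have : D.b e0 ∈ univ.filter
        fun x => ∀ e, (D.b e = x ∨ D.w e = x) → μ (D.tl e) = μ (D.tl e0) := by
      simp only [mem_filter, mem_univ, true_and]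
      intro e2 h2
      exact D.face_inc μ _ e2 e0 h2 (Or.inl rfl) (H _) (H _)
    rw [h0] at this; simp at this
  · have : D.b e ∈ univ.filter
        fun x => ∀ e, (D.b e = x ∨ D.w e = x) → μ (D.tl e) = μ (D.tl e0) := by
      rw [h0]; simp
    exact (mem_filter.1 this).2 e (Or.inl rfl)

theorem global (r : V) (x0 : F) :
    ((univ.erase r).disjSum (univ.erase x0)).card ≤ (univ : Finset E).card ∧
    (((univ.erase r).disjSum (univ.erase x0)).card = (univ : Finset E).card →
      ∀ z : E → ℚ, ∃ c : V ⊕ F → ℚ, (∀ a, a ∉ (univ.erase r).disjSum (univ.erase x0) → c a = 0) ∧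
      ∀ y ∈ (univ : Finset E), D.Psi c y = z y) := by
  refine card_le_of_ker _ _ D.Psi ?_
  intro c hc0 hc1
  obtain ⟨h1, h2⟩ := D.split_zero univ _ _ (by simp) hc1
  funext a
  rcases a with v | x
  · have := D.const_of_d (fun v => c (Sum.inl v))
      (fun e => sub_eq_zero.1 (h2 e (mem_univ _))) v r
    rw [this]; exact hc0 _ (by simp)
  · have := D.const_of_bd (fun x => c (Sum.inr x)) (fun e => sub_eq_zero.1 (h1 e)) x x0
    rw [this]; exact hc0 _ (by simp)

include D in
/-- The Euler characteristic of a connected map is at most two. -/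
theorem chi_le (e0 : E) : Fintype.card V + Fintype.card F ≤ Fintype.card E + 2 := by
  have := (D.global (D.tl e0) (D.b e0)).1
  simp only [card_disjSum, mem_univ, card_erase_of_mem, card_univ] at this
  have h1 : 0 < Fintype.card V := Fintype.card_pos_iff.2 ⟨D.tl e0⟩
  have h2 : 0 < Fintype.card F := Fintype.card_pos_iff.2 ⟨D.b e0⟩
  omega

theorem hodge (hE : D.Euler) (z : E → ℚ) :
    ∃ (μ : V → ℚ) (h : F → ℚ), ∀ e, z e = D.d μ e + D.bd h e := by
  rcases isEmpty_or_nonempty E with h0 | ⟨⟨e0⟩⟩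
  · exact ⟨0, 0, fun e => h0.elim e⟩
  obtain ⟨c, -, hc⟩ := (D.global (D.tl e0) (D.b e0)).2 (by
    simp only [card_disjSum, mem_univ, card_erase_of_mem, card_univ]
    have h1 : 0 < Fintype.card V := Fintype.card_pos_iff.2 ⟨D.tl e0⟩
    have h2 : 0 < Fintype.card F := Fintype.card_pos_iff.2 ⟨D.b e0⟩
    unfold Euler at hE
    omega) z
  exact ⟨_, _, fun e => (hc e (mem_univ e)).symm⟩

/-- Every cycle is a boundary. -/
theorem exists_bd (hE : D.Euler) (z : E → ℚ) (hz : ∀ μ : V → ℚ, ∑ e, D.d μ e * z e = 0) :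
    ∃ h : F → ℚ, ∀ e, z e = D.bd h e := by
  obtain ⟨μ, h, hh⟩ := D.hodge hE z
  have h1 := hz μ
  simp only [hh, mul_add, Finset.sum_add_distrib, D.orth, add_zero] at h1
  rw [Finset.sum_eq_zero_iff_of_nonneg (fun e _ => mul_self_nonneg _)] at h1
  exact ⟨h, fun e => by rw [hh e, mul_self_eq_zero.1 (h1 e (mem_univ e)), zero_add]⟩

/-- Every closed form is exact. -/
theorem exists_d (hE : D.Euler) (z : E → ℚ) (hb : ∀ x, ∑ e with D.b e = x, z e = 0)
    (hw : ∀ x, ∑ e with D.w e = x, z e = 0) : ∃ μ : V → ℚ, ∀ e, z e = D.d μ e := by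
  obtain ⟨μ, h, hh⟩ := D.hodge hE z
  have h1 : ∑ e, z e * D.bd h e = 0 := by
    simp only [bd, mul_sub, Finset.sum_sub_distrib, sum_b, sum_w, hb, hw]
    simp
  simp only [hh, add_mul, Finset.sum_add_distrib, D.orth, zero_add] at h1
  rw [Finset.sum_eq_zero_iff_of_nonneg (fun e _ => mul_self_nonneg _)] at h1
  exact ⟨μ, fun e => by rw [hh e, mul_self_eq_zero.1 (h1 e (mem_univ e)), add_zero]⟩

theorem loopless (hE : D.Euler) (e : E) : D.hd e ≠ D.tl e := by
  intro he
  obtain ⟨h, hh⟩ := D.exists_bd hE (fun e' => if e' = e then 1 else 0) (fun μ => by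
    simp [d, he])
  have h1 : h (D.b e) - h (D.w e) = 1 := by simpa [bd] using (hh e).symm
  have := D.conn3 (univ.filter fun x => h x = h (D.b e)) ⟨D.b e, by simp⟩ (by
    intro h0
    have : D.w e ∈ univ.filter fun x => h x = h (D.b e) := by rw [h0]; simp
    have := (mem_filter.1 this).2
    linarith)
  have h2 : (univ.filter (fun e' => ¬ (D.b e' ∈ (univ.filter fun x => h x = h (D.b e)) ↔
      D.w e' ∈ (univ.filter fun x => h x = h (D.b e))))) ⊆ {e} := by
    intro e' he'
    rw [mem_singleton]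
    by_contra hne
    have h3 := hh e'
    simp only [hne, if_false, bd] at h3
    have h4 : h (D.b e') = h (D.w e') := by linarith
    simp [h4] at he'
  have h5 := Finset.card_le_card h2
  rw [Finset.card_singleton] at h5
  omega

end Data

/-- Three loopless edges forming a cycle form a directed triangle. -/
theorem triangle {E V : Type} [DecidableEq E] [DecidableEq V] (tl hd : E → V) (s : Finset E)
    (h3 : s.card = 3) (hl : ∀ e ∈ s, hd e ≠ tl e)
    (hc : ∀ μ : V → ℚ, ∑ e ∈ s, μ (hd e) = ∑ e ∈ s, μ (tl e)) :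
    ∃ a b c : E, s = {a, b, c} ∧ a ≠ b ∧ a ≠ c ∧ b ≠ c ∧ hd a = tl b ∧ hd b = tl c ∧
      hd c = tl a := by
  obtain ⟨a, b, c, hab, hac, hbc, rfl⟩ := Finset.card_eq_three.1 h3
  have ha := hl a (by simp)
  have hb := hl b (by simp)
  have hc' := hl c (by simp)
  have hs : ∀ μ : V → ℚ, μ (hd a) + μ (hd b) + μ (hd c) = μ (tl a) + μ (tl b) + μ (tl c) := by
    intro μ
    have := hc μ
    rw [Finset.sum_insert (by simp [hab, hac]), Finset.sum_pair hbc,
      Finset.sum_insert (by simp [hab, hac]), Finset.sum_pair hbc] at this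
    linarith
  have h1 := hs (fun v => if v = hd a then 1 else 0)
  have h2 := hs (fun v => if v = hd b then 1 else 0)
  have h4 := hs (fun v => if v = hd c then 1 else 0)
  have h5 := hs (fun v => if v = tl a then 1 else 0)
  have h6 := hs (fun v => if v = tl b then 1 else 0)
  have h7 := hs (fun v => if v = tl c then 1 else 0)
  by_cases hab' : hd a = tl b
  · refine ⟨a, b, c, rfl, hab, hac, hbc, hab', ?_, ?_⟩
    · by_contra hne
      grind
    · by_contra hne
      grind
  · refine ⟨a, c, b, by rw [Finset.pair_comm c b], hac, hab, hbc.symm, ?_, ?_, ?_⟩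
    · by_contra hne
      grind
    · by_contra hne
      grind
    · by_contra hne
      grind

end Vale.Agent.P039
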