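import Vale.Agent.P039.Defs
import Vale.Agent.P039.Lin

/-! From graphs with a rotation system to the abstract data, and back to Hamiltonian cycles. -/

namespace Vale.Agent.P039

open Finset

section
variable {V : Type} [Fintype V] [DecidableEq V] {G : SimpleGraph V} [DecidableRel G.Adj]

theorem bridge_fiber (hcubic : G.IsRegularOfDegree 3) (v : V) :
    (univ.filter fun d : G.Dart => d.fst = v).card = 3 := by
  rw [SimpleGraph.dart_fst_fiber_card_eq_degree, hcubic.degree_eq]

theorem bridge_rot_fst {ρ : Equiv.Perm G.Dart} (hρ : IsRotationSystem G ρ) (d : G.Dart) :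
    (ρ d).fst = d.fst :=
  ((hρ d (ρ d)).1 (Equiv.Perm.sameCycle_apply_right.2 (Equiv.Perm.SameCycle.refl _ _))).symm

theorem bridge_rot_adj (hcubic : G.IsRegularOfDegree 3) {ρ : Equiv.Perm G.Dart}
    (hρ : IsRotationSystem G ρ) (d d' : G.Dart) (h : d.fst = d'.fst) (hne : d ≠ d') :
    d' = ρ d ∨ d = ρ d' := by
  by_contra hcon
  push Not at hcon
  have h1 : ρ d ≠ d := fun e => hne (((hρ d d').2 h).eq_of_left e)
  have h2 : ρ d' ≠ d' := fun e => hne (((hρ d d').2 h).eq_of_right e)
  have hsub : ({d, d', ρ d} : Finset G.Dart) ⊆ univ.filter fun x : G.Dart => x.fst = d.fst := by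
    intro x hx
    simp only [mem_insert, mem_singleton] at hx
    rcases hx with rfl | rfl | rfl <;> simp [h.symm, bridge_rot_fst hρ]
  have hc : ({d, d', ρ d} : Finset G.Dart).card = 3 := by
    rw [Finset.card_eq_three]
    exact ⟨d, d', ρ d, hne, h1.symm, hcon.1, rfl⟩
  have heq := Finset.eq_of_subset_of_card_le hsub (by rw [hc, bridge_fiber hcubic])
  have : ρ d' ∈ ({d, d', ρ d} : Finset G.Dart) := by
    rw [heq]; simp [bridge_rot_fst hρ, h]
  simp only [mem_insert, mem_singleton] at this
  rcases this with e | e | e
  · exact hcon.2 e.symm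
  · exact h2 e
  · exact hne (ρ.injective e).symm

omit [DecidableRel G.Adj] in
theorem bridge_connected (hconn : IsThreeConnected G) : G.Connected := by
  have h := hconn.2 ∅ (by simp)
  have hne : Nonempty V := by
    have := hconn.1
    rw [Nat.card_eq_fintype_card] at this
    exact Fintype.card_pos_iff.1 (by omega)
  refine ⟨fun u v => ?_⟩
  have := h.preconnected ⟨u, by simp⟩ ⟨v, by simp⟩
  exact this.map (SimpleGraph.Embedding.induce _).toHom

/-- Three-edge-connectivity, in terms of darts leaving a vertex set. -/
theorem bridge_cut (hcubic : G.IsRegularOfDegree 3) (hconn : IsThreeConnected G) (O : Finset V)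
    (hO : O.Nonempty) (hO' : O ≠ univ) :
    3 ≤ (univ.filter fun d : G.Dart => d.fst ∈ O ∧ d.snd ∉ O).card := by
  by_contra hlt
  push Not at hlt
  set K := univ.filter fun d : G.Dart => d.fst ∈ O ∧ d.snd ∉ O with hK
  set X := K.image fun d => d.fst with hX
  have hXc : X.card ≤ 2 := le_trans Finset.card_image_le (by omega)
  by_cases hOX : O ⊆ X
  · have hOc : O.card ≤ 2 := le_trans (Finset.card_le_card hOX) hXc
    have h1 : (univ.filter fun d : G.Dart => d.fst ∈ O).card = 3 * O.card := by
      rw [Finset.card_eq_sum_card_fiberwise (f := fun d : G.Dart => d.fst) (t := O)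
        (by intro d hd; simpa using hd)]
      rw [Finset.sum_congr rfl (g := fun _ => 3)]
      · simp [mul_comm]
      · intro v hv
        rw [← bridge_fiber hcubic v]
        congr 1
        ext d
        simp only [mem_filter, mem_univ, true_and]
        exact ⟨fun h => h.2, fun h => ⟨h ▸ hv, h⟩⟩
    have h2 : (univ.filter fun d : G.Dart => d.fst ∈ O ∧ d.snd ∈ O).card ≤ O.offDiag.card := by
      apply Finset.card_le_card_of_injOn (fun d => d.toProd)
      · intro d hd
        simp only [coe_filter, mem_univ, true_and, Set.mem_setOf_eq] at hd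
        simp only [coe_offDiag, Set.mem_offDiag, mem_coe]
        exact ⟨hd.1, hd.2, d.fst_ne_snd⟩
      · exact SimpleGraph.Dart.toProd_injective.injOn
    have h3 : (univ.filter fun d : G.Dart => d.fst ∈ O).card =
        (univ.filter fun d : G.Dart => d.fst ∈ O ∧ d.snd ∈ O).card + K.card := by
      rw [hK, ← Finset.filter_filter, ← Finset.filter_filter,
        Finset.card_filter_add_card_filter_not]
    rw [Finset.offDiag_card] at h2
    have := hO.card_pos
    interval_cases O.card <;> omega
  · obtain ⟨u, huO, huX⟩ := Finset.not_subset.1 hOX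
    obtain ⟨w, hw⟩ : ∃ w, w ∉ O := by
      by_contra h
      push Not at h
      exact hO' (Finset.eq_univ_iff_forall.2 h)
    have hXO : ∀ x ∈ X, x ∈ O := by
      intro x hx
      obtain ⟨d, hd, rfl⟩ := Finset.mem_image.1 hx
      exact (Finset.mem_filter.1 hd).2.1
    have key : ∀ (x y : {v | v ∉ X}) (_ : (G.induce {v | v ∉ X}).Walk x y),
        x.1 ∈ O → y.1 ∈ O := by
      intro x y p
      induction p with
      | nil => exact id
      | @cons a b c hab _ ih =>
        intro ha
        apply ih
        by_contra hb
        apply a.2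
        exact Finset.mem_image.2 ⟨⟨(a.1, b.1), hab⟩, by simp [hK, ha, hb], rfl⟩
    obtain ⟨p⟩ := (hconn.2 X hXc).preconnected ⟨u, huX⟩ ⟨w, fun h => hw (hXO w h)⟩
    exact hw (key _ _ p huO)

omit [DecidableRel G.Adj] in
/-- A connected spanning subgraph in which all degrees are two gives a Hamiltonian cycle. -/
theorem bridge_ham (H : SimpleGraph V) (hle : H ≤ G) (h2 : ∀ v, (H.neighborSet v).ncard = 2)
    (hc : ∀ u v, H.Reachable u v) (v0 : V) :
    ∃ (a : V) (p : G.Walk a a), p.IsHamiltonianCycle := by
  have hcyc : H.IsCycles := fun v _ => h2 v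
  obtain ⟨p, hp, hv⟩ := hcyc.exists_cycle_toSubgraph_verts_eq_connectedComponentSupp
    (c := H.connectedComponentMk v0) (v := v0) (by simp)
    (Set.nonempty_of_ncard_ne_zero (by rw [h2]; omega))
  have hs : ∀ w, w ∈ p.support := by
    intro w
    rw [← SimpleGraph.Walk.mem_verts_toSubgraph, hv]
    simpa using hc w v0
  have hham : p.IsHamiltonianCycle := by
    refine ⟨hp, hp.isPath_tail.isHamiltonian_of_mem fun w => ?_⟩
    rw [SimpleGraph.Walk.support_tail_of_not_nil _ hp.not_nil]
    have := hs w
    rw [← SimpleGraph.Walk.cons_tail_support, List.mem_cons] at this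
    rcases this with rfl | h
    · exact p.end_mem_tail_support hp.not_nil
    · exact h
  exact ⟨v0, p.map (.ofLE hle), hham.map Function.bijective_id⟩

end

/-- The bridge for an arbitrary labelling of the darts by faces. -/
theorem hamiltonian_of_faces
    (core : ∀ (E F V : Type) [Fintype E] [Fintype F] [Fintype V] [DecidableEq E]
      [DecidableEq F] [DecidableEq V] (D : Data E F V), D.Euler →
      ∀ e0 : E, ∃ M : Finset E, e0 ∈ M ∧ D.Good M)
    {V : Type} [Fintype V] [DecidableEq V] (G : SimpleGraph V) [DecidableRel G.Adj]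
    (hcubic : G.IsRegularOfDegree 3) (hbip : G.IsBipartite) (hconn : IsThreeConnected G)
    (ρ : Equiv.Perm G.Dart) (hρ : IsRotationSystem G ρ)
    {Φ : Type} [Fintype Φ] [DecidableEq Φ] (φ : G.Dart → Φ) (hφ : ∀ d, φ d.symm = φ (ρ d))
    (hsurj : Function.Surjective φ)
    (heuler : G.edgeFinset.card + 2 ≤ Fintype.card V + Fintype.card Φ) :
    ∃ (a : V) (p : G.Walk a a), p.IsHamiltonianCycle := by
  obtain ⟨C0⟩ := hbip
  let C : G.Coloring Bool := SimpleGraph.recolorOfEquiv G finTwoEquiv C0
  have hC : ∀ d : G.Dart, C d.snd = !C d.fst := by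
    intro d
    have := C.valid d.adj
    revert this
    cases C d.fst <;> cases C d.snd <;> simp
  let E := {d : G.Dart // C d.fst = true}
  have hfst := bridge_rot_fst hρ
  have cardB : ∀ x, C x = true → (univ.filter fun e : E => e.1.fst = x).card = 3 := by
    intro x hx
    rw [← bridge_fiber hcubic x]
    refine Finset.card_bij (fun e _ => e.1) (by simp) (fun a _ b _ h => Subtype.ext h) ?_
    intro d hd
    have hd' : d.fst = x := by simpa using hd
    exact ⟨⟨d, by rw [hd', hx]⟩, by simpa using hd', rfl⟩
  have cardW : ∀ x, C x = false → (univ.filter fun e : E => e.1.snd = x).card = 3 := by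
    intro x hx
    rw [← bridge_fiber hcubic x]
    refine Finset.card_bij (fun e _ => e.1.symm) (by simp)
      (fun a _ b _ h => Subtype.ext (SimpleGraph.Dart.symm_involutive.injective h)) ?_
    intro d hd
    have hd' : d.fst = x := by simpa using hd
    exact ⟨⟨d.symm, by simp [hC, hd', hx]⟩, by simpa using hd', by simp⟩
  let ra : E → E := fun e => ⟨ρ e.1, by rw [hfst]; exact e.2⟩
  let rb : E → E := fun e => ⟨(ρ e.1.symm).symm, by
    have h1 := hC (ρ e.1.symm)
    have h2 := hC e.1
    simp only [SimpleGraph.Dart.symm_toProd, Prod.fst_swap] at h1 ⊢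
    rw [h1, hfst]
    simp [h2, e.2]⟩
  have ra_inj : Function.Injective ra := fun a b h =>
    Subtype.ext (ρ.injective (congrArg Subtype.val h))
  have rb_inj : Function.Injective rb := fun a b h =>
    Subtype.ext (SimpleGraph.Dart.symm_involutive.injective (ρ.injective
      (SimpleGraph.Dart.symm_involutive.injective (congrArg Subtype.val h))))
  have rb_snd : ∀ e, (rb e).1.snd = e.1.snd := by
    intro e
    have := hfst e.1.symm
    simpa [rb] using this
  have rb_hd : ∀ e, φ (rb e).1.symm = φ e.1 := by
    intro e
    have := hφ e.1.symm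
    simp only [SimpleGraph.Dart.symm_symm] at this
    simp [rb, this]
  let D : Data E V Φ :=
    { b := fun e => e.1.fst
      w := fun e => e.1.snd
      isB := C
      isB_b := fun e => e.2
      isB_w := fun e => by rw [hC, e.2]; rfl
      card_b := cardB
      card_w := cardW
      tl := fun e => φ e.1
      hd := fun e => φ e.1.symm
      cyc_b := by
        intro x μ
        refine Finset.sum_bijective ra (Finite.injective_iff_bijective.1 ra_inj) ?_ ?_
        · intro e; simp [ra, hfst]
        · intro e _; rw [hφ]
      cyc_w := by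
        intro x μ
        symm
        refine Finset.sum_bijective rb (Finite.injective_iff_bijective.1 rb_inj) ?_ ?_
        · intro e; simp [rb_snd]
        · intro e _; rw [rb_hd]
      adj_b := by
        intro e e' h hne
        rcases bridge_rot_adj hcubic hρ e.1 e'.1 h (fun h => hne (Subtype.ext h)) with h1 | h1
        · left; rw [hφ, h1]
        · right; rw [hφ, ← h1]
      adj_w := by
        intro e e' h hne
        rcases bridge_rot_adj hcubic hρ e.1.symm e'.1.symm (by simpa using h)
          (fun h => hne (Subtype.ext (SimpleGraph.Dart.symm_involutive.injective h))) with h1 | h1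
        · right; rw [h1, ← hφ]; simp
        · left; rw [h1, ← hφ]; simp
      tl_surj := by
        intro z
        obtain ⟨d, rfl⟩ := hsurj z
        by_cases hd : C d.fst = true
        · exact ⟨⟨d, hd⟩, rfl⟩
        · refine ⟨ra ⟨d.symm, by simpa [hC] using hd⟩, ?_⟩
          simp only [ra]
          rw [← hφ]; simp
      conn3 := by
        intro O h1 h2
        refine le_trans (bridge_cut hcubic hconn O h1 h2) ?_
        apply Finset.card_le_card_of_surjOn
          (fun e : E => if e.1.fst ∈ O then e.1 else e.1.symm)
        intro d hd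
        simp only [coe_filter, mem_univ, true_and, Set.mem_setOf_eq] at hd
        by_cases hc : C d.fst = true
        · exact ⟨⟨d, hc⟩, by simp [hd.1, hd.2], by simp [hd.1]⟩
        · exact ⟨⟨d.symm, by simpa [hC] using hc⟩, by simp [hd.1, hd.2], by simp [hd.2]⟩ }
  have cardE : Fintype.card E = G.edgeFinset.card := by
    have h1 := G.dart_card_eq_twice_card_edges
    have h2 := Finset.card_filter_add_card_filter_not (s := (univ : Finset G.Dart))
      (fun d => C d.fst = true)
    have h3 : (univ.filter fun d : G.Dart => ¬ C d.fst = true).card =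
        (univ.filter fun d : G.Dart => C d.fst = true).card := by
      refine Finset.card_bijective SimpleGraph.Dart.symm
        SimpleGraph.Dart.symm_involutive.bijective ?_
      intro d
      simp [hC]
    rw [Fintype.card_subtype]
    rw [card_univ] at h2
    omega
  have hpos : 0 < Fintype.card E := by
    have h1 := G.sum_degrees_eq_twice_card_edges
    have h2 := hconn.1
    rw [Nat.card_eq_fintype_card] at h2
    simp only [hcubic.degree_eq, sum_const, card_univ, smul_eq_mul] at h1
    omega
  obtain ⟨e0⟩ := Fintype.card_pos_iff.1 hpos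
  have hE : D.Euler := by
    have := D.chi_le e0
    unfold Data.Euler
    omega
  obtain ⟨M, -, hM1, hM2⟩ := core E V Φ D hE e0
  let H : SimpleGraph V :=
    { Adj := fun u v => G.Adj u v ∧ ∀ e ∈ M, e.1.edge ≠ s(u, v)
      symm := ⟨fun u v h => ⟨h.1.symm, by rw [Sym2.eq_swap]; exact h.2⟩⟩
      loopless := ⟨fun u h => G.irrefl h.1⟩ }
  refine bridge_ham H (fun u v h => h.1) ?_ ?_ e0.1.fst
  · intro v
    obtain ⟨e, ⟨heM, hev⟩, huniq⟩ := hM1 v
    obtain ⟨u, hu⟩ : ∃ u, e.1.edge = s(v, u) := by
      rcases hev with h | h
      · exact ⟨e.1.snd, by rw [← h]; rfl⟩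
      · exact ⟨e.1.fst, by rw [← h, Sym2.eq_swap]; rfl⟩
    have hadj : G.Adj v u := by
      have := e.1.edge_mem
      rwa [hu] at this
    have hset : H.neighborSet v = ((G.neighborFinset v).erase u : Finset V) := by
      ext x
      simp only [SimpleGraph.mem_neighborSet, coe_erase, SimpleGraph.coe_neighborFinset,
        Set.mem_diff, Set.mem_singleton_iff, H]
      refine and_congr_right fun _ => ⟨fun h hx => h e heM (by rw [hu, hx]), fun hx e' he' h => ?_⟩
      have : e' = e := by
        apply huniq
        refine ⟨he', ?_⟩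
        rcases SimpleGraph.dart_edge_eq_mk'_iff'.1 h with h' | h'
        · exact Or.inl h'.1
        · exact Or.inr h'.2
      rw [this, hu] at h
      exact hx (Sym2.congr_right.1 h).symm
    rw [hset, Set.ncard_coe_finset, Finset.card_erase_of_mem (by simpa using hadj),
      SimpleGraph.card_neighborFinset_eq_degree, hcubic.degree_eq]
  · intro u v
    classical
    rcases hM2 (univ.filter fun x => H.Reachable u x) (by
      intro e he
      have hadj : H.Adj e.1.fst e.1.snd := by
        refine ⟨e.1.adj, fun e' he' h => ?_⟩
        rcases (SimpleGraph.dart_edge_eq_iff e'.1 e.1).1 h with h' | h'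
        · exact he (Subtype.ext h' ▸ he')
        · have h1 := e'.2
          rw [h'] at h1
          simp [hC, e.2] at h1
      simp only [mem_filter, mem_univ, true_and, D]
      exact ⟨fun h => h.trans hadj.reachable, fun h => h.trans hadj.symm.reachable⟩) with h | h
    · have : u ∈ univ.filter fun x => H.Reachable u x := by simp
      rw [h] at this
      simp at this
    · have : v ∈ univ.filter fun x => H.Reachable u x := by rw [h]; simp
      simpa using this

theorem hamiltonian_of_core
    (core : ∀ (E F V : Type) [Fintype E] [Fintype F] [Fintype V] [DecidableEq E]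
      [DecidableEq F] [DecidableEq V] (D : Data E F V), D.Euler →
      ∀ e0 : E, ∃ M : Finset E, e0 ∈ M ∧ D.Good M)
    {V : Type} [Fintype V] [DecidableEq V] (G : SimpleGraph V) [DecidableRel G.Adj]
    (hcubic : G.IsRegularOfDegree 3) (hbip : G.IsBipartite) (hplanar : IsPlanar G)
    (hconn : IsThreeConnected G) :
    ∃ (a : V) (p : G.Walk a a), p.IsHamiltonianCycle := by
  classical
  obtain ⟨ρ, hρ, heuler⟩ := hplanar
  let Φ := Quotient (Equiv.Perm.SameCycle.setoid (ρ * reversal G))
  letI : Fintype Φ := Fintype.ofFinite _
  refine hamiltonian_of_faces core G hcubic hbip hconn ρ hρ (Φ := Φ) (Quotient.mk _) ?_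
    Quotient.mk_surjective ?_
  · intro d
    apply Quotient.sound
    refine ⟨1, ?_⟩
    simp [reversal]
  · have h1 : Nat.card {v : V // ∀ u, ¬ G.Adj v u} = 0 := by
      rw [Nat.card_eq_zero]
      left
      refine ⟨fun v => ?_⟩
      have : 0 < G.degree v.1 := by rw [hcubic.degree_eq]; omega
      obtain ⟨u, hu⟩ := (G.degree_pos_iff_exists_adj _).1 this
      exact v.2 u hu
    have h2 : Nat.card G.ConnectedComponent = 1 := by
      have hc := bridge_connected hconn
      haveI := hc.preconnected.subsingleton_connectedComponent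
      haveI := hc.nonempty
      exact Nat.card_unique
    have h3 : Nat.card G.edgeSet = G.edgeFinset.card := by
      rw [Nat.card_eq_fintype_card, SimpleGraph.edgeFinset_card]
    rw [h1, h2, h3, faceCount, Nat.card_eq_fintype_card, Nat.card_eq_fintype_card] at heuler
    simpa using heuler.ge

end Vale.Agent.P039
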