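import Vale.Agent.P039.State

/-! Reduction along nontrivial three-edge cuts. -/

namespace Vale.Agent.P039

open Finset

theorem sum_subt {E A : Type} [Fintype E] [AddCommMonoid A] {p q : E → Prop} [DecidablePred p]
    [DecidablePred q] {q' : {e // p e} → Prop} [DecidablePred q'] (hq : ∀ e, q' e ↔ q e.1)
    (h : ∀ e, q e → p e) (f : E → A) : ∑ e with q' e, f e.1 = ∑ e with q e, f e := by
  refine Finset.sum_bij (fun e _ => e.1) (fun e he => ?_) (fun a _ b _ h => Subtype.ext h)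
    (fun e he => ?_) fun _ _ => rfl
  · simpa [hq] using he
  · have := (mem_filter.1 he).2
    exact ⟨⟨e, h e this⟩, by simpa [hq] using this, rfl⟩

theorem card_subt {E : Type} [Fintype E] {p q : E → Prop} [DecidablePred p]
    [DecidablePred q] {q' : {e // p e} → Prop} [DecidablePred q'] (hq : ∀ e, q' e ↔ q e.1)
    (h : ∀ e, q e → p e) : (univ.filter q').card = (univ.filter q).card := by
  simpa using sum_subt hq h fun _ => (1 : ℕ)

set_option linter.unusedSectionVars false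

variable {E F V : Type} [Fintype E] [Fintype F] [Fintype V] [DecidableEq E]
  [DecidableEq F] [DecidableEq V]

/-- Contraction of the complement of `O` to a point. -/
def con (O : Finset F) (x : F) : Option {x // x ∈ O} := if h : x ∈ O then some ⟨x, h⟩ else none

theorem con_none {O : Finset F} {x : F} : con O x = none ↔ x ∉ O := by
  unfold con; split_ifs with h <;> simp [h]

theorem con_some {O : Finset F} {x : F} {y : {x // x ∈ O}} : con O x = some y ↔ x = y.1 := by
  unfold con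
  split_ifs with h
  · simp [Subtype.ext_iff]
  · simpa using fun h' : x = y.1 => h (h' ▸ y.2)

namespace Data

variable (D : Data E F V)

/-- The edges entering `O`. -/
def cut (O : Finset F) : Finset E := univ.filter fun e => D.b e ∉ O ∧ D.w e ∈ O

/-- A three-edge cut all of whose white ends are in `O`. -/
structure Cut3 (O : Finset F) : Prop where
  eul : D.Euler
  bw : ∀ e, D.b e ∈ O → D.w e ∈ O
  three : (D.cut O).card = 3

/-- The faces meeting `O`. -/
def VO (O : Finset F) : Finset V := (univ.filter fun e => D.w e ∈ O).image D.tl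

variable {D} {O : Finset F}

theorem mem_cut {e : E} : e ∈ D.cut O ↔ D.b e ∉ O ∧ D.w e ∈ O := by simp [cut]

theorem tl_mem {e : E} (h : D.w e ∈ O) : D.tl e ∈ D.VO O := mem_image_of_mem _ (by simpa using h)

theorem hd_mem {e : E} (h : D.w e ∈ O) : D.hd e ∈ D.VO O := by
  obtain ⟨e', h1, h2⟩ := D.exists_next_w e
  exact h2 ▸ tl_mem (h1 ▸ h)

theorem cut_swap : D.swap.cut Oᶜ = D.cut O := by
  ext e; simp [mem_cut, swap, and_comm]

theorem Cut3.swap (h : D.Cut3 O) : D.swap.Cut3 Oᶜ :=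
  ⟨h.eul, fun e he => mem_compl.2 fun h' => mem_compl.1 he (h.bw e h'), by
    rw [cut_swap, h.three]⟩

theorem Cut3.cyc (h : D.Cut3 O) (μ : V → ℚ) :
    ∑ e ∈ D.cut O, μ (D.hd e) = ∑ e ∈ D.cut O, μ (D.tl e) := by
  have := D.orth μ fun x => if x ∈ O then -1 else 0
  rw [← sub_eq_zero, ← Finset.sum_sub_distrib, ← this, cut, Finset.sum_filter]
  refine Finset.sum_congr rfl fun e _ => ?_
  have := h.bw e
  by_cases h1 : D.b e ∈ O <;> by_cases h2 : D.w e ∈ O <;> simp_all [d, bd]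

theorem Cut3.tri (h : D.Cut3 O) : ∃ a b c : E, D.cut O = {a, b, c} ∧ a ≠ b ∧ a ≠ c ∧ b ≠ c ∧
    D.hd a = D.tl b ∧ D.hd b = D.tl c ∧ D.hd c = D.tl a :=
  triangle D.tl D.hd _ h.three (fun e _ => D.loopless h.eul e) h.cyc

theorem Cut3.out (h : D.Cut3 O) : ∃ e, D.b e ∉ O ∧ D.w e ∈ O := by
  obtain ⟨e, he⟩ := Finset.card_pos.1 (show 0 < (D.cut O).card by rw [h.three]; norm_num)
  exact ⟨e, mem_cut.1 he⟩

/-- Extension by zero. -/
def ext0 (μ : D.VO O → ℚ) (v : V) : ℚ := if h : v ∈ D.VO O then μ ⟨v, h⟩ else 0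

theorem ext0_eq (μ : D.VO O → ℚ) {v : V} (h : v ∈ D.VO O) : μ ⟨v, h⟩ = ext0 μ v := by
  simp [ext0, h]

/-- The map obtained by contracting the complement of `O` to a black vertex. -/
def Cut3.contract (h : D.Cut3 O) : Data {e // D.w e ∈ O} (Option {x // x ∈ O}) (D.VO O) where
  b e := con O (D.b e.1)
  w e := con O (D.w e.1)
  isB y := y.elim true fun x => D.isB x.1
  isB_b e := by
    unfold con; split_ifs <;> simp [D.isB_b]
  isB_w e := by simp [con, e.2, D.isB_w]
  card_b := by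
    rintro (_ | x) hx
    · rw [← h.three]
      exact card_subt (fun e => by simp [con_none, e.2]) fun e he => he.2
    · rw [← D.card_b x.1 hx]
      exact card_subt (fun e => con_some) fun e he => h.bw e (he ▸ x.2)
  card_w := by
    rintro (_ | x) hx
    · simp at hx
    · rw [← D.card_w x.1 hx]
      exact card_subt (fun e => con_some) fun e he => he ▸ x.2
  tl e := ⟨D.tl e.1, tl_mem e.2⟩
  hd e := ⟨D.hd e.1, hd_mem e.2⟩
  cyc_b := by
    rintro (_ | x) μ
    · simp only [ext0_eq]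
      have hq : ∀ e : {e // D.w e ∈ O}, con O (D.b e.1) = none ↔ D.b e.1 ∉ O ∧ D.w e.1 ∈ O :=
        fun e => by simp [con_none, e.2]
      have k := sum_subt (A := ℚ) (q := fun e => D.b e ∉ O ∧ D.w e ∈ O) hq fun e he => he.2
      exact (k fun e => ext0 μ (D.hd e)).trans ((h.cyc _).trans (k fun e => ext0 μ (D.tl e)).symm)
    · simp only [ext0_eq]
      have hq : ∀ e : {e // D.w e ∈ O}, con O (D.b e.1) = some x ↔ D.b e.1 = x.1 :=
        fun e => con_some
      have k := sum_subt (A := ℚ) (q := fun e => D.b e = x.1) hq fun e he => h.bw e (he ▸ x.2)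
      exact (k fun e => ext0 μ (D.hd e)).trans
        ((D.cyc_b _ _).trans (k fun e => ext0 μ (D.tl e)).symm)
  cyc_w := by
    rintro (_ | x) μ
    · rw [Finset.filter_eq_empty_iff.2 fun e _ => by simp [con_none, e.2]]
      simp
    · simp only [ext0_eq]
      have hq : ∀ e : {e // D.w e ∈ O}, con O (D.w e.1) = some x ↔ D.w e.1 = x.1 :=
        fun e => con_some
      have k := sum_subt (A := ℚ) (q := fun e => D.w e = x.1) hq fun e he => he ▸ x.2
      exact (k fun e => ext0 μ (D.hd e)).trans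
        ((D.cyc_w _ _).trans (k fun e => ext0 μ (D.tl e)).symm)
  adj_b e e' he hne := by
    simp only [Subtype.mk.injEq]
    have hne' : e.1 ≠ e'.1 := fun h => hne (Subtype.ext h)
    by_cases h1 : D.b e.1 ∈ O
    · exact D.adj_b _ _ (con_some.1 (he.symm.trans (con_some (y := ⟨_, h1⟩).2 rfl))).symm hne'
    · have h2 := con_none.1 (he.symm.trans (con_none.2 h1))
      obtain ⟨a, b, c, hs, -, -, -, h3, h4, h5⟩ := h.tri
      have k1 : e.1 ∈ D.cut O := mem_cut.2 ⟨h1, e.2⟩
      have k2 : e'.1 ∈ D.cut O := mem_cut.2 ⟨h2, e'.2⟩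
      rw [hs] at k1 k2
      simp only [mem_insert, mem_singleton] at k1 k2
      rcases k1 with k1 | k1 | k1 <;> rcases k2 with k2 | k2 | k2 <;> simp_all
  adj_w e e' he hne := by
    simp only [Subtype.mk.injEq]
    exact D.adj_w _ _ (con_some.1 (he.symm.trans (con_some (y := ⟨_, e.2⟩).2 rfl))).symm
      fun h => hne (Subtype.ext h)
  tl_surj := by
    rintro ⟨v, hv⟩
    obtain ⟨e, he, rfl⟩ := mem_image.1 hv
    exact ⟨⟨e, (mem_filter.1 he).2⟩, rfl⟩
  conn3 O' h1 h2 := by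
    have hs : Function.Surjective (con O) := by
      rintro (_ | x)
      · obtain ⟨e, he, -⟩ := h.out
        exact ⟨_, con_none.2 he⟩
      · exact ⟨_, con_some.2 rfl⟩
    have := D.conn3 (univ.filter fun x => con O x ∈ O') (by
      obtain ⟨y, hy⟩ := h1
      obtain ⟨x, rfl⟩ := hs y
      exact ⟨x, by simpa using hy⟩) (fun h0 => h2 (eq_univ_of_forall fun y => by
      obtain ⟨x, rfl⟩ := hs y
      simpa using Finset.ext_iff.1 h0 x))
    refine this.trans (card_subt (fun e => by simp) fun e he => ?_).ge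
    by_contra hw
    have hb : D.b e ∉ O := fun hb => hw (h.bw e hb)
    simp [con_none.2 hw, con_none.2 hb] at he

theorem Cut3.euler (h : D.Cut3 O) : h.contract.Euler ∧ h.swap.contract.Euler := by
  obtain ⟨a, b, c, hs, -, -, -, h3, h4, h5⟩ := h.tri
  have ha : a ∈ D.cut O := by simp [hs]
  have k1 := h.contract.chi_le ⟨a, (mem_cut.1 ha).2⟩
  have k2 := h.swap.contract.chi_le ⟨a, mem_compl.2 (mem_cut.1 ha).1⟩
  have k3 := h.eul
  simp only [Euler, Fintype.card_option, Fintype.card_subtype, filter_mem_eq_inter,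
    univ_inter] at k1 k2 k3 ⊢
  have k4 := card_add_card_compl O
  have k5 := card_union_add_card_inter (univ.filter fun e => D.w e ∈ O)
    (univ.filter fun e => D.swap.w e ∈ Oᶜ)
  have k6 : (univ.filter fun e => D.w e ∈ O) ∪ (univ.filter fun e => D.swap.w e ∈ Oᶜ) = univ := by
    refine eq_univ_of_forall fun e => ?_
    have := h.bw e
    by_cases hb : D.b e ∈ O <;> simp_all [Data.swap]
  have k7 : (univ.filter fun e => D.w e ∈ O) ∩ (univ.filter fun e => D.swap.w e ∈ Oᶜ) =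
      D.cut O := by
    ext e; simp [mem_cut, Data.swap, and_comm]
  have k8 := card_union_add_card_inter (D.VO O) (D.swap.VO Oᶜ)
  have k9 : D.VO O ∪ D.swap.VO Oᶜ = univ := by
    rw [VO, VO, show D.swap.tl = D.tl from rfl, ← image_union, k6]
    exact image_univ_of_surjective D.tl_surj
  have k10 : 3 ≤ (D.VO O ∩ D.swap.VO Oᶜ).card := by
    have l1 := D.loopless h.eul a
    have l2 := D.loopless h.eul b
    have l3 := D.loopless h.eul c
    rw [← card_eq_three.2 ⟨D.tl a, D.tl b, D.tl c, by grind, by grind, by grind, rfl⟩]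
    refine card_le_card fun v hv => ?_
    have : ∃ e ∈ D.cut O, D.tl e = v := by
      simp only [mem_insert, mem_singleton] at hv
      rcases hv with rfl | rfl | rfl
      · exact ⟨a, ha, rfl⟩
      · exact ⟨b, by simp [hs], rfl⟩
      · exact ⟨c, by simp [hs], rfl⟩
    obtain ⟨e, he, rfl⟩ := this
    exact mem_inter.2 ⟨tl_mem (mem_cut.1 he).2,
      tl_mem (D := D.swap) (mem_compl.2 (mem_cut.1 he).1)⟩
  rw [k6, k7, h.three, card_univ] at k5
  rw [k9, card_univ] at k8
  omega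

theorem Cut3.small (h : D.Cut3 O) (hO : Oᶜ.card ≠ 1) :
    Fintype.card {e // D.w e ∈ O} < Fintype.card E := by
  by_contra hc
  have hw : ∀ e, D.w e ∈ O := fun e => by
    by_contra he
    exact hc (Fintype.card_subtype_lt he)
  have key : ∀ x, x ∉ O → univ.filter (fun e => D.b e = x) = D.cut O := by
    intro x hx
    cases hb : D.isB x
    · obtain ⟨e, he⟩ := Finset.card_pos.1
        (show 0 < (univ.filter fun e => D.w e = x).card by rw [D.card_w x hb]; norm_num)
      exact absurd ((mem_filter.1 he).2 ▸ hw e) hx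
    · refine eq_of_subset_of_card_le (fun e he => ?_) (by rw [D.card_b x hb, h.three])
      exact mem_cut.2 ⟨(mem_filter.1 he).2 ▸ hx, hw e⟩
  obtain ⟨e, he, he'⟩ := h.out
  refine hO (card_eq_one.2 ⟨D.b e, eq_singleton_iff_unique_mem.2 ⟨mem_compl.2 he, fun x hx => ?_⟩⟩)
  have : e ∈ univ.filter fun e => D.b e = x := by
    rw [key x (mem_compl.1 hx)]; exact mem_cut.2 ⟨he, he'⟩
  exact (mem_filter.1 this).2.symm

variable (D O) in
/-- A good matching of the contracted map, seen in the original map. -/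
structure Side (M : Finset E) (c : E) : Prop where
  mem : c ∈ M
  out : D.b c ∉ O
  sub : ∀ e ∈ M, D.w e ∈ O
  uni : ∀ e ∈ M, D.b e ∉ O → e = c
  mat : ∀ x ∈ O, ∃! e, e ∈ M ∧ (D.b e = x ∨ D.w e = x)
  con : ∀ (S : Finset F) (t : Prop), (∀ e ∉ M, D.b e ∈ O → (D.b e ∈ S ↔ D.w e ∈ S)) →
    (∀ e ∉ M, D.b e ∉ O → D.w e ∈ O → (t ↔ D.w e ∈ S)) → ∀ x ∈ O, (x ∈ S ↔ t)

theorem Cut3.side (h : D.Cut3 O) {M : Finset {e // D.w e ∈ O}} (hM : h.contract.Good M) :
    ∃ c, D.Side O (M.map (Function.Embedding.subtype _)) c := by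
  classical
  have hm : ∀ e : {e // D.w e ∈ O}, e.1 ∈ M.map (Function.Embedding.subtype _) ↔ e ∈ M :=
    fun e => mem_map' _
  have hs : ∀ e ∈ M.map (Function.Embedding.subtype _), D.w e ∈ O := fun e he => by
    obtain ⟨e', -, rfl⟩ := mem_map.1 he
    exact e'.2
  obtain ⟨c, ⟨h1, h2⟩, h3⟩ := hM.1 none
  refine ⟨c.1, (hm c).2 h1, ?_, hs, fun e he hb => ?_, fun x hx => ?_, fun S t k1 k2 x hx => ?_⟩
  · exact h2.elim con_none.1 fun h' => absurd c.2 (con_none.1 h')
  · exact congrArg Subtype.val (h3 ⟨e, hs e he⟩ ⟨(hm _).1 he, Or.inl (con_none.2 hb)⟩)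
  · obtain ⟨e, ⟨h4, h5⟩, h6⟩ := hM.1 (some ⟨x, hx⟩)
    refine ⟨e.1, ⟨(hm e).2 h4, h5.imp con_some.1 con_some.1⟩, fun e' he' => ?_⟩
    exact congrArg Subtype.val (h6 ⟨e', hs e' he'.1⟩
      ⟨(hm _).1 he'.1, he'.2.imp con_some.2 con_some.2⟩)
  · obtain ⟨S', a1, a2⟩ : ∃ S' : Finset (Option {x // x ∈ O}), (none ∈ S' ↔ t) ∧
        ∀ x, (some x ∈ S' ↔ x.1 ∈ S) :=
      ⟨univ.filter fun y => y.elim t fun x => x.1 ∈ S, by simp, by simp⟩
    have := hM.2 S' fun e he => by
      have he' := mt (hm e).1 he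
      simp only [contract, P039.con, e.2, dif_pos]
      split_ifs with hb
      · rw [a2, a2]; exact k1 e he' hb
      · rw [a1, a2]; exact k2 e he' hb e.2
    rw [← a1, ← a2 ⟨x, hx⟩]
    rcases this with rfl | rfl <;> simp

theorem deg (D : Data E F V) (x : F) :
    (univ.filter fun e => D.b e = x).card + (univ.filter fun e => D.w e = x).card = 3 ∧
    (3 ∣ (univ.filter fun e => D.b e = x).card) ∧ 3 ∣ (univ.filter fun e => D.w e = x).card := by
  cases hb : D.isB x
  · rw [D.card_w x hb, filter_eq_empty_iff.2 fun e _ h => by simpa [h, hb] using D.isB_b e]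
    simp
  · rw [D.card_b x hb, filter_eq_empty_iff.2 fun e _ h => by simpa [h, hb] using D.isB_w e]
    simp

theorem card_fib (g : E → F) (s : Finset E) (T : Finset F) :
    (s.filter fun e => g e ∈ T).card = ∑ x ∈ T, (s.filter fun e => g e = x).card := by
  rw [card_eq_sum_card_fiberwise (f := g) (t := T) fun e he => by simpa using (mem_filter.1 he).2]
  refine sum_congr rfl fun x hx => ?_
  rw [filter_filter]
  exact congrArg card (filter_congr fun e _ => ⟨fun h => h.2, fun h => ⟨h ▸ hx, h⟩⟩)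

theorem parity {M : Finset E} (hM : ∀ x : F, ∃! e, e ∈ M ∧ (D.b e = x ∨ D.w e = x))
    (T : Finset F) : (Mᶜ.filter fun e => D.b e ∈ T).card + (Mᶜ.filter fun e => D.w e ∈ T).card =
      2 * T.card := by
  rw [card_fib, card_fib, ← sum_add_distrib, mul_comm, ← smul_eq_mul, ← sum_const]
  refine sum_congr rfl fun x _ => ?_
  have h1 := (D.deg x).1
  have h2 : ∀ p : E → Prop, ∀ [DecidablePred p], (M.filter p).card + (Mᶜ.filter p).card =
      (univ.filter p).card := fun p _ => by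
    rw [← card_union_of_disjoint (disjoint_filter_filter disjoint_compl_right), ← filter_union,
      union_compl]
  have h3 : (M.filter fun e => D.b e = x).card + (M.filter fun e => D.w e = x).card = 1 := by
    rw [← card_union_of_disjoint (disjoint_filter.2 fun e _ h h' => D.b_ne_w e e (h.trans h'.symm)),
      ← filter_or]
    obtain ⟨e, he, hu⟩ := hM x
    exact card_eq_one.2 ⟨e, eq_singleton_iff_unique_mem.2 ⟨mem_filter.2 he,
      fun e' he' => hu e' (mem_filter.1 he')⟩⟩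
  have h4 := h2 fun e => D.b e = x
  have h5 := h2 fun e => D.w e = x
  omega

theorem card_split (s : Finset E) (p q : E → Prop) [DecidablePred p] [DecidablePred q] :
    (s.filter p).card = (s.filter fun e => p e ∧ q e).card + (s.filter fun e => p e ∧ ¬ q e).card := by
  rw [← filter_filter, ← filter_filter, card_filter_add_card_filter_not]

theorem Cut3.glue (h : D.Cut3 O) {M1 M2 : Finset E} {c : E} (h1 : D.Side O M1 c)
    (h2 : D.swap.Side Oᶜ M2 c) : D.Good (M1 ∪ M2) := by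
  have m1 : ∀ e, D.w e ∈ O → (e ∈ M1 ∪ M2 ↔ e ∈ M1) := fun e he =>
    ⟨fun h' => (mem_union.1 h').elim id fun h' => h2.uni e h' (by simpa [Data.swap] using he) ▸ h1.mem,
      fun h' => mem_union_left _ h'⟩
  have m2 : ∀ e, D.b e ∉ O → (e ∈ M1 ∪ M2 ↔ e ∈ M2) := fun e he =>
    ⟨fun h' => (mem_union.1 h').elim (fun h' => h1.uni e h' he ▸ h2.mem) id,
      fun h' => mem_union_right _ h'⟩
  have hM : ∀ x : F, ∃! e, e ∈ M1 ∪ M2 ∧ (D.b e = x ∨ D.w e = x) := by
    intro x
    by_cases hx : x ∈ O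
    · refine (existsUnique_congr fun e => and_congr_left fun he => ?_).2 (h1.mat x hx)
      exact m1 e (he.elim (fun he => h.bw e (he ▸ hx)) fun he => he ▸ hx)
    · refine (existsUnique_congr fun e => ?_).2 (h2.mat x (mem_compl.2 hx))
      rw [or_comm]
      refine and_congr_left fun he => m2 e ?_
      exact he.elim (fun he hb => hx (he ▸ h.bw e hb)) fun he hb => hx (he ▸ hb)
  refine ⟨hM, fun S hS => ?_⟩
  have key : ∀ e ∉ M1 ∪ M2, e ∈ D.cut O →
      ((∃ e ∉ M1 ∪ M2, e ∈ D.cut O ∧ D.w e ∈ S) ↔ D.w e ∈ S) := by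
    intro e he hc
    refine ⟨fun ⟨e', he', hc', hw⟩ => ?_, fun hw => ⟨e, he, hc, hw⟩⟩
    by_contra hn
    have k1 := parity hM (S ∩ O)
    have k2 := card_split (M1 ∪ M2)ᶜ (fun e => D.w e ∈ S ∩ O) fun e => D.b e ∈ O
    have k3 : ((M1 ∪ M2)ᶜ.filter fun e => D.w e ∈ S ∩ O ∧ D.b e ∈ O) =
        (M1 ∪ M2)ᶜ.filter fun e => D.b e ∈ S ∩ O := filter_congr fun e he => by
      have a1 := hS e (mem_compl.1 he)
      have a2 := h.bw e
      simp only [mem_inter]
      tauto
    have k4 : ((M1 ∪ M2)ᶜ.filter fun e => D.w e ∈ S ∩ O ∧ D.b e ∉ O) = {e'} := by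
      refine eq_singleton_iff_unique_mem.2 ⟨mem_filter.2 ⟨mem_compl.2 he',
        mem_inter.2 ⟨hw, (mem_cut.1 hc').2⟩, (mem_cut.1 hc').1⟩, fun x hx => ?_⟩
      obtain ⟨x1, x2, x3⟩ := mem_filter.1 hx
      by_contra hne
      have hcM : c ∈ M1 ∪ M2 := mem_union_left _ h1.mem
      have n1 : c ≠ e := fun h => he (h ▸ hcM)
      have n2 : c ≠ e' := fun h => he' (h ▸ hcM)
      have n3 : c ≠ x := fun h => mem_compl.1 x1 (h ▸ hcM)
      have n4 : e ≠ e' := fun h => hn (h ▸ hw)
      have n5 : e ≠ x := fun h => hn (h ▸ (mem_inter.1 x2).1)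
      have : ({c, e, e', x} : Finset E) ⊆ D.cut O := by
        intro y hy
        simp only [mem_insert, mem_singleton] at hy
        rcases hy with rfl | rfl | rfl | rfl
        · exact mem_cut.2 ⟨h1.out, h1.sub _ h1.mem⟩
        · exact hc
        · exact hc'
        · exact mem_cut.2 ⟨x3, (mem_inter.1 x2).2⟩
      have := card_le_card this
      rw [h.three, card_insert_of_notMem (by simp [n1, n2, n3]),
        card_insert_of_notMem (by simp [n4, n5]), card_pair (Ne.symm hne)] at this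
      omega
    rw [k3, k4, card_singleton] at k2
    omega
  have s1 := h1.con S _ (fun e he hb => hS e (mt (m1 e (h.bw e hb)).1 he))
    fun e he hb hw => key e (mt (m1 e hw).1 he) (mem_cut.2 ⟨hb, hw⟩)
  have s2 := h2.con S (∃ e ∉ M1 ∪ M2, e ∈ D.cut O ∧ D.w e ∈ S)
    (fun e he hb => (hS e (mt (m2 e fun h' => mem_compl.1 hb (h.bw e h')).1 he)).symm)
    fun e he hb hw => by
      have a1 := mt (m2 e (mem_compl.1 hw)).1 he
      exact (key e a1 (mem_cut.2 ⟨mem_compl.1 hw, by simpa [Data.swap] using hb⟩)).trans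
        (hS e a1).symm
  have s3 : ∀ x, x ∈ S ↔ ∃ e ∉ M1 ∪ M2, e ∈ D.cut O ∧ D.w e ∈ S := fun x => by
    by_cases hx : x ∈ O
    · exact s1 x hx
    · exact s2 x (mem_compl.2 hx)
  by_cases ht : ∃ e ∉ M1 ∪ M2, e ∈ D.cut O ∧ D.w e ∈ S
  · exact Or.inr (eq_univ_of_forall fun x => (s3 x).2 ht)
  · exact Or.inl (eq_empty_of_forall_notMem fun x hx => ht ((s3 x).1 hx))

theorem exists_cut3 (hE : D.Euler) (h4 : ¬ D.Ess4) :
    ∃ O : Finset F, D.Cut3 O ∧ O.card ≠ 1 ∧ Oᶜ.card ≠ 1 := by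
  simp only [Ess4, not_forall, not_or] at h4
  obtain ⟨O, h3, h1, h2⟩ := h4
  have k1 : 3 ∣ (univ.filter fun e => D.b e ∈ O).card := by
    rw [card_fib]; exact dvd_sum fun x _ => (D.deg x).2.1
  have k2 : 3 ∣ (univ.filter fun e => D.w e ∈ O).card := by
    rw [card_fib]; exact dvd_sum fun x _ => (D.deg x).2.2
  rw [card_split _ _ fun e => D.w e ∈ O] at k1
  rw [card_split _ _ fun e => D.b e ∈ O, filter_congr fun e _ => and_comm] at k2
  rw [card_split _ _ fun e => D.b e ∈ O,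
    filter_congr (q := fun e => D.b e ∈ O ∧ D.w e ∉ O) fun e _ => by tauto,
    filter_congr (p := fun e => ¬ (D.b e ∈ O ↔ D.w e ∈ O) ∧ D.b e ∉ O)
      (q := fun e => D.w e ∈ O ∧ D.b e ∉ O) fun e _ => by tauto] at h3
  by_cases h0 : (univ.filter fun e => D.b e ∈ O ∧ D.w e ∉ O).card = 0
  · refine ⟨O, ⟨hE, fun e he => ?_, ?_⟩, h1, h2⟩
    · by_contra hw
      exact filter_eq_empty_iff.1 (card_eq_zero.1 h0) (mem_univ e) ⟨he, hw⟩
    · rw [cut, filter_congr fun e _ => and_comm]; omega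
  · have h0' : (univ.filter fun e => D.w e ∈ O ∧ D.b e ∉ O).card = 0 := by omega
    refine ⟨Oᶜ, ⟨hE, fun e he => mem_compl.2 fun hw => ?_, ?_⟩, h2, by rwa [compl_compl]⟩
    · exact filter_eq_empty_iff.1 (card_eq_zero.1 h0') (mem_univ e) ⟨hw, mem_compl.1 he⟩
    · simp only [cut, mem_compl, not_not]; omega

end Data

theorem core_of_core4
    (core4 : ∀ (E F V : Type) [Fintype E] [Fintype F] [Fintype V] [DecidableEq E]
      [DecidableEq F] [DecidableEq V] (D : Data E F V), D.Euler → D.Ess4 →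
      ∀ e0 : E, ∃ M : Finset E, e0 ∈ M ∧ D.Good M)
    {E F V : Type} [Fintype E] [Fintype F] [Fintype V] [DecidableEq E]
    [DecidableEq F] [DecidableEq V] (D : Data E F V) (hE : D.Euler) (e0 : E) :
    ∃ M : Finset E, e0 ∈ M ∧ D.Good M := by
  induction hn : Fintype.card E using Nat.strong_induction_on generalizing E F V with
  | _ n ih =>
  by_cases h4 : D.Ess4
  · exact core4 E F V D hE h4 e0
  obtain ⟨O, h, h1, h2⟩ := Data.exists_cut3 hE h4
  have s1 : ∀ e, D.w e ∈ O → ∃ M c, e ∈ M ∧ D.Side O M c := fun e he => by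
    obtain ⟨M, hM, hG⟩ := ih _ (hn ▸ h.small h2) h.contract h.euler.1 ⟨e, he⟩ rfl
    obtain ⟨c, hc⟩ := h.side hG
    exact ⟨_, c, mem_map_of_mem _ hM, hc⟩
  have s2 : ∀ e, D.swap.w e ∈ Oᶜ → ∃ M c, e ∈ M ∧ D.swap.Side Oᶜ M c := fun e he => by
    obtain ⟨M, hM, hG⟩ := ih _ (hn ▸ h.swap.small (by rwa [compl_compl])) h.swap.contract
      h.euler.2 ⟨e, he⟩ rfl
    obtain ⟨c, hc⟩ := h.swap.side hG
    exact ⟨_, c, mem_map_of_mem _ hM, hc⟩
  by_cases h0 : D.w e0 ∈ O
  · obtain ⟨M1, c, a1, a2⟩ := s1 e0 h0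
    obtain ⟨M2, c', a3, a4⟩ := s2 c (mem_compl.2 a2.out)
    obtain rfl := a4.uni c a3 (fun hc => mem_compl.1 hc (a2.sub c a2.mem))
    exact ⟨M1 ∪ M2, mem_union_left _ a1, h.glue a2 a4⟩
  · obtain ⟨M2, c, a1, a2⟩ := s2 e0 (mem_compl.2 fun hb => h0 (h.bw e0 hb))
    obtain ⟨M1, c', a3, a4⟩ := s1 c (by simpa [Data.swap] using a2.out)
    obtain rfl := a4.uni c a3 (mem_compl.1 (a2.sub c a2.mem))
    exact ⟨M1 ∪ M2, mem_union_right _ a1, h.glue a4 a2⟩

end Vale.Agent.P039
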