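import Vale.Agent.P039.Match

/-! Existence of a pair of disjoint states, by Hall's theorem. -/

namespace Vale.Agent.P039

open Finset

variable {E F V : Type} [Fintype E] [Fintype F] [Fintype V] [DecidableEq E]
  [DecidableEq F] [DecidableEq V]

namespace Data

variable (D : Data E F V)

theorem card_b_mem (O : Finset F) :
    (univ.filter fun e => D.b e ∈ O).card = 3 * (O.filter fun y => D.isB y = true).card := by
  rw [Finset.card_eq_sum_card_fiberwise (f := D.b) (t := O.filter fun y => D.isB y = true)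
    (fun e he => by simpa [D.isB_b] using he), Finset.sum_congr rfl (g := fun _ => 3)]
  · simp [mul_comm]
  intro y hy
  rw [mem_filter] at hy
  rw [← D.card_b y hy.2]
  congr 1
  ext e
  simp only [mem_filter, mem_univ, true_and, and_iff_right_iff_imp]
  rintro rfl; exact hy.1

theorem region_ineq (hE : D.Euler) (T : Finset E) (Y : Finset V) (r : V) (hr : r ∈ Y)
    (hT : ∀ e ∈ T, D.tl e ∈ Y ∧ D.hd e ∈ Y) {Q : Type} [Fintype Q] [DecidableEq Q] (q : F → Q)
    (O0 : Q) (hq : ∀ h : F → ℚ, (∀ e, e ∉ T → h (D.b e) = h (D.w e)) →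
      ∃ h' : Q → ℚ, ∀ y, h' (q y) = h y) :
    T.card + 2 ≤ Y.card + Fintype.card Q := by
  let L : (E → ℚ) →ₗ[ℚ] (V ⊕ Q → ℚ) :=
    { toFun := fun x => Sum.elim (fun v => ∑ e, D.d (fun u => if u = v then 1 else 0) e * x e)
        (fun O => ∑ e, D.bd (fun y => if q y = O then 1 else 0) e * x e)
      map_add' := fun x y => by
        funext a; rcases a with v | O <;> simp [mul_add, Finset.sum_add_distrib]
      map_smul' := fun c x => by
        funext a; rcases a with v | O <;> simp [Finset.mul_sum, mul_left_comm] }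
  have key := (card_le_of_ker T ((Y.erase r).disjSum (univ.erase O0)) L (by
    intro x hx0 hx1
    obtain ⟨h, hh⟩ := D.exists_bd hE x (fun μ => by
      have h1 : ∀ e, D.d μ e * x e = ∑ v ∈ Y.erase r, (μ v - μ r) *
          (D.d (fun u => if u = v then 1 else 0) e * x e) := by
        intro e
        by_cases he : e ∈ T
        · have h2 : ∀ u ∈ Y, ∑ v ∈ Y.erase r, (μ v - μ r) * (if u = v then (1 : ℚ) else 0) =
              μ u - μ r := by
            intro u hu
            by_cases hur : u = r <;> simp [hur, hu]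
          simp only [d, sub_mul (if _ then (1 : ℚ) else 0), mul_sub (μ _ - μ r), ← mul_assoc,
            Finset.sum_sub_distrib, ← Finset.sum_mul, h2 _ (hT e he).1, h2 _ (hT e he).2]
          ring
        · simp [hx0 e he]
      simp only [h1]
      rw [Finset.sum_comm]
      refine Finset.sum_eq_zero fun v hv => ?_
      rw [← Finset.mul_sum]
      have := hx1 (Sum.inl v) (by simpa using hv)
      simp only [L, LinearMap.coe_mk, AddHom.coe_mk, Sum.elim_inl] at this
      rw [this, mul_zero])
    obtain ⟨h', hh'⟩ := hq h (fun e he => sub_eq_zero.1 ((hh e).symm.trans (hx0 e he)))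
    have h1 : ∀ e, x e * x e = ∑ O ∈ univ.erase O0, (h' O - h' O0) *
        (D.bd (fun y => if q y = O then 1 else 0) e * x e) := by
      intro e
      have h2 : ∀ u, ∑ O ∈ univ.erase O0, (h' O - h' O0) * (if u = O then (1 : ℚ) else 0) =
          h' u - h' O0 := by
        intro u
        by_cases hur : u = O0 <;> simp [hur]
      simp only [bd, sub_mul (if _ then (1 : ℚ) else 0), mul_sub (h' _ - h' O0), ← mul_assoc,
        Finset.sum_sub_distrib, ← Finset.sum_mul, h2, hh']
      nth_rewrite 1 [hh e]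
      simp only [bd]
      ring
    have h3 : ∑ e, x e * x e = 0 := by
      simp only [h1]
      rw [Finset.sum_comm]
      refine Finset.sum_eq_zero fun O hO => ?_
      rw [← Finset.mul_sum]
      have := hx1 (Sum.inr O) (by simpa using hO)
      simp only [L, LinearMap.coe_mk, AddHom.coe_mk, Sum.elim_inr] at this
      rw [this, mul_zero]
    rw [Finset.sum_eq_zero_iff_of_nonneg (fun e _ => mul_self_nonneg _)] at h3
    funext e
    exact mul_self_eq_zero.1 (h3 e (mem_univ e)))).1
  rw [card_disjSum, Finset.card_erase_of_mem hr, Finset.card_erase_of_mem (mem_univ _),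
    card_univ] at key
  have h1 := Finset.card_pos.2 ⟨r, hr⟩
  have h2 : 0 < Fintype.card Q := Fintype.card_pos_iff.2 ⟨O0⟩
  omega

theorem region_bound (h4 : D.Ess4) (w0 : F) (hw0 : D.isB w0 = false) (T : Finset E)
    (hT0 : ∀ e, D.w e = w0 → e ∈ T) (O : Finset F) (hO : O.Nonempty)
    (hcl : ∀ e, e ∉ T → (D.b e ∈ O ↔ D.w e ∈ O)) (hO0 : w0 ∈ O → O = {w0}) :
    6 ≤ 2 * (T.filter fun e => D.b e ∈ O).card + (T.filter fun e => D.w e ∈ O).card +
      3 * (O.filter fun x => D.isB x = false ∧ ∀ e, D.w e = x → e ∈ T).card := by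
  have single : ∀ x, D.isB x = false → (∀ e, D.w e = x → e ∈ T) → O = {x} →
      6 ≤ 2 * (T.filter fun e => D.b e ∈ O).card + (T.filter fun e => D.w e ∈ O).card +
      3 * (O.filter fun x => D.isB x = false ∧ ∀ e, D.w e = x → e ∈ T).card := by
    rintro x hx h1 rfl
    have h2 : (T.filter fun e => D.w e ∈ ({x} : Finset F)) = univ.filter fun e => D.w e = x := by
      ext e; simpa using h1 e
    have h3 := Finset.card_pos.2 (show (({x} : Finset F).filter
      fun x => D.isB x = false ∧ ∀ e, D.w e = x → e ∈ T).Nonempty from ⟨x, by simpa [hx] using h1⟩)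
    rw [h2, D.card_w x hx]
    omega
  by_cases hw : w0 ∈ O
  · exact single w0 hw0 hT0 (hO0 hw)
  have h1 := D.conn3 O hO (fun h => hw (h ▸ mem_univ _))
  have h2 : (univ.filter fun e => ¬ (D.b e ∈ O ↔ D.w e ∈ O)) ⊆
      (T.filter fun e => D.b e ∈ O) ∪ (T.filter fun e => D.w e ∈ O) := by
    intro e he
    have h3 := (mem_filter.1 he).2
    have h5 : e ∈ T := by
      by_contra h5; exact h3 (hcl e h5)
    simp only [mem_union, mem_filter]; tauto
  have h3 := (Finset.card_le_card h2).trans (Finset.card_union_le _ _)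
  have h5 := D.card_b_mem O
  have h6 := D.swap.card_b_mem O
  have h7 := Finset.card_filter_add_card_filter_not (s := univ.filter fun e => D.b e ∈ O) (· ∈ T)
  have h8 := Finset.card_filter_add_card_filter_not (s := univ.filter fun e => D.w e ∈ O) (· ∈ T)
  have h9 : ((univ.filter fun e => D.b e ∈ O).filter (· ∈ T)) = T.filter fun e => D.b e ∈ O := by
    ext e; simp [and_comm]
  have h10 : ((univ.filter fun e => D.w e ∈ O).filter (· ∈ T)) = T.filter fun e => D.w e ∈ O := by
    ext e; simp [and_comm]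
  have h11 : ((univ.filter fun e => D.b e ∈ O).filter (· ∉ T)) =
      (univ.filter fun e => D.w e ∈ O).filter (· ∉ T) := by
    ext e
    simp only [mem_filter, mem_univ, true_and]
    have := hcl e
    tauto
  rw [h9, h11] at h7
  rw [h10] at h8
  change (univ.filter fun e => D.w e ∈ O).card = _ at h6
  by_contra hlt
  have hf : (T.filter fun e => D.b e ∈ O).card = 0 := by omega
  rw [Finset.card_eq_zero, Finset.filter_eq_empty_iff] at hf
  rcases h4 O (by omega) with h | h
  · obtain ⟨x, rfl⟩ := Finset.card_eq_one.1 h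
    have hb : ∀ e, D.b e ≠ x := by
      intro e he
      by_cases h12 : e ∈ T
      · exact hf h12 (by simp [he])
      · have := (hcl e h12).1 (by simp [he])
        exact D.b_ne_w e e (he.trans (mem_singleton.1 this).symm)
    have hx : D.isB x = false := by
      by_contra hx
      have := D.card_b x (by simpa using hx)
      rw [Finset.filter_eq_empty_iff.2 (fun e _ => hb e)] at this
      simp at this
    refine hlt (single x hx (fun e he => ?_) rfl)
    by_contra h12
    exact hb e (mem_singleton.1 ((hcl e h12).2 (by simp [he])))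
  · obtain ⟨x, hx⟩ := Finset.card_eq_one.1 h
    have h12 : w0 = x := by
      have : w0 ∈ Oᶜ := mem_compl.2 hw
      rwa [hx, mem_singleton] at this
    obtain ⟨e, he⟩ := Finset.card_pos.1 (show 0 < (univ.filter fun e => D.w e = w0).card by
      rw [D.card_w w0 hw0]; omega)
    have he' := (mem_filter.1 he).2
    refine hf (hT0 e he') ?_
    by_contra h13
    have : D.b e ∈ Oᶜ := mem_compl.2 h13
    rw [hx, mem_singleton, ← h12, ← he'] at this
    exact D.b_ne_w e e this

open Classical in
theorem planar_ineq (hE : D.Euler) (h4 : D.Ess4) (w0 : F) (hw0 : D.isB w0 = false)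
    (Y : Finset V) (hY : D.R w0 ⊆ Y) (T : Finset E)
    (hT : ∀ e, e ∈ T ↔ D.tl e ∈ Y ∧ D.hd e ∈ Y) :
    T.card + 4 ≤ 2 * Y.card +
      (univ.filter fun x => D.isB x = false ∧ ∀ e, D.w e = x → e ∈ T).card := by
  let r : F → F → Prop := fun y y' => ∃ e, e ∉ T ∧ D.b e = y ∧ D.w e = y'
  let Q := Quot r
  let q : F → Q := Quot.mk r
  letI : Fintype Q := Fintype.ofFinite Q
  have hq : ∀ e, e ∉ T → q (D.b e) = q (D.w e) := fun e he => Quot.sound ⟨e, he, rfl, rfl⟩
  have hT0 : ∀ e, D.w e = w0 → e ∈ T := by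
    intro e he
    obtain ⟨e', h1, h2⟩ := D.exists_next_w e
    exact (hT e).2 ⟨hY (D.mem_R.2 ⟨e, he, rfl⟩), hY (D.mem_R.2 ⟨e', h1.trans he, h2⟩)⟩
  obtain ⟨r0, hr0⟩ := Finset.card_pos.1 (show 0 < (D.R w0).card by
    rw [D.card_R hE w0 hw0]; omega)
  have h1 := D.region_ineq hE T Y r0 (hY hr0) (fun e he => (hT e).1 he) q (q w0) (fun h hh =>
    ⟨Quot.lift h (by rintro _ _ ⟨e, he, rfl, rfl⟩; exact hh e he), fun _ => rfl⟩)
  have h0 : ∀ y, q y = q w0 → y = w0 := by
    intro y hy
    let h : Q → Prop := Quot.lift (fun y => y = w0) (by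
      rintro _ _ ⟨e, he, rfl, rfl⟩
      have h1 : D.w e ≠ w0 := fun h => he (hT0 e h)
      have h2 : D.b e ≠ w0 := fun h => by
        have := D.isB_b e; rw [h, hw0] at this; simp at this
      simp [h1, h2])
    have : h (q y) = h (q w0) := by rw [hy]
    simpa [h, q] using this
  have h2 : ∀ O : Q, 6 ≤ 2 * (T.filter fun e => q (D.b e) = O).card +
      (T.filter fun e => q (D.w e) = O).card + 3 * ((univ.filter
        fun x => D.isB x = false ∧ ∀ e, D.w e = x → e ∈ T).filter fun x => q x = O).card := by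
    intro O
    have := D.region_bound h4 w0 hw0 T hT0 (univ.filter fun y => q y = O) (by
      obtain ⟨y, rfl⟩ := Quot.exists_rep O
      exact ⟨y, by simp [q]⟩) (fun e he => by simp [hq e he]) (fun h => by
      have h3 := (mem_filter.1 h).2
      ext y
      simp only [mem_filter, mem_univ, true_and, mem_singleton, ← h3]
      exact ⟨h0 y, fun h => by rw [h]⟩)
    rw [Finset.filter_comm] at this
    simpa only [mem_filter, mem_univ, true_and] using this
  have h3 := Finset.sum_le_sum (s := univ) (fun O _ => h2 O)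
  simp only [Finset.sum_add_distrib, ← Finset.mul_sum] at h3
  rw [← Finset.card_eq_sum_card_fiberwise (f := fun e => q (D.b e)) (fun _ _ => mem_univ _),
    ← Finset.card_eq_sum_card_fiberwise (f := fun e => q (D.w e)) (fun _ _ => mem_univ _),
    ← Finset.card_eq_sum_card_fiberwise (f := q) (fun _ _ => mem_univ _)] at h3
  simp only [sum_const, card_univ, smul_eq_mul] at h3
  omega

theorem fiber_w (o : D.Om) (e : E) :
    (univ.filter fun e' => D.w e' = D.w e) = {e, o.ω e, o.ω (o.ω e)} := by
  ext e'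
  simp only [mem_filter, mem_univ, true_and, mem_insert, mem_singleton]
  refine ⟨o.cases e e', ?_⟩
  rintro (rfl | rfl | rfl) <;> simp [o.w_ω]

theorem card_fiber_w (o : D.Om) (a : E) (P : E → Prop) [DecidablePred P] :
    (univ.filter fun e => P e ∧ D.w e = D.w a).card = (if P a then 1 else 0) +
      (if P (o.ω a) then 1 else 0) + (if P (o.ω (o.ω a)) then 1 else 0) := by
  have : (univ.filter fun e => P e ∧ D.w e = D.w a) =
      (univ.filter fun e => D.w e = D.w a).filter P := by
    ext e; simp [and_comm]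
  rw [this, D.fiber_w o, Finset.card_filter,
    Finset.sum_insert (by simp [(o.ne1 a).symm, (o.ne2 a).symm]), Finset.sum_pair (o.ne1 _).symm,
    add_assoc]

open Classical in
theorem hall_ineq (hE : D.Euler) (h4 : D.Ess4) (w0 : F) (hw0 : D.isB w0 = false)
    (X : Finset V) (hX : ∀ v ∈ X, v ∉ D.R w0) (S : Finset F)
    (hS : ∀ x ∈ S, D.isB x = false ∧ x ≠ w0) :
    2 * X.card + S.card ≤
      (univ.filter fun e => D.w e ≠ w0 ∧ (D.tl e ∈ X ∨ D.w e ∈ S)).card := by
  obtain ⟨o⟩ := D.nonempty_Om hE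
  let T := univ.filter fun e => D.tl e ∈ Xᶜ ∧ D.hd e ∈ Xᶜ
  have h1 := D.planar_ineq hE h4 w0 hw0 Xᶜ (fun v hv => mem_compl.2 fun h => hX v h hv) T
    (fun e => by simp [T])
  let Wh := univ.filter fun x => D.isB x = false
  have hfib : ∀ A : Finset E, A.card = ∑ x ∈ Wh, (A.filter fun e => D.w e = x).card := fun A =>
    Finset.card_eq_sum_card_fiberwise (f := D.w) (fun e _ => by simp [Wh, D.isB_w])
  have h2 : ∀ x ∈ Wh, 2 + (if x ∈ S then 1 else 0) + (if ∀ e, D.w e = x → e ∈ T then 1 else 0) ≤
      ((univ.filter fun e => D.w e ≠ w0 ∧ (D.tl e ∈ X ∨ D.w e ∈ S)).filter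
        fun e => D.w e = x).card + (T.filter fun e => D.w e = x).card := by
    intro x hx
    obtain ⟨a, ha⟩ := Finset.card_pos.1 (show 0 < (univ.filter fun e => D.w e = x).card by
      rw [D.card_w x (mem_filter.1 hx).2]; omega)
    obtain rfl := (mem_filter.1 ha).2
    have h3 : (∀ e, D.w e = D.w a → e ∈ T) → D.tl a ∉ X ∧ D.tl (o.ω a) ∉ X ∧
        D.tl (o.ω (o.ω a)) ∉ X := fun h => by
      have e1 := h a rfl
      have e2 := h (o.ω a) (o.w_ω _)
      simp only [T, mem_filter, mem_univ, true_and, mem_compl, ← o.tl_ω] at e1 e2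
      exact ⟨e1.1, e2.1, e2.2⟩
    have h5 : D.w a = w0 → D.w a ∉ S ∧ D.tl a ∉ X ∧ D.tl (o.ω a) ∉ X ∧
        D.tl (o.ω (o.ω a)) ∉ X := fun h =>
      ⟨fun h' => (hS _ h').2 h, fun h' => hX _ h' (D.mem_R.2 ⟨_, h, rfl⟩),
        fun h' => hX _ h' (D.mem_R.2 ⟨_, by rw [o.w_ω, h], rfl⟩),
        fun h' => hX _ h' (D.mem_R.2 ⟨_, by rw [o.w_ω, o.w_ω, h], rfl⟩)⟩
    have h6 : (if ∀ e, D.w e = D.w a → e ∈ T then 1 else 0) ≤
        if D.tl a ∉ X ∧ D.tl (o.ω a) ∉ X ∧ D.tl (o.ω (o.ω a)) ∉ X then 1 else 0 := by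
      split_ifs with c1 c2
      · rfl
      · exact absurd (h3 c1) c2
      · simp
      · rfl
    refine (Nat.add_le_add_left h6 _).trans ?_
    clear h6 h3
    simp only [T, Finset.filter_filter]
    rw [D.card_fiber_w o a, D.card_fiber_w o a]
    simp only [o.w_ω, ← o.tl_ω, o.ω3, mem_compl]
    by_cases c0 : D.w a = w0
    · obtain ⟨c1, c2, c3, c4⟩ := h5 c0
      simp [c1, c2, c3, c4]
    · by_cases c1 : D.w a ∈ S <;> by_cases c2 : D.tl a ∈ X <;>
        by_cases c3 : D.tl (o.ω a) ∈ X <;> by_cases c4 : D.tl (o.ω (o.ω a)) ∈ X <;>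
        simp [c0, c1, c2, c3, c4]
  have h3 := Finset.sum_le_sum h2
  simp only [Finset.sum_add_distrib] at h3
  rw [← hfib, ← hfib, ← Finset.card_filter, ← Finset.card_filter, Finset.filter_filter,
    Finset.filter_filter] at h3
  have h5 : (univ.filter fun x => D.isB x = false ∧ x ∈ S) = S := by
    ext x; simpa using fun h => (hS x h).1
  rw [h5] at h3
  simp only [sum_const, smul_eq_mul] at h3
  have h6 := D.card_V hE w0 hw0
  have h7 := D.card_Wp w0 hw0
  have h8 := Finset.card_add_card_compl X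
  change _ = Wh.card at h7
  omega

end Data

theorem Data.exists_pair (D : Data E F V) (hE : D.Euler) (h4 : D.Ess4) (w0 : F)
    (hw0 : D.isB w0 = false) :
    ∃ ν t : D.Wp w0 → E, D.IsState w0 ν ∧ D.IsState w0 t ∧ ∀ x, ν x ≠ t x := by
  classical
  obtain ⟨o⟩ := D.nonempty_Om hE
  let Vp := {v : V // v ∉ D.R w0}
  have hVp : Fintype.card Vp = Fintype.card (D.Wp w0) := by
    have h1 := D.card_V hE w0 hw0
    have h2 := D.card_R hE w0 hw0
    have h3 := Finset.card_add_card_compl (D.R w0)
    have h5 : Fintype.card Vp = (D.R w0)ᶜ.card := by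
      rw [Fintype.card_subtype]; congr 1; ext v; simp
    omega
  let N : (Vp × Bool) ⊕ D.Wp w0 → Finset E := Sum.elim
    (fun p => univ.filter fun e => D.w e ≠ w0 ∧ D.tl e = p.1.1)
    (fun x => univ.filter fun e => D.w e = x.1)
  obtain ⟨f, hf1, hf2⟩ := (Finset.all_card_le_biUnion_card_iff_exists_injective N).1 (by
    intro s
    let X := s.toLeft.image fun p => p.1.1
    let S := s.toRight.image fun x => x.1
    have h1 := D.hall_ineq hE h4 w0 hw0 X (fun v hv => by
      obtain ⟨p, -, rfl⟩ := mem_image.1 hv; exact p.1.2) S (fun x hx => by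
      obtain ⟨p, -, rfl⟩ := mem_image.1 hx; exact p.2)
    have h2 : s.toLeft.card ≤ 2 * X.card := by
      refine Finset.card_le_mul_card_image _ 2 fun v _ => ?_
      refine (Finset.card_le_card_of_injOn (t := (univ : Finset Bool)) (fun p => p.2)
        (fun _ _ => by simp) ?_).trans (by simp)
      intro p hp p' hp' h
      simp only [coe_filter, Set.mem_ofPred_eq] at hp hp'
      exact Prod.ext (Subtype.ext (hp.2.trans hp'.2.symm)) h
    have h3 : S.card = s.toRight.card := Finset.card_image_of_injective _ Subtype.val_injective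
    have h5 := Finset.card_toLeft_add_card_toRight (u := s)
    refine le_trans (by omega) (h1.trans (Finset.card_le_card fun e he => ?_))
    obtain ⟨h6, h7 | h7⟩ := (mem_filter.1 he).2
    · obtain ⟨p, hp, h8⟩ := mem_image.1 h7
      exact mem_biUnion.2 ⟨Sum.inl p, by simpa using hp, by simp [N, h6, h8]⟩
    · obtain ⟨p, hp, h8⟩ := mem_image.1 h7
      exact mem_biUnion.2 ⟨Sum.inr p, by simpa using hp, by simp [N, h8]⟩)
  have hl : ∀ p, D.w (f (Sum.inl p)) ≠ w0 ∧ D.tl (f (Sum.inl p)) = p.1.1 := fun p => by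
    simpa [N] using hf2 (Sum.inl p)
  have hr : ∀ x, D.w (f (Sum.inr x)) = x.1 := fun x => by simpa [N] using hf2 (Sum.inr x)
  have hsurj : ∀ e, D.w e ≠ w0 → ∃ a, f a = e := by
    intro e he
    have h1 : univ.image f = univ.filter fun e => ¬ D.w e = w0 := by
      apply Finset.eq_of_subset_of_card_le
      · intro e he
        obtain ⟨a, -, rfl⟩ := mem_image.1 he
        rcases a with p | x
        · simpa using (hl p).1
        · simpa [hr] using x.2.2
      · rw [Finset.card_image_of_injective _ hf1]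
        have h1 := Finset.card_filter_add_card_filter_not (s := univ) (fun e => D.w e = w0)
        have h2 := D.card_w w0 hw0
        have h3 := D.card_E_w
        have h4 := D.card_Wp w0 hw0
        simp only [card_univ, Fintype.card_sum, Fintype.card_prod, Fintype.card_bool] at h1 ⊢
        omega
    have : e ∈ univ.image f := by rw [h1]; simpa using he
    simpa using this
  have hcorner : ∀ (x : D.Wp w0) (e : E), D.w e = x.1 → e ≠ f (Sum.inr x) →
      ∃ p, f (Sum.inl p) = e := by
    intro x e h1 h2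
    obtain ⟨a, rfl⟩ := hsurj e (h1 ▸ x.2.2)
    rcases a with p | y
    · exact ⟨p, rfl⟩
    · exact absurd (by rw [Subtype.ext ((hr y).symm.trans h1)]) h2
  let c1 : D.Wp w0 → E := fun x => o.ω (f (Sum.inr x))
  let c2 : D.Wp w0 → E := fun x => o.ω (o.ω (f (Sum.inr x)))
  have w1 : ∀ x, D.w (c1 x) = x.1 := fun x => by simp [c1, o.w_ω, hr]
  have w2 : ∀ x, D.w (c2 x) = x.1 := fun x => by simp [c2, o.w_ω, hr]
  have c12 : ∀ x, c1 x ≠ c2 x := fun x => (o.ne1 _).symm
  choose p1 hp1 using fun x => hcorner x (c1 x) (w1 x) (o.ne1 _)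
  choose p2 hp2 using fun x => hcorner x (c2 x) (w2 x) (o.ne2 _)
  let pp : D.Wp w0 × Bool → Vp × Bool := fun a => if a.2 then p1 a.1 else p2 a.1
  have hpp : Function.Injective pp := by
    rintro ⟨x, i⟩ ⟨y, j⟩ h
    have h1 := congrArg (fun p => f (Sum.inl p)) h
    have h2 := congrArg D.w h1
    cases i <;> cases j <;> simp only [pp, if_true, Bool.false_eq_true, if_false, hp1, hp2, w1,
      w2] at h1 h2 <;> obtain rfl := Subtype.ext h2
    · rfl
    · exact absurd h1.symm (c12 x)
    · exact absurd h1 (c12 x)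
    · rfl
  obtain ⟨g, hg1, hg2⟩ := (Finset.all_card_le_biUnion_card_iff_exists_injective
    (fun x : D.Wp w0 => ({(p1 x).1, (p2 x).1} : Finset Vp))).1 (by
    intro s
    have h1 := Finset.card_le_card_of_injOn (s := s ×ˢ (univ : Finset Bool))
      (t := (s.biUnion fun x => ({(p1 x).1, (p2 x).1} : Finset Vp)) ×ˢ (univ : Finset Bool)) pp
      (fun a ha => by
        simp only [coe_product, coe_univ, Set.mem_prod, mem_coe, Set.mem_univ, and_true,
          mem_biUnion] at ha ⊢
        refine ⟨a.1, ha, ?_⟩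
        simp only [pp]; split_ifs <;> simp) hpp.injOn
    simp only [card_product, card_univ, Fintype.card_bool] at h1
    omega)
  choose i hi using fun x => show ∃ i : Bool, (pp (x, i)).1 = g x by
    have := hg2 x
    simp only [mem_insert, mem_singleton] at this
    rcases this with h | h
    · exact ⟨true, h.symm⟩
    · exact ⟨false, h.symm⟩
  have gsurj : Function.Surjective g :=
    ((Fintype.bijective_iff_injective_and_card g).2 ⟨hg1, hVp.symm⟩).2
  have mk : ∀ j : D.Wp w0 → Bool, Function.Injective (fun x => (pp (x, j x)).1) →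
      D.IsState w0 fun x => f (Sum.inl (pp (x, j x))) := by
    intro j hj
    refine ⟨fun x => ?_, fun x y h => hj (Subtype.ext ?_), fun v => ?_⟩
    · cases h : j x <;> simp [pp, h, hp1, hp2, w1, w2]
    · simpa only [(hl _).2] using h
    · simp only [(hl _).2]
      constructor
      · rintro ⟨x, rfl⟩; exact (pp (x, j x)).1.2
      · intro hv
        obtain ⟨x, hx⟩ := ((Fintype.bijective_iff_injective_and_card _).2 ⟨hj, hVp.symm⟩).2 ⟨v, hv⟩
        exact ⟨x, congrArg Subtype.val hx⟩
  refine ⟨_, _, mk i (by simpa only [hi] using hg1), mk (fun x => !i x) ?_, fun x h => ?_⟩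
  · intro x y h
    obtain ⟨z, hz⟩ := gsurj (pp (x, !i x)).1
    rw [← hi] at hz
    have n1 : ∀ u, pp (u, !i u) ≠ pp (z, i z) := fun u h => by
      have h1 := hpp h
      obtain rfl := (Prod.ext_iff.1 h1).1
      simpa using (Prod.ext_iff.1 h1).2
    have n2 : (pp (x, !i x)).2 ≠ (pp (z, i z)).2 := fun h' => n1 x (Prod.ext hz.symm h')
    have n3 : (pp (y, !i y)).2 ≠ (pp (z, i z)).2 := fun h' =>
      n1 y (Prod.ext (h.symm.trans hz.symm) h')
    have n4 : (pp (x, !i x)).2 = (pp (y, !i y)).2 := by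
      revert n2 n3
      cases (pp (x, !i x)).2 <;> cases (pp (y, !i y)).2 <;> cases (pp (z, i z)).2 <;> simp
    exact (Prod.ext_iff.1 (hpp (Prod.ext h n4))).1
  · have := (Prod.ext_iff.1 (hpp (Sum.inl_injective (hf1 h)))).2
    simp at this

end Vale.Agent.P039
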