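import Vale.Agent.P039.Sum
import Vale.Agent.P039.Hall
import Vale.Agent.P039.Cut

namespace Vale.Agent.P039

theorem core4 (E F V : Type) [Fintype E] [Fintype F] [Fintype V] [DecidableEq E]
    [DecidableEq F] [DecidableEq V] (D : Data E F V) (hE : D.Euler) (h4 : D.Ess4) (e0 : E) :
    ∃ M : Finset E, e0 ∈ M ∧ D.Good M := by
  obtain ⟨o⟩ := D.nonempty_Om hE
  obtain ⟨ν0, t0, h1, h2, h3⟩ := D.exists_pair hE h4 (D.w e0) (D.isB_w e0)
  obtain ⟨ν, hν, hf⟩ := D.exists_forest hE o e0 ν0 t0 h1 h2 h3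
  exact D.good_of_forest hE o e0 ν hν hf

theorem core (E F V : Type) [Fintype E] [Fintype F] [Fintype V] [DecidableEq E]
    [DecidableEq F] [DecidableEq V] (D : Data E F V) (hE : D.Euler) (e0 : E) :
    ∃ M : Finset E, e0 ∈ M ∧ D.Good M :=
  core_of_core4 core4 D hE e0

end Vale.Agent.P039
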