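import Mathlib

/-!
Abstract data of a cubic bipartite map: `E` edges, `F` vertices of the cubic graph (black or
white triangles of the dual triangulation), `V` faces of the cubic graph (vertices of the dual
triangulation).
-/

namespace Vale.Agent.P039

open Finset

structure Data (E F V : Type) [Fintype E] [Fintype F] [Fintype V] [DecidableEq E]
    [DecidableEq F] [DecidableEq V] where
  b : E → F
  w : E → F
  isB : F → Bool
  isB_b : ∀ e, isB (b e) = true
  isB_w : ∀ e, isB (w e) = false
  card_b : ∀ x, isB x = true → (univ.filter (fun e => b e = x)).card = 3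
  card_w : ∀ x, isB x = false → (univ.filter (fun e => w e = x)).card = 3
  tl : E → V
  hd : E → V
  cyc_b : ∀ (x : F) (μ : V → ℚ), ∑ e with b e = x, μ (hd e) = ∑ e with b e = x, μ (tl e)
  cyc_w : ∀ (x : F) (μ : V → ℚ), ∑ e with w e = x, μ (hd e) = ∑ e with w e = x, μ (tl e)
  adj_b : ∀ e e', b e = b e' → e ≠ e' → hd e = tl e' ∨ hd e' = tl e
  adj_w : ∀ e e', w e = w e' → e ≠ e' → hd e = tl e' ∨ hd e' = tl e
  tl_surj : Function.Surjective tl
  conn3 : ∀ O : Finset F, O.Nonempty → O ≠ univ →
    3 ≤ (univ.filter (fun e => ¬ (b e ∈ O ↔ w e ∈ O))).card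

variable {E F V : Type} [Fintype E] [Fintype F] [Fintype V] [DecidableEq E]
  [DecidableEq F] [DecidableEq V]

/-- Euler's formula for the sphere. -/
def Data.Euler (_ : Data E F V) : Prop :=
  Fintype.card V + Fintype.card F = Fintype.card E + 2

/-- A perfect matching whose complement is connected. -/
def Data.Good (D : Data E F V) (M : Finset E) : Prop :=
  (∀ x : F, ∃! e, e ∈ M ∧ (D.b e = x ∨ D.w e = x)) ∧
    ∀ S : Finset F, (∀ e, e ∉ M → (D.b e ∈ S ↔ D.w e ∈ S)) → S = ∅ ∨ S = univ

/-- Exchange of the two colours. -/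
def Data.swap (D : Data E F V) : Data E F V where
  b := D.w
  w := D.b
  isB := fun x => !D.isB x
  isB_b := fun e => by simp [D.isB_w]
  isB_w := fun e => by simp [D.isB_b]
  card_b := fun x hx => D.card_w x (by simpa using hx)
  card_w := fun x hx => D.card_b x (by simpa using hx)
  tl := D.tl
  hd := D.hd
  cyc_b := D.cyc_w
  cyc_w := D.cyc_b
  adj_b := D.adj_w
  adj_w := D.adj_b
  tl_surj := D.tl_surj
  conn3 := fun O h1 h2 => by
    have := D.conn3 O h1 h2
    convert this using 3 with e
    exact not_congr iff_comm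

theorem Data.Good.of_swap {D : Data E F V} {M : Finset E} (h : D.swap.Good M) : D.Good M := by
  refine ⟨fun x => ?_, fun S hS => h.2 S fun e he => (hS e he).symm⟩
  have := h.1 x
  simpa [Data.swap, or_comm] using this

end Vale.Agent.P039
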