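import Mathlib

namespace Vale.Agent.P039

variable {V : Type} [Fintype V] [DecidableEq V]

/-- A rotation system: a permutation of the darts (oriented edges) whose cycles are exactly the
sets of darts with a common initial vertex. -/
def IsRotationSystem (G : SimpleGraph V) (ρ : Equiv.Perm G.Dart) : Prop :=
  ∀ d d' : G.Dart, ρ.SameCycle d d' ↔ d.fst = d'.fst

/-- Reversal of darts. -/
def reversal (G : SimpleGraph V) : Equiv.Perm G.Dart :=
  Function.Involutive.toPerm SimpleGraph.Dart.symm SimpleGraph.Dart.symm_involutive

/-- The number of faces of the combinatorial embedding given by `ρ`: the number of orbits of the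
face-tracing permutation `d ↦ ρ (reverse d)`. -/
noncomputable def faceCount (G : SimpleGraph V) (ρ : Equiv.Perm G.Dart) : ℕ :=
  Nat.card (Quotient (Equiv.Perm.SameCycle.setoid (ρ * reversal G)))

/-- Planarity: some rotation system has genus zero on every connected component, i.e. Euler's
formula `V - E + F = 2` holds for each component (an isolated vertex has one face, which is not
traced by any dart). -/
def IsPlanar (G : SimpleGraph V) : Prop :=
  ∃ ρ : Equiv.Perm G.Dart, IsRotationSystem G ρ ∧
    Nat.card V + faceCount G ρ + Nat.card {v : V // ∀ u, ¬ G.Adj v u} =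
      Nat.card G.edgeSet + 2 * Nat.card G.ConnectedComponent

/-- At least four vertices, and deleting at most two vertices leaves the graph connected. -/
def IsThreeConnected (G : SimpleGraph V) : Prop :=
  4 ≤ Nat.card V ∧ ∀ X : Finset V, X.card ≤ 2 → (G.induce {v | v ∉ X}).Connected

end Vale.Agent.P039
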