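import Vale.Agent.P039.Match

/-! The disc lemma: a loop of two states bounds a disc with one more black than white triangle. -/

namespace Vale.Agent.P039

open Finset

variable {E F V : Type} [Fintype E] [Fintype F] [Fintype V] [DecidableEq E]
  [DecidableEq F] [DecidableEq V]

namespace Data

variable (D : Data E F V)

theorem euler_le_bdry (J : Finset F) (hJ : J ≠ univ)
    (hc : ∀ μ : V → ℚ, (∀ e ∈ D.ES J, μ (D.hd e) = μ (D.tl e)) →
      ∃ c, ∀ e, ¬ (D.b e ∈ J ↔ D.w e ∈ J) → μ (D.tl e) = c) :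
    (D.VS J).card + J.card ≤ (D.ES J).card + 1 := by
  classical
  refine D.euler_le J hJ fun μ hμ => ?_
  obtain ⟨c, hc⟩ := hc μ hμ
  suffices h : ∀ u ∈ D.VS J, μ u = c from fun u hu v hv => (h u hu).trans (h v hv).symm
  have good : ∀ y ∈ J, ∀ e, (D.b e = y ∨ D.w e = y) → μ (D.tl e) = c →
      ∀ e', (D.b e' = y ∨ D.w e' = y) → μ (D.tl e') = c := by
    intro y hy e he h1 e' he'
    rw [← h1]
    refine D.face_inc μ y e' e he' he (hμ _ (D.mem_ES.2 ?_)) (hμ _ (D.mem_ES.2 ?_))
    · rcases he' with h | h <;> simp [h, hy]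
    · rcases he with h | h <;> simp [h, hy]
  rcases D.closed (J.filter fun y => ¬ ∀ e, (D.b e = y ∨ D.w e = y) → μ (D.tl e) = c)
    (fun e => by
      simp only [mem_filter]
      constructor
      · rintro ⟨h1, h2⟩
        have h3 : μ (D.tl e) ≠ c := fun h => h2 (good _ h1 e (Or.inl rfl) h)
        have h4 : D.w e ∈ J := by
          by_contra h4
          exact h3 (hc e (by tauto))
        exact ⟨h4, fun h => h3 (h e (Or.inr rfl))⟩
      · rintro ⟨h1, h2⟩
        have h3 : μ (D.tl e) ≠ c := fun h => h2 (good _ h1 e (Or.inr rfl) h)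
        have h4 : D.b e ∈ J := by
          by_contra h4
          exact h3 (hc e (by tauto))
        exact ⟨h4, fun h => h3 (h e (Or.inl rfl))⟩) with h0 | h0
  · intro u hu
    obtain ⟨e, he, rfl⟩ := D.mem_VS.1 hu
    rw [Finset.filter_eq_empty_iff] at h0
    rcases he with he | he
    · exact (not_not.1 (h0 he)) e (Or.inl rfl)
    · exact (not_not.1 (h0 he)) e (Or.inr rfl)
  · exact absurd (Finset.eq_univ_of_forall fun y => by
      have : y ∈ J.filter fun y => ¬ ∀ e, (D.b e = y ∨ D.w e = y) → μ (D.tl e) = c := by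
        rw [h0]; simp
      exact (mem_filter.1 this).1) hJ

/-- Counting in a disc. -/
theorem disc_count (hE : D.Euler) (w0 : F) (t : D.Wp w0 → E) (ht : D.IsState w0 t)
    (C : Finset (D.Wp w0)) (g : D.Wp w0 → E) (hgw : ∀ x, D.w (g x) = x.1)
    (hgt : ∀ x, D.tl (t x) = D.tl (g x) ∨ D.tl (t x) = D.hd (g x))
    (I : Finset F) (hI0 : w0 ∉ I) (hI1 : I.Nonempty)
    (hbd : ∀ e, ¬ (D.b e ∈ I ↔ D.w e ∈ I) ↔ ∃ x ∈ C, g x = e)
    (hconn : ∀ μ : V → ℚ, (∀ x ∈ C, μ (D.hd (g x)) = μ (D.tl (g x))) →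
      ∃ c, ∀ x ∈ C, μ (D.tl (g x)) = c) :
    (I.filter fun y => D.isB y = true).card = (I.filter fun y => D.isB y = false).card + 1 := by
  classical
  have hginj : Function.Injective g := fun x y h => Subtype.ext (by rw [← hgw, ← hgw, h])
  have hg1 : ∀ x ∈ C, g x ∈ D.ES I := fun x hx => by
    have := (hbd (g x)).2 ⟨x, hx, rfl⟩
    rw [mem_ES]; tauto
  have hg2 : ∀ x ∈ C, g x ∈ D.ES Iᶜ := fun x hx => by
    have := (hbd (g x)).2 ⟨x, hx, rfl⟩
    rw [mem_ES, mem_compl, mem_compl]; tauto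
  have h1 := D.euler_le_bdry I (fun h => hI0 (h ▸ mem_univ _)) (fun μ hμ => by
    obtain ⟨c, hc⟩ := hconn μ (fun x hx => hμ _ (hg1 x hx))
    refine ⟨c, fun e he => ?_⟩
    obtain ⟨x, hx, rfl⟩ := (hbd e).1 he
    exact hc x hx)
  have h2 := D.euler_le_bdry Iᶜ (fun h => by
    obtain ⟨y, hy⟩ := hI1
    have : y ∈ Iᶜ := h ▸ mem_univ _
    exact mem_compl.1 this hy) (fun μ hμ => by
    obtain ⟨c, hc⟩ := hconn μ (fun x hx => hμ _ (hg2 x hx))
    refine ⟨c, fun e he => ?_⟩
    obtain ⟨x, hx, rfl⟩ := (hbd e).1 (by rw [mem_compl, mem_compl] at he; tauto)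
    exact hc x hx)
  have hP : C.image (fun x => D.tl (t x)) ⊆ D.VS I ∩ D.VS Iᶜ := by
    intro v hv
    obtain ⟨x, hx, rfl⟩ := mem_image.1 hv
    rw [mem_inter]
    rcases hgt x with h | h <;> rw [h]
    · exact ⟨D.tl_mem_VS (hg1 x hx), D.tl_mem_VS (hg2 x hx)⟩
    · exact ⟨D.hd_mem_VS (hg1 x hx), D.hd_mem_VS (hg2 x hx)⟩
  have hPc : (C.image (fun x => D.tl (t x))).card = C.card :=
    Finset.card_image_of_injective _ ht.2.1
  have hV1 : D.VS I ∪ D.VS Iᶜ = univ := by
    refine Finset.eq_univ_of_forall fun v => ?_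
    obtain ⟨e, rfl⟩ := D.tl_surj v
    rw [mem_union]
    by_cases h : D.b e ∈ I
    · exact Or.inl (D.tl_mem_VS (D.mem_ES.2 (Or.inl h)))
    · exact Or.inr (D.tl_mem_VS (D.mem_ES.2 (Or.inl (mem_compl.2 h))))
  have hE1 : D.ES I ∪ D.ES Iᶜ = univ := by
    refine Finset.eq_univ_of_forall fun e => ?_
    simp only [mem_union, mem_ES, mem_compl]; tauto
  have hE2 : D.ES I ∩ D.ES Iᶜ = C.image g := by
    ext e
    simp only [mem_inter, mem_ES, mem_compl, mem_image, ← hbd]; tauto
  have hV2 := Finset.card_union_add_card_inter (D.VS I) (D.VS Iᶜ)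
  have hE3 := Finset.card_union_add_card_inter (D.ES I) (D.ES Iᶜ)
  rw [hV1, card_univ] at hV2
  rw [hE1, hE2, card_univ, Finset.card_image_of_injective _ hginj] at hE3
  have hF := Finset.card_add_card_compl I
  have hP1 := Finset.card_le_card hP
  have hE' := hE
  unfold Euler at hE'
  have hP2 : C.image (fun x => D.tl (t x)) = D.VS I ∩ D.VS Iᶜ :=
    Finset.eq_of_subset_of_card_le hP (by omega)
  let WI : Finset (D.Wp w0) := univ.filter fun x => x.1 ∈ I
  have hW1 : WI.card = (I.filter fun y => D.isB y = false).card := by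
    refine Finset.card_bij (fun x _ => x.1) (fun x hx => ?_) (fun x _ y _ h => Subtype.ext h)
      (fun y hy => ?_)
    · exact mem_filter.2 ⟨(mem_filter.1 hx).2, x.2.1⟩
    · rw [mem_filter] at hy
      exact ⟨⟨y, hy.2, fun h => hI0 (h ▸ hy.1)⟩, by simp [WI, hy.1], rfl⟩
  have hW2 : (WI \ C).card = (D.VS I \ D.VS Iᶜ).card := by
    refine Finset.card_bij (fun x _ => D.tl (t x)) (fun x hx => ?_) (fun x _ y _ h => ht.2.1 h)
      (fun v hv => ?_)
    · rw [mem_sdiff] at hx ⊢
      have h3 : D.tl (t x) ∈ D.VS I :=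
        D.tl_mem_VS (D.mem_ES.2 (Or.inr (by rw [ht.1]; exact (mem_filter.1 hx.1).2)))
      refine ⟨h3, fun h4 => hx.2 ?_⟩
      have h5 : D.tl (t x) ∈ C.image (fun x => D.tl (t x)) := by
        rw [hP2]; exact mem_inter.2 ⟨h3, h4⟩
      obtain ⟨y, hy, h6⟩ := mem_image.1 h5
      rw [← ht.2.1 h6]; exact hy
    · rw [mem_sdiff] at hv
      obtain ⟨x, rfl⟩ := (ht.2.2 v).2 (fun h => by
        obtain ⟨e, he, rfl⟩ := D.mem_R.1 h
        exact hv.2 (D.tl_mem_VS (D.mem_ES.2 (Or.inr (mem_compl.2 (he ▸ hI0))))))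
      refine ⟨x, mem_sdiff.2 ⟨?_, fun hx => hv.2 ?_⟩, rfl⟩
      · simp only [WI, mem_filter, mem_univ, true_and]
        by_contra h
        exact hv.2 (D.tl_mem_VS (D.mem_ES.2 (Or.inr (mem_compl.2 (by rw [ht.1]; exact h)))))
      · exact (mem_inter.1 (hP (mem_image_of_mem _ hx))).2
  have hV3 := Finset.card_sdiff_add_card_inter (D.VS I) (D.VS Iᶜ)
  have hE4 : (univ.filter fun e => D.w e ∈ I).card =
      3 * (I.filter fun y => D.isB y = false).card := by
    rw [Finset.card_eq_sum_card_fiberwise (f := D.w) (t := I.filter fun y => D.isB y = false)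
      (fun e he => by simpa [D.isB_w] using he), Finset.sum_congr rfl (g := fun _ => 3)]
    · simp [mul_comm]
    intro y hy
    rw [mem_filter] at hy
    rw [← D.card_w y hy.2]
    congr 1
    ext e
    simp only [mem_filter, mem_univ, true_and, and_iff_right_iff_imp]
    rintro rfl; exact hy.1
  have hE5 : (D.ES I \ univ.filter fun e => D.w e ∈ I).card = (C \ WI).card := by
    symm
    refine Finset.card_bij (fun x _ => g x) (fun x hx => ?_) (fun x _ y _ h => hginj h)
      (fun e he => ?_)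
    · rw [mem_sdiff] at hx ⊢
      refine ⟨hg1 x hx.1, ?_⟩
      simpa [WI, hgw] using hx.2
    · simp only [mem_sdiff, mem_ES, mem_filter, mem_univ, true_and] at he
      obtain ⟨x, hx, rfl⟩ := (hbd e).1 (by tauto)
      exact ⟨x, mem_sdiff.2 ⟨hx, by simpa [WI, hgw] using he.2⟩, rfl⟩
  have hE6 := Finset.card_sdiff_add_card_eq_card (s := univ.filter fun e => D.w e ∈ I)
    (t := D.ES I) (fun e he => D.mem_ES.2 (Or.inr (mem_filter.1 he).2))
  have hC1 := Finset.card_sdiff_add_card_inter C WI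
  have hC2 := Finset.card_sdiff_add_card_inter WI C
  rw [Finset.inter_comm] at hC2
  have hI2 := Finset.card_filter_add_card_filter_not (s := I) (fun y => D.isB y = true)
  simp only [Bool.not_eq_true] at hI2
  omega

theorem sum_ω (o : D.Om) (φ : E → ℚ) (x : F) :
    ∑ e with D.w e = x, (φ (o.ω e) - φ e) = 0 := by
  rw [Finset.sum_sub_distrib, sub_eq_zero]
  refine Finset.sum_bij' (fun e _ => o.ω e) (fun e _ => o.ω (o.ω e)) ?_ ?_ ?_ ?_ ?_
  · intro e he; simpa [o.w_ω] using he
  · intro e he; simpa [o.w_ω] using he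
  · intro e _; exact o.ω3 e
  · intro e _; exact o.ω3 e
  · intro e _; rfl

/-- The disc lemma. -/
theorem disc (hE : D.Euler) (o : D.Om) (e0 : E) (ν t : D.Wp (D.w e0) → E)
    (hν : D.IsState (D.w e0) ν) (ht : D.IsState (D.w e0) t)
    (π : Equiv.Perm (D.Wp (D.w e0))) (hπ : ∀ x, D.tl (t (π x)) = D.tl (ν x))
    (x0 : D.Wp (D.w e0)) (C : Finset (D.Wp (D.w e0))) (hC : ∀ x, x ∈ C ↔ π.SameCycle x0 x)
    (hne : ∀ x ∈ C, ν x ≠ t x) :
    ∃ (s : ℚ) (A : ℕ), (s = 1 ∨ s = -1) ∧ 0 < A ∧
      ((C.filter fun x => ν x = o.ω (t x)).card : ℚ) -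
        (C.filter fun x => ¬ ν x = o.ω (t x)).card = 3 * s ∧
      ∀ φ : E → ℚ, (∀ y, D.isB y = true → y ≠ D.b e0 →
        ∑ e with D.b e = y, (φ (o.ω e) - φ e) = 1) → ∑ x ∈ C, (φ (ν x) - φ (t x)) = s * A := by
  classical
  let g : D.Wp (D.w e0) → E := fun x => if ν x = o.ω (t x) then t x else ν x
  let dir : D.Wp (D.w e0) → ℚ := fun x => if ν x = o.ω (t x) then 1 else -1
  have hx0 : x0 ∈ C := (hC x0).2 (Equiv.Perm.SameCycle.refl _ _)
  have hback : ∀ x ∈ C, ¬ ν x = o.ω (t x) → t x = o.ω (ν x) := by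
    intro x hx h
    rcases o.cases (t x) (ν x) (by rw [hν.1, ht.1]) with h' | h' | h'
    · exact absurd h' (hne x hx)
    · exact absurd h' h
    · rw [h', o.ω3]
  have hgw : ∀ x, D.w (g x) = x.1 := by
    intro x; simp only [g]; split_ifs
    · exact ht.1 x
    · exact hν.1 x
  have hginj : Function.Injective g := fun x y h => Subtype.ext (by rw [← hgw, ← hgw, h])
  have hdir : ∀ x, dir x = 1 ∨ dir x = -1 := by
    intro x; simp only [dir]; split_ifs <;> simp
  have hψ : ∀ (ψ : E → ℚ), ∀ x ∈ C, (ψ (o.ω (g x)) - ψ (g x)) * dir x = ψ (ν x) - ψ (t x) := by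
    intro ψ x hx
    simp only [g, dir]
    split_ifs with h
    · rw [← h, mul_one]
    · rw [← hback x hx h]; ring
  let z : Finset (D.Wp (D.w e0)) → E → ℚ := fun A e => ∑ x ∈ A, if g x = e then dir x else 0
  have hzsum : ∀ (A : Finset (D.Wp (D.w e0))) (η : E → ℚ),
      ∑ e, η e * z A e = ∑ x ∈ A, η (g x) * dir x := by
    intro A η
    simp only [z, Finset.mul_sum]
    rw [Finset.sum_comm]
    refine Finset.sum_congr rfl fun x _ => ?_
    simp
  have hzg : ∀ (A : Finset (D.Wp (D.w e0))), ∀ x ∈ A, z A (g x) = dir x := by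
    intro A x hx
    simp only [z]
    rw [Finset.sum_eq_single x (fun y _ hy => if_neg fun h => hy (hginj h))
      (fun h => absurd hx h), if_pos rfl]
  have hzoff : ∀ (A : Finset (D.Wp (D.w e0))) (e : E), (∀ x ∈ A, g x ≠ e) → z A e = 0 :=
    fun A e h => Finset.sum_eq_zero fun x hx => if_neg (h x hx)
  have hzd : ∀ A : Finset (D.Wp (D.w e0)), A ⊆ C → ∀ μ : V → ℚ,
      ∑ e, D.d μ e * z A e = ∑ x ∈ A, (μ (D.tl (t (π x))) - μ (D.tl (t x))) := by
    intro A hA μ
    rw [hzsum]
    refine Finset.sum_congr rfl fun x hx => ?_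
    have := hψ (fun e => μ (D.tl e)) x (hA hx)
    simp only [o.tl_ω] at this
    rw [hπ]; exact this
  have hCπ : ∀ x, x ∈ C ↔ π x ∈ C := by
    intro x; rw [hC, hC]; simp
  obtain ⟨h, hh⟩ := D.exists_bd hE (z C) (fun μ => by
    rw [hzd C (Finset.Subset.refl _), Finset.sum_sub_distrib, sub_eq_zero]
    exact Finset.sum_equiv π hCπ (fun _ _ => rfl))
  have hall : ∀ A : Finset (D.Wp (D.w e0)), x0 ∈ A → (∀ x ∈ A, π x ∈ A) → C ⊆ A := by
    intro A h0 hA x hx
    obtain ⟨n, -, rfl⟩ := ((hC x).1 hx).exists_pow_eq'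
    clear hx
    induction n with
    | zero => simpa using h0
    | succ n ih => rw [pow_succ', Equiv.Perm.mul_apply]; exact hA _ ih
  obtain ⟨S, hS⟩ : ∃ S : Finset F, ∀ e, z C e = D.bd (fun y => if y ∈ S then 1 else 0) e := by
    let θ := min (h (D.b (g x0))) (h (D.w (g x0)))
    let S : Finset F := univ.filter fun y => θ < h y
    let A : Finset (D.Wp (D.w e0)) := C.filter fun x => ¬ (D.b (g x) ∈ S ↔ D.w (g x) ∈ S)
    have hA : ∀ e, z A e = D.bd (fun y => if y ∈ S then 1 else 0) e := by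
      intro e
      by_cases he : ∃ x ∈ A, g x = e
      · obtain ⟨x, hx, rfl⟩ := he
        have h1 := hh (g x)
        rw [hzg C x (mem_filter.1 hx).1] at h1
        have h2 := (mem_filter.1 hx).2
        rw [hzg A x hx]
        simp only [bd, S, mem_filter, mem_univ, true_and] at h1 h2 ⊢
        rcases hdir x with h3 | h3 <;> rw [h3] at h1 ⊢ <;> split_ifs <;>
          first | (exfalso; tauto) | (exfalso; linarith) | norm_num
      · push Not at he
        rw [hzoff A e he]
        by_cases he' : ∃ x ∈ C, g x = e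
        · obtain ⟨x, hx, rfl⟩ := he'
          have h1 : D.b (g x) ∈ S ↔ D.w (g x) ∈ S := by
            by_contra h2
            exact he x (mem_filter.2 ⟨hx, h2⟩) rfl
          simp [bd, h1]
        · push Not at he'
          have h1 := hh e
          rw [hzoff C e he'] at h1
          have h2 : h (D.b e) = h (D.w e) := sub_eq_zero.1 h1.symm
          simp [bd, S, h2]
    have hAC : C ⊆ A := by
      refine hall A (mem_filter.2 ⟨hx0, ?_⟩) fun x hx => ?_
      · have h1 := hh (g x0)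
        rw [hzg C x0 hx0] at h1
        simp only [bd, S, θ, mem_filter, mem_univ, true_and, min_lt_iff, lt_irrefl, false_or,
          or_false] at h1 ⊢
        rcases hdir x0 with h3 | h3 <;> rw [h3] at h1 <;> intro h4
        · have := h4.1 (by linarith); linarith
        · have := h4.2 (by linarith); linarith
      · have h1 := D.orth (fun v => if v = D.tl (t (π x)) then 1 else 0)
          (fun y => if y ∈ S then 1 else 0)
        simp only [← hA] at h1
        rw [hzd A (Finset.filter_subset _ _), Finset.sum_sub_distrib,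
          Finset.sum_eq_single x (fun y _ hy => if_neg fun h => hy (π.injective (ht.2.1 h)))
            (fun h => absurd hx h), if_pos rfl] at h1
        by_contra h2
        rw [Finset.sum_eq_zero (fun y hy => if_neg fun h => h2 (by rw [← ht.2.1 h]; exact hy))]
          at h1
        norm_num at h1
    have : A = C := Finset.Subset.antisymm (Finset.filter_subset _ _) hAC
    exact ⟨S, this ▸ hA⟩
  obtain ⟨s, I, hs, hI0, hI⟩ : ∃ (s : ℚ) (I : Finset F), (s = 1 ∨ s = -1) ∧ D.w e0 ∉ I ∧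
      ∀ e, z C e = s * D.bd (fun y => if y ∈ I then 1 else 0) e := by
    by_cases h0 : D.w e0 ∈ S
    · refine ⟨-1, Sᶜ, Or.inr rfl, by simpa using h0, fun e => ?_⟩
      rw [hS]; simp only [bd, mem_compl]; split_ifs <;> norm_num
    · exact ⟨1, S, Or.inl rfl, h0, fun e => by rw [hS, one_mul]⟩
  have hbd : ∀ e, ¬ (D.b e ∈ I ↔ D.w e ∈ I) ↔ ∃ x ∈ C, g x = e := by
    intro e
    constructor
    · intro h1
      by_contra h2
      push Not at h2
      have h3 := hI e
      rw [hzoff C e h2] at h3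
      simp only [bd] at h3
      rcases hs with rfl | rfl <;> split_ifs at h3 <;> first | tauto | norm_num at h3
    · rintro ⟨x, hx, rfl⟩ h1
      have h3 := hI (g x)
      rw [hzg C x hx] at h3
      simp only [bd, h1, sub_self, mul_zero] at h3
      rcases hdir x with h4 | h4 <;> rw [h4] at h3 <;> norm_num at h3
  have hI1 : I.Nonempty := by
    have := (hbd (g x0)).2 ⟨x0, hx0, rfl⟩
    by_cases h1 : D.b (g x0) ∈ I
    · exact ⟨_, h1⟩
    · exact ⟨D.w (g x0), by tauto⟩
  let g' : D.Wp (D.w e0) → E := fun x => if x ∈ C then g x else t x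
  have hcount := D.disc_count hE (D.w e0) t ht C g' (fun x => by
      simp only [g']; split_ifs
      · exact hgw x
      · exact ht.1 x) (fun x => by
      simp only [g', g]; split_ifs with h1 h2
      · exact Or.inl rfl
      · right; rw [hback x h1 h2, o.tl_ω]
      · exact Or.inl rfl) I hI0 hI1 (fun e => by
      rw [hbd]
      constructor
      · rintro ⟨x, hx, rfl⟩; exact ⟨x, hx, by simp [g', hx]⟩
      · rintro ⟨x, hx, rfl⟩; exact ⟨x, hx, by simp [g', hx]⟩) (fun μ hμ => by
      have h1 : ∀ x ∈ C, μ (D.tl (ν x)) = μ (D.tl (t x)) := by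
        intro x hx
        have h2 := hψ (fun e => μ (D.tl e)) x hx
        have h3 := hμ x hx
        simp only [g', hx, if_true] at h3
        simp only [o.tl_ω, h3, sub_self, zero_mul] at h2
        linarith
      have h2 := hall (C.filter fun x => μ (D.tl (t x)) = μ (D.tl (t x0)))
        (mem_filter.2 ⟨hx0, rfl⟩) (fun x hx => by
          rw [mem_filter] at hx ⊢
          exact ⟨(hCπ x).1 hx.1, by rw [hπ, h1 x hx.1, hx.2]⟩)
      refine ⟨μ (D.tl (t x0)), fun x hx => ?_⟩
      have h3 := (mem_filter.1 (h2 hx)).2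
      simp only [g', g, hx, if_true]
      split_ifs
      · exact h3
      · rw [h1 x hx, h3])
  have hb0 : D.b e0 ∉ I := by
    intro h1
    obtain ⟨x, -, hx⟩ := (hbd e0).1 (by tauto)
    exact x.2.2 (by rw [← hgw, hx])
  have hsumI : ∀ η : E → ℚ, ∑ x ∈ C, η (g x) * dir x =
      s * (∑ y ∈ I, ∑ e with D.b e = y, η e - ∑ y ∈ I, ∑ e with D.w e = y, η e) := by
    intro η
    rw [← hzsum]
    simp only [hI, bd, mul_sub, Finset.sum_sub_distrib, mul_left_comm _ s, ← Finset.mul_sum]
    rw [D.sum_b η (fun y => if y ∈ I then 1 else 0), D.sum_w η (fun y => if y ∈ I then 1 else 0)]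
    simp
  refine ⟨s, (I.filter fun y => D.isB y = true).card, hs, by omega, ?_, fun φ hφ => ?_⟩
  · have h1 := hsumI (fun _ => 1)
    have h2 : ∑ y ∈ I, ∑ e with D.b e = y, (1 : ℚ) =
        3 * (I.filter fun y => D.isB y = true).card := by
      rw [Finset.card_filter, Nat.cast_sum, Finset.mul_sum]
      refine Finset.sum_congr rfl fun y _ => ?_
      by_cases hy : D.isB y = true
      · simp [hy, D.card_b y hy]
      · rw [D.sum_b_white _ y (by simpa using hy)]; simp [hy]
    have h3 : ∑ y ∈ I, ∑ e with D.w e = y, (1 : ℚ) =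
        3 * (I.filter fun y => D.isB y = false).card := by
      rw [Finset.card_filter, Nat.cast_sum, Finset.mul_sum]
      refine Finset.sum_congr rfl fun y _ => ?_
      by_cases hy : D.isB y = false
      · simp [hy, D.card_w y hy]
      · rw [D.sum_w_black _ y (by simpa using hy)]; simp [hy]
    rw [h2, h3, hcount] at h1
    simp only [dir, one_mul, Finset.sum_ite, Finset.sum_const, nsmul_eq_mul] at h1
    push_cast at h1
    linarith
  · have h1 := hsumI (fun e => φ (o.ω e) - φ e)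
    rw [Finset.sum_congr rfl (hψ φ)] at h1
    rw [h1, Finset.sum_eq_zero (fun y _ => D.sum_ω o φ y), sub_zero, Finset.card_filter,
      Nat.cast_sum]
    congr 1
    refine Finset.sum_congr rfl fun y hy => ?_
    by_cases hy' : D.isB y = true
    · rw [hφ y hy' (fun h => hb0 (h ▸ hy))]; simp [hy']
    · rw [D.sum_b_white _ y (by simpa using hy')]; simp [hy']

end Data

end Vale.Agent.P039
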