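import Vale.Agent.P039.State

/-! From a state whose opposite edges form a rooted forest to a good perfect matching. -/

namespace Vale.Agent.P039

open Finset

variable {E F V : Type} [Fintype E] [Fintype F] [Fintype V] [DecidableEq E]
  [DecidableEq F] [DecidableEq V]

namespace Data

variable (D : Data E F V)

/-- The cyclic successor in white triangles. -/
structure Om where
  ω : E → E
  w_ω : ∀ e, D.w (ω e) = D.w e
  tl_ω : ∀ e, D.tl (ω e) = D.hd e
  ω3 : ∀ e, ω (ω (ω e)) = e
  ne1 : ∀ e, ω e ≠ e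
  ne2 : ∀ e, ω (ω e) ≠ e
  cases : ∀ e e', D.w e' = D.w e → e' = e ∨ e' = ω e ∨ e' = ω (ω e)

theorem nonempty_Om (hE : D.Euler) : Nonempty D.Om := by
  obtain ⟨ω, h1, h2, h3, h4, h5, h6⟩ := D.exists_omega hE
  exact ⟨⟨ω, h1, h2, h3, h4, h5, h6⟩⟩

theorem sum_b_white (z : E → ℚ) (y : F) (hy : D.isB y = false) :
    ∑ e with D.b e = y, z e = 0 := by
  refine Finset.sum_eq_zero fun e he => ?_
  have := D.isB_b e
  rw [(mem_filter.1 he).2, hy] at this
  simp at this

theorem sum_w_black (z : E → ℚ) (y : F) (hy : D.isB y = true) :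
    ∑ e with D.w e = y, z e = 0 := D.swap.sum_b_white z y (by simp [Data.swap, hy])

theorem sum_b_last (z : E → ℚ) (b0 : F) (hb : ∀ y, y ≠ b0 → ∑ e with D.b e = y, z e = 0)
    (hw : ∀ y, ∑ e with D.w e = y, z e = 0) (y : F) : ∑ e with D.b e = y, z e = 0 := by
  by_cases hy : y = b0
  · subst hy
    have h1 : ∑ e, z e = 0 := by
      rw [← Finset.sum_fiberwise (s := univ) (g := D.w)]
      exact Finset.sum_eq_zero fun x _ => hw x
    rw [← Finset.sum_fiberwise (s := univ) (g := D.b),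
      Finset.sum_eq_single y (fun x _ hx => hb x hx) (by simp)] at h1
    exact h1
  · exact hb y hy

theorem exists_matching (hE : D.Euler) (o : D.Om) (e0 : E) (ν : D.Wp (D.w e0) → E)
    (hν : D.IsState (D.w e0) ν)
    (hf : ∀ μ : V → ℚ, (∀ v ∈ D.R (D.w e0), μ v = 0) →
      (∀ x, μ (D.hd (o.ω (ν x))) = μ (D.tl (o.ω (ν x)))) → ∀ v, μ v = 0) :
    ∃ m : D.Wp (D.w e0) → E, (∀ x, m x = ν x ∨ m x = o.ω (o.ω (ν x))) ∧
      Function.Injective (fun x => D.b (m x)) ∧ ∀ x, D.b (m x) ≠ D.b e0 := by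
  classical
  let a : D.Wp (D.w e0) → E → ℚ := fun x e =>
    (if e = o.ω (o.ω (ν x)) then 1 else 0) - (if e = ν x then 1 else 0)
  let L : (D.Wp (D.w e0) → ℚ) →ₗ[ℚ] (F → ℚ) :=
    { toFun := fun f y => ∑ e with D.b e = y, ∑ x, f x * a x e
      map_add' := fun f f' => by
        funext y; simp [add_mul, Finset.sum_add_distrib]
      map_smul' := fun r f => by
        funext y; simp [Finset.mul_sum, mul_assoc] }
  have ha : ∀ x e, D.w e ≠ x.1 → a x e = 0 := by
    intro x e he
    have h1 : e ≠ o.ω (o.ω (ν x)) := by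
      rintro rfl; exact he (by rw [o.w_ω, o.w_ω, hν.1])
    have h2 : e ≠ ν x := by
      rintro rfl; exact he (hν.1 x)
    simp [a, h1, h2]
  have hz : ∀ (f : D.Wp (D.w e0) → ℚ) (x) (e), D.w e = x.1 → ∑ x', f x' * a x' e = f x * a x e := by
    intro f x e he
    refine Finset.sum_eq_single x (fun x' _ hx' => ?_) (by simp)
    rw [ha x' e (by rw [he]; exact fun h => hx' (Subtype.ext h.symm)), mul_zero]
  have hinj : ∀ f : D.Wp (D.w e0) → ℚ, (∀ y, y ≠ D.b e0 → L f y = 0) → f = 0 := by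
    intro f hL
    have hw : ∀ y, ∑ e with D.w e = y, ∑ x, f x * a x e = 0 := by
      intro y
      rw [Finset.sum_comm]
      refine Finset.sum_eq_zero fun x _ => ?_
      rw [← Finset.mul_sum]
      simp only [a, Finset.sum_sub_distrib, Finset.sum_ite_eq', mem_filter, mem_univ, true_and,
        o.w_ω, sub_self, mul_zero]
    obtain ⟨μ, hμ⟩ := D.exists_d hE (fun e => ∑ x, f x * a x e)
      (D.sum_b_last _ (D.b e0) hL hw) hw
    have h0 : ∀ e, D.w e = D.w e0 → μ (D.hd e) = μ (D.tl e) := by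
      intro e he
      have := hμ e
      rw [Finset.sum_eq_zero (fun x _ => by rw [ha x e (by rw [he]; exact x.2.2.symm), mul_zero])]
        at this
      exact sub_eq_zero.1 this.symm
    have h1 := hf (fun v => μ v - μ (D.tl e0)) (fun v hv => by
      obtain ⟨e, he, rfl⟩ := D.mem_R.1 hv
      exact sub_eq_zero.2 (D.face_w μ e e0 he (h0 e he) (h0 e0 rfl))) (fun x => by
      have := hμ (o.ω (ν x))
      rw [hz f x _ (by rw [o.w_ω, hν.1])] at this
      have h2 : a x (o.ω (ν x)) = 0 := by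
        simp [a, (o.ne1 (o.ω (ν x))).symm, o.ne1 (ν x)]
      rw [h2, mul_zero] at this
      simp only [d] at this
      linarith)
    funext x
    have h2 := hμ (ν x)
    rw [hz f x _ (hν.1 x)] at h2
    have h3 : a x (ν x) = -1 := by simp [a, (o.ne2 (ν x)).symm]
    have h4 := h1 (D.hd (ν x))
    have h5 := h1 (D.tl (ν x))
    simp only [d, h3] at h2
    simp only [Pi.zero_apply]
    linarith
  let N : D.Wp (D.w e0) → Finset F := fun x =>
    ({D.b (ν x), D.b (o.ω (o.ω (ν x)))} : Finset F).erase (D.b e0)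
  obtain ⟨f, hf1, hf2⟩ := (Finset.all_card_le_biUnion_card_iff_exists_injective N).1 (by
    intro s
    refine (card_le_of_ker s (s.biUnion N) L ?_).1
    intro c hc0 hc1
    refine hinj c fun y hy => ?_
    by_cases hys : y ∈ s.biUnion N
    · exact hc1 y hys
    · refine Finset.sum_eq_zero fun e he => Finset.sum_eq_zero fun x _ => ?_
      by_cases hx : x ∈ s
      · have h1 : y ∉ N x := fun h => hys (mem_biUnion.2 ⟨x, hx, h⟩)
        simp only [N, mem_erase, mem_insert, mem_singleton, not_and, not_or] at h1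
        have h2 := h1 hy
        have h3 := (mem_filter.1 he).2
        have h4 : e ≠ o.ω (o.ω (ν x)) := by rintro rfl; exact h2.2 h3.symm
        have h5 : e ≠ ν x := by rintro rfl; exact h2.1 h3.symm
        simp [a, h4, h5]
      · simp [hc0 x hx])
  have hb : ∀ x, D.b (if D.b (ν x) = f x then ν x else o.ω (o.ω (ν x))) = f x := by
    intro x
    have := hf2 x
    simp only [N, mem_erase, mem_insert, mem_singleton] at this
    split_ifs with h
    · exact h
    · rcases this.2 with h' | h'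
      · exact absurd h'.symm h
      · exact h'.symm
  refine ⟨fun x => if D.b (ν x) = f x then ν x else o.ω (o.ω (ν x)), fun x => ?_, ?_, fun x => ?_⟩
  · dsimp only; split_ifs <;> simp
  · simp only [hb]; exact hf1
  · rw [hb]; exact (mem_erase.1 (hf2 x)).1

theorem card_nonM_b (M : Finset E) (hM : ∀ x : F, ∃! e, e ∈ M ∧ (D.b e = x ∨ D.w e = x))
    (S : Finset F) (T : Finset E) (hT : ∀ e, e ∈ T ↔ e ∉ M ∧ D.b e ∈ S) :
    T.card = 2 * (S.filter fun y => D.isB y = true).card := by
  rw [Finset.card_eq_sum_card_fiberwise (f := D.b) (t := S.filter fun y => D.isB y = true)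
    (fun e he => by simp [D.isB_b, ((hT e).1 he).2]),
    Finset.sum_congr rfl (g := fun _ => 2)]
  · simp [mul_comm]
  intro y hy
  rw [mem_filter] at hy
  obtain ⟨e, ⟨he1, he2⟩, he3⟩ := hM y
  have he4 : D.b e = y := by
    rcases he2 with h | h
    · exact h
    · have := D.isB_w e; rw [h, hy.2] at this; simp at this
  have : (T.filter fun e => D.b e = y) = (univ.filter fun e => D.b e = y).erase e := by
    ext e'
    simp only [mem_filter, hT, mem_erase, mem_univ, true_and]
    constructor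
    · rintro ⟨⟨h1, -⟩, h2⟩
      exact ⟨fun h => h1 (h ▸ he1), h2⟩
    · rintro ⟨h1, h2⟩
      exact ⟨⟨fun h => h1 (he3 e' ⟨h, Or.inl h2⟩), h2 ▸ hy.1⟩, h2⟩
  rw [this, Finset.card_erase_of_mem (by simp [he4]), D.card_b y hy.2]

theorem good_of_forest (hE : D.Euler) (o : D.Om) (e0 : E) (ν : D.Wp (D.w e0) → E)
    (hν : D.IsState (D.w e0) ν)
    (hf : ∀ μ : V → ℚ, (∀ v ∈ D.R (D.w e0), μ v = 0) →
      (∀ x, μ (D.hd (o.ω (ν x))) = μ (D.tl (o.ω (ν x)))) → ∀ v, μ v = 0) :
    ∃ M : Finset E, e0 ∈ M ∧ D.Good M := by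
  classical
  obtain ⟨m, hm1, hm2, hm3⟩ := D.exists_matching hE o e0 ν hν hf
  have hmw : ∀ x, D.w (m x) = x.1 := by
    intro x
    rcases hm1 x with h | h <;> rw [h]
    · exact hν.1 x
    · rw [o.w_ω, o.w_ω, hν.1]
  let M : Finset E := insert e0 (univ.image m)
  have hMmem : ∀ e, e ∈ M ↔ e = e0 ∨ ∃ x, m x = e := by simp [M]
  have hsurj : ∀ y, D.isB y = true → y ≠ D.b e0 → ∃ x, D.b (m x) = y := by
    intro y hy hy0
    have h1 : (univ.image fun x => D.b (m x)) =
        (univ.filter fun x => D.isB x = true).erase (D.b e0) := by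
      apply Finset.eq_of_subset_of_card_le
      · intro y hy
        obtain ⟨x, -, rfl⟩ := mem_image.1 hy
        simp [hm3 x, D.isB_b]
      · rw [Finset.card_image_of_injective _ hm2, Finset.card_erase_of_mem (by simp [D.isB_b]),
          card_univ]
        have h1 := D.card_E_w
        have h2 := D.card_E_b
        have h4 := D.card_Wp (D.w e0) (D.isB_w e0)
        omega
    have : y ∈ univ.image fun x => D.b (m x) := by rw [h1]; simp [hy, hy0]
    simpa using this
  have hM : ∀ x : F, ∃! e, e ∈ M ∧ (D.b e = x ∨ D.w e = x) := by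
    intro y
    by_cases hy : D.isB y = true
    · have hw : ∀ e, D.w e ≠ y := fun e h => by
        have := D.isB_w e; rw [h, hy] at this; simp at this
      simp only [hw, or_false, hMmem]
      by_cases hy0 : y = D.b e0
      · refine ⟨e0, ⟨Or.inl rfl, hy0.symm⟩, ?_⟩
        rintro e ⟨h | ⟨x, rfl⟩, h'⟩
        · exact h
        · exact absurd (h'.trans hy0) (hm3 x)
      · obtain ⟨x, hx⟩ := hsurj y hy hy0
        refine ⟨m x, ⟨Or.inr ⟨x, rfl⟩, hx⟩, ?_⟩
        rintro e ⟨rfl | ⟨x', rfl⟩, h'⟩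
        · exact absurd h'.symm hy0
        · rw [hm2 (h'.trans hx.symm)]
    · have hw : ∀ e, D.b e ≠ y := fun e h => hy (h ▸ D.isB_b e)
      simp only [hw, false_or, hMmem]
      by_cases hy0 : y = D.w e0
      · refine ⟨e0, ⟨Or.inl rfl, hy0.symm⟩, ?_⟩
        rintro e ⟨h | ⟨x, rfl⟩, h'⟩
        · exact h
        · exact absurd ((hmw x).symm.trans (h'.trans hy0)) x.2.2
      · refine ⟨m ⟨y, by simpa using hy, hy0⟩, ⟨Or.inr ⟨_, rfl⟩, hmw _⟩, ?_⟩
        rintro e ⟨rfl | ⟨x', rfl⟩, h'⟩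
        · exact absurd h'.symm hy0
        · congr 1
          exact Subtype.ext ((hmw x').symm.trans h')
  refine ⟨M, by simp [M], hM, ?_⟩
  let S' : Finset F := univ.filter fun y => ∀ T : Finset F,
    (∀ e, e ∉ M → (D.b e ∈ T ↔ D.w e ∈ T)) → D.w e0 ∈ T → y ∈ T
  have hS'cl : ∀ e, e ∉ M → (D.b e ∈ S' ↔ D.w e ∈ S') := by
    intro e he
    simp only [S', mem_filter, mem_univ, true_and]
    exact ⟨fun h T hT h0 => (hT e he).1 (h T hT h0), fun h T hT h0 => (hT e he).2 (h T hT h0)⟩
  have hw0 : D.w e0 ∈ S' := by simp [S']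
  suffices hS' : S' = univ by
    intro S hS
    by_cases h0 : D.w e0 ∈ S
    · right
      refine Finset.eq_univ_of_forall fun y => ?_
      have : y ∈ S' := by rw [hS']; simp
      exact (mem_filter.1 this).2 S hS h0
    · left
      refine Finset.eq_empty_of_forall_notMem fun y hy => ?_
      have : y ∈ S' := by rw [hS']; simp
      have := (mem_filter.1 this).2 Sᶜ (fun e he => by simp [hS e he]) (by simpa using h0)
      simp [hy] at this
  by_contra hne
  have h1 := D.euler_le S' hne (by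
    intro μ hμ
    suffices h : ∀ u ∈ D.VS S', μ u = μ (D.tl e0) from
      fun u hu v hv => (h u hu).trans (h v hv).symm
    have hT : ∀ y ∈ S', y ∈ S'.filter
        fun y => ∀ e, (D.b e = y ∨ D.w e = y) → μ (D.tl e) = μ (D.tl e0) := by
      intro y hy
      refine (mem_filter.1 hy).2 _ (fun e he => ?_) ?_
      · simp only [mem_filter]
        constructor
        · rintro ⟨h2, h3⟩
          have h4 := (hS'cl e he).1 h2
          refine ⟨h4, fun e2 h5 => ?_⟩
          rw [← h3 e (Or.inl rfl)]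
          refine D.face_inc μ _ e2 e h5 (Or.inr rfl) (hμ _ (D.mem_ES.2 ?_))
            (hμ _ (D.mem_ES.2 (Or.inl h2)))
          rcases h5 with h5 | h5 <;> simp [h5, h4]
        · rintro ⟨h2, h3⟩
          have h4 := (hS'cl e he).2 h2
          refine ⟨h4, fun e2 h5 => ?_⟩
          rw [← h3 e (Or.inr rfl)]
          refine D.face_inc μ _ e2 e h5 (Or.inl rfl) (hμ _ (D.mem_ES.2 ?_))
            (hμ _ (D.mem_ES.2 (Or.inr h2)))
          rcases h5 with h5 | h5 <;> simp [h5, h4]
      · refine mem_filter.2 ⟨hw0, fun e2 h5 => ?_⟩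
        refine D.face_inc μ _ e2 e0 h5 (Or.inr rfl) (hμ _ (D.mem_ES.2 ?_))
          (hμ _ (D.mem_ES.2 (Or.inr hw0)))
        rcases h5 with h5 | h5 <;> simp [h5, hw0]
    intro u hu
    obtain ⟨e, he, rfl⟩ := D.mem_VS.1 hu
    rcases he with he | he
    · exact (mem_filter.1 (hT _ he)).2 e (Or.inl rfl)
    · exact (mem_filter.1 (hT _ he)).2 e (Or.inr rfl))
  have h2 : (D.VS S')ᶜ.card ≤ ((D.ES S')ᶜ.filter (· ∈ M)).card := by
    refine Finset.card_le_card_of_forall_subsingleton
      (fun v e => ∃ x, D.tl (ν x) = v ∧ m x = e) (fun v hv => ?_) (fun e _ => ?_)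
    · have hv' := mem_compl.1 hv
      obtain ⟨x, hx⟩ := (hν.2.2 v).2 (fun h => by
        obtain ⟨e, he, rfl⟩ := D.mem_R.1 h
        exact hv' (D.mem_VS.2 ⟨e, Or.inr (he ▸ hw0), rfl⟩))
      refine ⟨m x, mem_filter.2 ⟨mem_compl.2 fun h => hv' ?_, (hMmem _).2 (Or.inr ⟨x, rfl⟩)⟩,
        x, hx, rfl⟩
      rcases hm1 x with h' | h'
      · rw [← hx, ← h']; exact D.tl_mem_VS h
      · rw [← hx, ← o.ω3 (ν x), o.tl_ω, ← h']; exact D.hd_mem_VS h
    · rintro v ⟨-, x, rfl, hx⟩ v' ⟨-, x', rfl, hx'⟩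
      have : x = x' := Subtype.ext (by rw [← hmw, ← hmw, hx, hx'])
      rw [this]
  have h3 := D.card_nonM_b M hM S'ᶜ ((D.ES S')ᶜ.filter (· ∉ M)) (fun e => by
    simp only [mem_filter, mem_compl, mem_ES]
    have := hS'cl e
    tauto)
  have h4 := D.swap.card_nonM_b M (fun x => by simpa [Data.swap, or_comm] using hM x) S'ᶜ
    ((D.ES S')ᶜ.filter (· ∉ M)) (fun e => by
    simp only [mem_filter, mem_compl, mem_ES, Data.swap]
    have := hS'cl e
    tauto)
  have h5 := Finset.card_filter_add_card_filter_not (s := S'ᶜ) (fun y => D.isB y = true)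
  have h6 : (S'ᶜ.filter fun y => D.swap.isB y = true) = S'ᶜ.filter fun y => ¬ D.isB y = true := by
    ext y; simp [Data.swap]
  have h7 := Finset.card_filter_add_card_filter_not (s := (D.ES S')ᶜ) (· ∈ M)
  have h8 := Finset.card_add_card_compl S'
  have h9 := Finset.card_add_card_compl (D.ES S')
  have h10 := Finset.card_add_card_compl (D.VS S')
  rw [h6] at h4
  unfold Euler at hE
  omega

end Data

end Vale.Agent.P039
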