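import Vale.Agent.P039.Disc

/-! Existence of a state whose opposite edges form a rooted forest. -/

namespace Vale.Agent.P039

open Finset

theorem factor_eq (f g : ℕ) (s A a b ε : ℝ) (hs : s = 1 ∨ s = -1) (h1 : (f : ℝ) - g = 3 * s)
    (h2 : a - b = s * A) :
    Complex.exp (Complex.I * (ε * a : ℝ)) * (-1) ^ f +
      Complex.exp (Complex.I * (ε * b : ℝ)) * ((-1) ^ (f + g) * (-1) ^ f) =
    Complex.I ^ (f + g) * ((2 * Real.sin (ε * A / 2) : ℝ) *
      Complex.exp (Complex.I * (ε * (a + b) / 2 : ℝ))) := by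
  have e1 : Complex.exp (Complex.I * (ε * a : ℝ)) =
      Complex.exp (Complex.I * (ε * (a + b) / 2 : ℝ)) *
        Complex.exp ((ε * (a - b) / 2 : ℝ) * Complex.I) := by
    rw [← Complex.exp_add]; congr 1; push_cast; ring
  have e2 : Complex.exp (Complex.I * (ε * b : ℝ)) =
      Complex.exp (Complex.I * (ε * (a + b) / 2 : ℝ)) *
        Complex.exp ((-(ε * (a - b) / 2) : ℝ) * Complex.I) := by
    rw [← Complex.exp_add]; congr 1; push_cast; ring
  rw [e1, e2, Complex.exp_mul_I, Complex.exp_mul_I, h2]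
  generalize Complex.exp (Complex.I * (ε * (a + b) / 2 : ℝ)) = X
  rcases hs with rfl | rfl
  · obtain rfl : f = g + 3 := by
      have : (f : ℝ) = ((g + 3 : ℕ) : ℝ) := by push_cast; linarith
      exact_mod_cast this
    rw [show g + 3 + g = 2 * g + 3 by ring, pow_add, pow_add, pow_add, pow_mul, pow_mul,
      Complex.I_sq, Complex.I_pow_three]
    push_cast
    rw [Complex.cos_neg, Complex.sin_neg]
    simp only [one_mul]
    ring
  · obtain rfl : g = f + 3 := by
      have : (g : ℝ) = ((f + 3 : ℕ) : ℝ) := by push_cast; linarith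
      exact_mod_cast this
    rw [show f + (f + 3) = 2 * f + 3 by ring, pow_add, pow_add, pow_mul, pow_mul,
      Complex.I_sq, Complex.I_pow_three]
    push_cast
    rw [show (ε : ℂ) * (-1 * A) / 2 = -(ε * A / 2) by ring, neg_neg, Complex.cos_neg,
      Complex.sin_neg]
    ring

variable {E F V : Type} [Fintype E] [Fintype F] [Fintype V] [DecidableEq E]
  [DecidableEq F] [DecidableEq V]

namespace Data

variable (D : Data E F V)

theorem exists_phi (o : D.Om) (b0 : F) : ∃ φ : E → ℚ, ∀ y, D.isB y = true → y ≠ b0 →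
    D.isB b0 = true → ∑ e with D.b e = y, (φ (o.ω e) - φ e) = 1 := by
  classical
  let L : (F → ℚ) →ₗ[ℚ] (F → ℚ) :=
    { toFun := fun h y => ∑ e with D.b e = y, D.bd h e - ∑ e with D.w e = y, D.bd h e
      map_add' := fun h h' => by
        funext y
        have : ∀ e, D.bd (h + h') e = D.bd h e + D.bd h' e := fun e => by simp [bd]; ring
        simp only [this, Finset.sum_add_distrib, Pi.add_apply]; ring
      map_smul' := fun r h => by
        funext y
        have : ∀ e, D.bd (r • h) e = r * D.bd h e := fun e => by simp [bd]; ring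
        simp only [this, ← Finset.mul_sum, Pi.smul_apply, smul_eq_mul, RingHom.id_apply]; ring }
  obtain ⟨h, -, hh⟩ := (card_le_of_ker (univ.erase b0) (univ.erase b0) L (by
    intro c hc0 hc1
    have h0 : c b0 = 0 := hc0 b0 (by simp)
    have h1 : ∑ e, D.bd c e * D.bd c e = ∑ y, c y * L c y := by
      have : ∀ e, D.bd c e * D.bd c e = D.bd c e * c (D.b e) - D.bd c e * c (D.w e) :=
        fun e => by rw [← mul_sub]; rfl
      simp only [this, Finset.sum_sub_distrib, D.sum_b, D.sum_w, L, LinearMap.coe_mk,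
        AddHom.coe_mk, mul_sub]
    rw [Finset.sum_eq_zero (s := (univ : Finset F)) (fun y _ => by
      by_cases hy : y = b0
      · rw [hy, h0, zero_mul]
      · rw [hc1 y (by simp [hy]), mul_zero]),
      Finset.sum_eq_zero_iff_of_nonneg (fun e _ => mul_self_nonneg _)] at h1
    funext y
    rw [D.const_of_bd c (fun e => sub_eq_zero.1 (mul_self_eq_zero.1 (h1 e (mem_univ e)))) y b0, h0]
    rfl)).2 rfl (fun y => if D.isB y = true then 1 else 0)
  refine ⟨fun e => (D.bd h (o.ω (o.ω e)) - D.bd h e) / 3, fun y hy hy0 hb0 => ?_⟩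
  have h1 : ∀ e, D.bd h e + D.bd h (o.ω e) + D.bd h (o.ω (o.ω e)) = 0 := by
    intro e
    have h2 := hh (D.w e) (by
      simp only [mem_erase, mem_univ, and_true]
      intro h3
      have := D.isB_w e
      rw [h3, hb0] at this; simp at this)
    simp only [L, LinearMap.coe_mk, AddHom.coe_mk, D.isB_w, D.sum_b_white _ _ (D.isB_w e)] at h2
    have h3 : (univ.filter fun e' => D.w e' = D.w e) = {e, o.ω e, o.ω (o.ω e)} := by
      ext e'
      simp only [mem_filter, mem_univ, true_and, mem_insert, mem_singleton]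
      refine ⟨o.cases e e', ?_⟩
      rintro (rfl | rfl | rfl) <;> simp [o.w_ω]
    rw [h3, Finset.sum_insert (by simp [(o.ne1 e).symm, (o.ne2 e).symm]),
      Finset.sum_pair (o.ne1 _).symm] at h2
    simp at h2
    linarith
  have h2 := hh y (by simp [hy0])
  simp only [L, LinearMap.coe_mk, AddHom.coe_mk, hy, D.sum_w_black _ _ hy, if_true, sub_zero] at h2
  rw [← h2]
  refine Finset.sum_congr rfl fun e _ => ?_
  simp only [o.ω3]
  linarith [h1 e]

theorem exists_perm {w0 : F} {ν t : D.Wp w0 → E} (hν : D.IsState w0 ν) (ht : D.IsState w0 t) :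
    ∃ π : Equiv.Perm (D.Wp w0), ∀ x, D.tl (t (π x)) = D.tl (ν x) := by
  choose f hf using fun x => (ht.2.2 (D.tl (ν x))).2 ((hν.2.2 _).1 ⟨x, rfl⟩)
  have : Function.Injective f := fun x y h => hν.2.1 (by
    simp only; rw [← hf, ← hf, h])
  exact ⟨Equiv.ofBijective f (Finite.injective_iff_bijective.1 this), hf⟩

theorem isState_of {w0 : F} {ν t : D.Wp w0 → E} (ht : D.IsState w0 t) (τ : D.Wp w0 → D.Wp w0)
    (hτ : Function.Injective τ) (h1 : ∀ x, D.w (ν x) = x.1)
    (h2 : ∀ x, D.tl (ν x) = D.tl (t (τ x))) : D.IsState w0 ν := by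
  refine ⟨h1, fun x y h => hτ (ht.2.1 (by simpa only [h2] using h)), fun v => ?_⟩
  rw [← ht.2.2]
  constructor
  · rintro ⟨x, rfl⟩; exact ⟨τ x, (h2 x).symm⟩
  · rintro ⟨x, rfl⟩
    obtain ⟨y, rfl⟩ := Finite.injective_iff_surjective.1 hτ x
    exact ⟨y, h2 y⟩

theorem sign_eq_one (hE : D.Euler) (o : D.Om) (e0 : E) (ν t : D.Wp (D.w e0) → E)
    (hν : D.IsState (D.w e0) ν) (ht : D.IsState (D.w e0) t)
    (π : Equiv.Perm (D.Wp (D.w e0))) (hπ : ∀ x, D.tl (t (π x)) = D.tl (ν x)) :
    Equiv.Perm.sign π = 1 := by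
  classical
  have key : ∀ n ∈ π.cycleType, Odd n := by
    intro n hn
    rw [Equiv.Perm.cycleType_def, Multiset.mem_map] at hn
    obtain ⟨c, hc, rfl⟩ := hn
    have hc' : c ∈ π.cycleFactorsFinset := hc
    obtain ⟨x0, hx0⟩ := (Equiv.Perm.mem_cycleFactorsFinset_iff.1 hc').1.nonempty_support
    have h1 := Equiv.Perm.cycle_is_cycleOf hx0 hc'
    have h2 : x0 ∈ π.support := Equiv.Perm.mem_cycleFactorsFinset_support_le hc' hx0
    have h3 : ∀ x, x ∈ c.support ↔ π.SameCycle x0 x := by
      intro x; rw [h1, Equiv.Perm.mem_support_cycleOf_iff]; simp [h2]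
    obtain ⟨s, A, hs, -, h4, -⟩ := D.disc hE o e0 ν t hν ht π hπ x0 c.support h3 (fun x hx h => by
      have h5 : x ∈ π.support := Equiv.Perm.mem_cycleFactorsFinset_support_le hc' hx
      exact Equiv.Perm.mem_support.1 h5 (ht.2.1 (by simp only; rw [hπ, h])))
    have h5 := Finset.card_filter_add_card_filter_not (s := c.support)
      (fun x => ν x = o.ω (t x))
    simp only [Function.comp]
    rw [← h5]
    generalize (c.support.filter fun x => ν x = o.ω (t x)).card = f at *
    generalize (c.support.filter fun x => ¬ ν x = o.ω (t x)).card = g at *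
    rcases hs with rfl | rfl
    · have : (f : ℚ) = ((g + 3 : ℕ) : ℚ) := by push_cast; linarith
      have : f = g + 3 := by exact_mod_cast this
      exact ⟨g + 1, by omega⟩
    · have : (g : ℚ) = ((f + 3 : ℕ) : ℚ) := by push_cast; linarith
      have : g = f + 3 := by exact_mod_cast this
      exact ⟨f + 1, by omega⟩
  rw [Equiv.Perm.sign_of_cycleType']
  refine Multiset.prod_eq_one fun u hu => ?_
  obtain ⟨n, hn, rfl⟩ := Multiset.mem_map.1 hu
  rw [(key n hn).neg_one_pow, neg_neg]

/-- The sign of an ordered pair of corners of a white triangle. -/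
def eps (o : D.Om) (a e : E) : ℚ :=
  (if e = o.ω a then 1 else 0) - (if e = o.ω (o.ω a) then 1 else 0)

open Classical in
theorem sum_eps_zero (hE : D.Euler) (o : D.Om) (e0 : E) (t0 ν : D.Wp (D.w e0) → E)
    (ht0 : D.IsState (D.w e0) t0) (hν : D.IsState (D.w e0) ν) (μ : V → ℚ)
    (h0 : ∀ v ∈ D.R (D.w e0), μ v = 0)
    (h1 : ∀ x, μ (D.hd (o.ω (ν x))) = μ (D.tl (o.ω (ν x)))) (v : V) (hv : μ v ≠ 0) :
    ∑ t with D.IsState (D.w e0) t, ∏ x, D.eps o (ν x) (t x) = 0 := by
  let N : Matrix (D.Wp (D.w e0)) (D.Wp (D.w e0)) ℚ := fun y x =>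
    ∑ e, D.eps o (ν x) e * (if D.tl e = D.tl (t0 y) then 1 else 0)
  have hμ : ∀ u, ∑ y, μ (D.tl (t0 y)) * (if u = D.tl (t0 y) then 1 else 0) = μ u := by
    intro u
    by_cases hu : u ∈ D.R (D.w e0)
    · rw [h0 u hu]
      refine Finset.sum_eq_zero fun y _ => ?_
      rw [if_neg, mul_zero]
      rintro rfl
      exact (ht0.2.2 _).1 ⟨y, rfl⟩ hu
    · obtain ⟨y, rfl⟩ := (ht0.2.2 u).2 hu
      rw [Finset.sum_eq_single y (fun y' _ hy' => by
        rw [if_neg (fun h => hy' (ht0.2.1 h).symm), mul_zero]) (by simp)]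
      simp
  have hdet : N.det = 0 := by
    rw [← Matrix.exists_vecMul_eq_zero_iff]
    refine ⟨fun y => μ (D.tl (t0 y)), fun h => ?_, ?_⟩
    · obtain ⟨y, rfl⟩ := (ht0.2.2 v).2 (fun h => hv (h0 v h))
      exact hv (congrFun h y)
    · funext x
      simp only [Matrix.vecMul, dotProduct, N, Finset.mul_sum, Pi.zero_apply]
      rw [Finset.sum_comm]
      simp only [mul_left_comm _ (D.eps o (ν x) _), ← Finset.mul_sum, hμ]
      simp only [eps, sub_mul, Finset.sum_sub_distrib, ite_mul, one_mul, zero_mul,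
        Finset.sum_ite_eq', mem_univ, if_true]
      rw [o.tl_ω (o.ω (ν x)), h1, sub_self]
  rw [Matrix.det_apply'] at hdet
  simp only [N, Finset.prod_univ_sum, Fintype.piFinset_univ, Finset.mul_sum] at hdet
  rw [Finset.sum_comm] at hdet
  rw [← hdet, Finset.sum_filter]
  refine Finset.sum_congr rfl fun t _ => ?_
  simp only [Finset.prod_mul_distrib, mul_left_comm _ (∏ x, D.eps o (ν x) (t x)),
    ← Finset.mul_sum]
  by_cases hp : ∏ x, D.eps o (ν x) (t x) = 0
  · simp [hp]
  have hw : ∀ x, D.w (t x) = x.1 := by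
    intro x
    have h2 := Finset.prod_ne_zero_iff.1 hp x (mem_univ x)
    by_contra h3
    have h4 : t x ≠ o.ω (ν x) := fun h => h3 (by rw [h, o.w_ω, hν.1])
    have h5 : t x ≠ o.ω (o.ω (ν x)) := fun h => h3 (by rw [h, o.w_ω, o.w_ω, hν.1])
    simp [eps, h4, h5] at h2
  split_ifs with ht
  · obtain ⟨π, hπ⟩ := D.exists_perm ht ht0
    rw [Finset.sum_eq_single π (fun σ _ hσ => ?_) (by simp)]
    · simp [hπ, D.sign_eq_one hE o e0 t t0 ht ht0 π hπ]
    · rw [Finset.prod_boole, if_neg, mul_zero]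
      intro h
      exact hσ (Equiv.ext fun x => ht0.2.1 (by simp only; rw [hπ, ← h x (mem_univ x)]))
  · rw [Finset.sum_eq_zero, mul_zero]
    intro σ _
    rw [Finset.prod_boole, if_neg, mul_zero]
    intro h
    exact ht (D.isState_of ht0 σ σ.injective hw (fun x => h x (mem_univ x)))

end Data

end Vale.Agent.P039
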