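import Vale.Agent.P039.Lin

/-! Tutte states on the white triangles. -/

namespace Vale.Agent.P039

open Finset

variable {E F V : Type} [Fintype E] [Fintype F] [Fintype V] [DecidableEq E]
  [DecidableEq F] [DecidableEq V]

namespace Data

variable (D : Data E F V)

/-- No nontrivial three-edge cut. -/
def Ess4 : Prop :=
  ∀ O : Finset F, (univ.filter (fun e => ¬ (D.b e ∈ O ↔ D.w e ∈ O))).card = 3 →
    O.card = 1 ∨ Oᶜ.card = 1

/-- The white triangles other than `w0`. -/
abbrev Wp (w0 : F) : Type := {x : F // D.isB x = false ∧ x ≠ w0}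

/-- The vertices of the root triangle `w0`. -/
def R (w0 : F) : Finset V := (univ.filter fun e => D.w e = w0).image D.tl

theorem mem_R {w0 : F} {v : V} : v ∈ D.R w0 ↔ ∃ e, D.w e = w0 ∧ D.tl e = v := by simp [R]

/-- A state chooses a corner (an edge `e`, standing for the corner at `tl e`) in every white
triangle other than `w0`, so that every vertex outside `w0` is used exactly once. -/
def IsState (w0 : F) (ν : D.Wp w0 → E) : Prop :=
  (∀ x, D.w (ν x) = x.1) ∧ Function.Injective (fun x => D.tl (ν x)) ∧
    ∀ v : V, (∃ x, D.tl (ν x) = v) ↔ v ∉ D.R w0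

theorem tl_injOn_w (hE : D.Euler) (e e' : E) (h : D.w e = D.w e') (h' : D.tl e = D.tl e') :
    e = e' := by
  obtain ⟨a, b, c, hs, hab, hac, hbc, h1, h2, h3⟩ := triangle D.tl D.hd
    (univ.filter fun e' => D.w e' = D.w e) (D.card_w _ (D.isB_w e))
    (fun e _ => D.loopless hE e) (D.cyc_w _)
  have he : e ∈ ({a, b, c} : Finset E) := by rw [← hs]; simp
  have he' : e' ∈ ({a, b, c} : Finset E) := by rw [← hs]; simp [h]
  have la := D.loopless hE a
  have lb := D.loopless hE b
  have lc := D.loopless hE c
  simp only [mem_insert, mem_singleton] at he he'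
  grind

/-- The cyclic successor of an edge in its white triangle. -/
theorem exists_omega (hE : D.Euler) : ∃ ω : E → E, (∀ e, D.w (ω e) = D.w e) ∧
    (∀ e, D.tl (ω e) = D.hd e) ∧ (∀ e, ω (ω (ω e)) = e) ∧ (∀ e, ω e ≠ e) ∧
    (∀ e, ω (ω e) ≠ e) ∧ ∀ e e', D.w e' = D.w e → e' = e ∨ e' = ω e ∨ e' = ω (ω e) := by
  choose ω h1 h2 using D.exists_next_w
  have key : ∀ e, ∃ a b c : E, (univ.filter fun e' => D.w e' = D.w e) = {a, b, c} ∧
      a ≠ b ∧ a ≠ c ∧ b ≠ c ∧ ω a = b ∧ ω b = c ∧ ω c = a := by
    intro e
    obtain ⟨a, b, c, hs, hab, hac, hbc, h4, h5, h6⟩ := triangle D.tl D.hd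
      (univ.filter fun e' => D.w e' = D.w e) (D.card_w _ (D.isB_w e))
      (fun e _ => D.loopless hE e) (D.cyc_w _)
    have ha : D.w a = D.w e := by
      have : a ∈ univ.filter fun e' => D.w e' = D.w e := by rw [hs]; simp
      exact (mem_filter.1 this).2
    have hb : D.w b = D.w e := by
      have : b ∈ univ.filter fun e' => D.w e' = D.w e := by rw [hs]; simp
      exact (mem_filter.1 this).2
    have hc : D.w c = D.w e := by
      have : c ∈ univ.filter fun e' => D.w e' = D.w e := by rw [hs]; simp
      exact (mem_filter.1 this).2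
    refine ⟨a, b, c, hs, hab, hac, hbc, ?_, ?_, ?_⟩
    · exact D.tl_injOn_w hE _ _ (by rw [h1, ha, hb]) (by rw [h2, h4])
    · exact D.tl_injOn_w hE _ _ (by rw [h1, hb, hc]) (by rw [h2, h5])
    · exact D.tl_injOn_w hE _ _ (by rw [h1, hc, ha]) (by rw [h2, h6])
  refine ⟨ω, h1, h2, fun e => ?_, fun e => ?_, fun e => ?_, fun e e' h => ?_⟩
  all_goals
    obtain ⟨a, b, c, hs, hab, hac, hbc, h4, h5, h6⟩ := key e
    have he : e ∈ ({a, b, c} : Finset E) := by rw [← hs]; simp
    simp only [mem_insert, mem_singleton] at he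
  · grind
  · grind
  · grind
  · have he' : e' ∈ ({a, b, c} : Finset E) := by rw [← hs]; simp [h]
    simp only [mem_insert, mem_singleton] at he'
    grind

theorem card_R (hE : D.Euler) (w0 : F) (hw0 : D.isB w0 = false) : (D.R w0).card = 3 := by
  rw [R, Finset.card_image_of_injOn, D.card_w w0 hw0]
  intro e he e' he' h
  exact D.tl_injOn_w hE e e' (by simp at he he'; rw [he, he']) h

theorem card_E_w : Fintype.card E = 3 * (univ.filter fun x => D.isB x = false).card := by
  rw [← Finset.card_univ, Finset.card_eq_sum_card_fiberwise (f := D.w)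
    (t := univ.filter fun x => D.isB x = false) (fun e _ => by simp [D.isB_w]),
    Finset.sum_congr rfl (g := fun _ => 3) (fun x hx => D.card_w x (by simpa using hx))]
  simp [mul_comm]

theorem card_E_b : Fintype.card E = 3 * (univ.filter fun x => D.isB x = true).card := by
  rw [← Finset.card_univ, Finset.card_eq_sum_card_fiberwise (f := D.b)
    (t := univ.filter fun x => D.isB x = true) (fun e _ => by simp [D.isB_b]),
    Finset.sum_congr rfl (g := fun _ => 3) (fun x hx => D.card_b x (by simpa using hx))]
  simp [mul_comm]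

theorem card_F : Fintype.card F = (univ.filter fun x => D.isB x = true).card +
    (univ.filter fun x => D.isB x = false).card := by
  rw [← Finset.card_univ, ← Finset.card_filter_add_card_filter_not (fun x => D.isB x = true)]
  simp

theorem card_Wp (w0 : F) (hw0 : D.isB w0 = false) :
    Fintype.card (D.Wp w0) + 1 = (univ.filter fun x => D.isB x = false).card := by
  rw [Fintype.card_subtype, show (univ.filter fun x => D.isB x = false ∧ x ≠ w0) =
    (univ.filter fun x => D.isB x = false).erase w0 by ext x; simp [and_comm],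
    Finset.card_erase_add_one (by simpa using hw0)]

/-- There are as many white triangles other than `w0` as vertices outside `w0`. -/
theorem card_V (hE : D.Euler) (w0 : F) (hw0 : D.isB w0 = false) :
    Fintype.card V = Fintype.card (D.Wp w0) + 3 := by
  have h1 := D.card_E_w
  have h2 := D.card_E_b
  have h3 := D.card_F
  have h4 := D.card_Wp w0 hw0
  unfold Euler at hE
  omega

end Data

end Vale.Agent.P039
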