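import Vale.Agent.P039.Pos

/-! The positivity of the weighted sum over pairs of states. -/

namespace Vale.Agent.P039

open Finset

variable {E F V : Type} [Fintype E] [Fintype F] [Fintype V] [DecidableEq E]
  [DecidableEq F] [DecidableEq V]

namespace Data

variable (D : Data E F V)

theorem eps_fwd (o : D.Om) (a e : E) (h : a = o.ω e) : D.eps o a e = -1 := by
  subst h
  simp [eps, o.ω3, (o.ne2 e).symm]

theorem eps_bwd (o : D.Om) (a e : E) (h : e = o.ω a) : D.eps o a e = 1 := by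
  subst h
  simp [eps, (o.ne1 (o.ω a)).symm]

theorem eps_self (o : D.Om) (a : E) : D.eps o a a = 0 := by
  simp [eps, (o.ne1 a).symm, (o.ne2 a).symm]

theorem back (o : D.Om) (a e : E) (hw : D.w a = D.w e) (hne : a ≠ e) (h : ¬ a = o.ω e) :
    e = o.ω a := by
  rcases o.cases e a hw with h' | h' | h'
  · exact absurd h' hne
  · exact absurd h' h
  · rw [h', o.ω3]

/-- The weight of an ordered pair of corners. -/
noncomputable def wt (o : D.Om) (φ : E → ℚ) (ε : ℝ) (a e : E) : ℂ :=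
  Complex.exp (Complex.I * (ε * (φ a : ℝ) : ℝ)) * (D.eps o a e : ℂ)

theorem orbit_factor (hE : D.Euler) (o : D.Om) (e0 : E) (ν t : D.Wp (D.w e0) → E)
    (hν : D.IsState (D.w e0) ν) (ht : D.IsState (D.w e0) t) (hne : ∀ x, ν x ≠ t x)
    (π : Equiv.Perm (D.Wp (D.w e0))) (hπ : ∀ x, D.tl (t (π x)) = D.tl (ν x))
    (x0 : D.Wp (D.w e0)) (C : Finset (D.Wp (D.w e0))) (hC : ∀ x, x ∈ C ↔ π.SameCycle x0 x)
    (φ : E → ℚ) (hφ : ∀ y, D.isB y = true → y ≠ D.b e0 →
      ∑ e with D.b e = y, (φ (o.ω e) - φ e) = 1) (ε : ℝ) (hε : 0 < ε)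
    (hb : ∀ (C : Finset (D.Wp (D.w e0))) (a : D.Wp (D.w e0) → E),
      |ε * ∑ x ∈ C, (φ (a x) : ℝ)| ≤ 1) :
    ∃ r : ℝ, 0 < r ∧ ∏ x ∈ C, D.wt o φ ε (ν x) (t x) + ∏ x ∈ C, D.wt o φ ε (t x) (ν x) =
      Complex.I ^ C.card * (r * Complex.exp (Complex.I *
        (ε * (∑ x ∈ C, (φ (ν x) : ℝ) + ∑ x ∈ C, (φ (t x) : ℝ)) / 2 : ℝ))) := by
  classical
  obtain ⟨s, A, hs, hA, h1, h2⟩ := D.disc hE o e0 ν t hν ht π hπ x0 C hC (fun x _ => hne x)
  have h3 := h2 φ hφ
  have h4 : ∑ x ∈ C, (φ (ν x) : ℝ) - ∑ x ∈ C, (φ (t x) : ℝ) = (s : ℝ) * A := by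
    rw [← Finset.sum_sub_distrib]; exact_mod_cast h3
  have h5 := Finset.card_filter_add_card_filter_not (s := C) (fun x => ν x = o.ω (t x))
  have h6 := factor_eq (C.filter fun x => ν x = o.ω (t x)).card
    (C.filter fun x => ¬ ν x = o.ω (t x)).card s A _ _ ε
    (by rcases hs with rfl | rfl <;> simp) (by exact_mod_cast h1) h4
  have hA' : (0 : ℝ) < A := by exact_mod_cast hA
  have h7 : ε * A ≤ 2 := by
    have h8 := abs_le.1 (hb C ν)
    have h9 := abs_le.1 (hb C t)
    have h10 : ε * ∑ x ∈ C, (φ (ν x) : ℝ) - ε * ∑ x ∈ C, (φ (t x) : ℝ) = s * (ε * A) := by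
      rw [← mul_sub, h4]; ring
    rcases hs with rfl | rfl <;> push_cast at h10 <;> linarith
  refine ⟨2 * Real.sin (ε * A / 2), ?_, ?_⟩
  · have := Real.sin_pos_of_pos_of_lt_pi (x := ε * A / 2) (by positivity)
      (by linarith [Real.pi_gt_three])
    linarith
  rw [h5] at h6
  rw [← h6]
  have hw : ∀ x, D.w (ν x) = D.w (t x) := fun x => by rw [hν.1, ht.1]
  have e1 : ∀ x, (D.eps o (ν x) (t x) : ℂ) = if ν x = o.ω (t x) then -1 else 1 := by
    intro x
    split_ifs with h
    · rw [D.eps_fwd o _ _ h]; simp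
    · rw [D.eps_bwd o _ _ (D.back o _ _ (hw x) (hne x) h)]; simp
  have e2 : ∀ x, (D.eps o (t x) (ν x) : ℂ) = -1 * if ν x = o.ω (t x) then -1 else 1 := by
    intro x
    split_ifs with h
    · rw [D.eps_bwd o _ _ h]; simp
    · rw [D.eps_fwd o _ _ (D.back o _ _ (hw x) (hne x) h)]; simp
  simp only [wt, Finset.prod_mul_distrib, e1, e2, ← Complex.exp_sum, Finset.prod_ite,
    Finset.prod_const, one_pow, mul_one, ← Finset.mul_sum, ← Complex.ofReal_sum]

open Classical in
theorem class_sum (hE : D.Euler) (o : D.Om) (e0 : E) (ν t : D.Wp (D.w e0) → E)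
    (hν : D.IsState (D.w e0) ν) (ht : D.IsState (D.w e0) t) (hne : ∀ x, ν x ≠ t x)
    (φ : E → ℚ) (hφ : ∀ y, D.isB y = true → y ≠ D.b e0 →
      ∑ e with D.b e = y, (φ (o.ω e) - φ e) = 1) (ε : ℝ) (hε : 0 < ε)
    (hb : ∀ (C : Finset (D.Wp (D.w e0))) (a : D.Wp (D.w e0) → E),
      |ε * ∑ x ∈ C, (φ (a x) : ℝ)| ≤ 1)
    (P : Finset ((D.Wp (D.w e0) → E) × (D.Wp (D.w e0) → E)))
    (hP : ∀ p, p ∈ P ↔ D.IsState (D.w e0) p.1 ∧ D.IsState (D.w e0) p.2 ∧
      ∀ x, s(p.1 x, p.2 x) = s(ν x, t x)) :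
    0 < ((Complex.I ^ Fintype.card (D.Wp (D.w e0)))⁻¹ *
      ∑ p ∈ P, ∏ x, D.wt o φ ε (p.1 x) (p.2 x)).re := by
  obtain ⟨π, hπ⟩ := D.exists_perm hν ht
  let Q := Quotient (Equiv.Perm.SameCycle.setoid π)
  let q : D.Wp (D.w e0) → Q := Quotient.mk _
  have hq : ∀ x y, q x = q y ↔ π.SameCycle x y := fun x y => Quotient.eq
  have hqπ : ∀ x, q (π x) = q x := fun x => (hq _ _).2 (by simp [Equiv.Perm.SameCycle.refl])
  have hτ : ∀ A : Q → Bool, Function.Injective fun x => if A (q x) = true then x else π x := by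
    intro A x y h
    have h1 : q x = q y := by
      have := congrArg q h
      simpa only [apply_ite q, hqπ, ite_self] using this
    simp only [h1] at h
    split_ifs at h
    · exact h
    · exact π.injective h
  have hbij : ∑ A : Q → Bool, ∏ x, D.wt o φ ε (if A (q x) = true then t x else ν x)
      (if A (q x) = true then ν x else t x) = ∑ p ∈ P, ∏ x, D.wt o φ ε (p.1 x) (p.2 x) := by
    refine Finset.sum_bij (fun A _ => (fun x => if A (q x) = true then t x else ν x,
      fun x => if A (q x) = true then ν x else t x)) (fun A _ => ?_) (fun A _ A' _ h => ?_)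
      (fun p hp => ?_) (fun A _ => rfl)
    · rw [hP]
      refine ⟨D.isState_of ht _ (hτ A) (fun x => ?_) (fun x => ?_),
        D.isState_of ht _ (hτ fun c => !A c) (fun x => ?_) (fun x => ?_), fun x => ?_⟩
      · dsimp only; split_ifs
        · exact ht.1 x
        · exact hν.1 x
      · dsimp only; split_ifs
        · rfl
        · exact (hπ x).symm
      · dsimp only; split_ifs
        · exact hν.1 x
        · exact ht.1 x
      · cases h : A (q x) <;> simp [h, hπ]
      · dsimp only; split_ifs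
        · exact Sym2.eq_swap
        · rfl
    · funext c
      obtain ⟨x, rfl⟩ := Quotient.exists_rep c
      have h1 := congrFun (congrArg Prod.fst h) x
      have h2 := hne x
      change A (q x) = A' (q x)
      cases h3 : A (q x) <;> cases h4 : A' (q x) <;> simp [h3, h4] at h1 ⊢
      · exact h2 h1
      · exact h2 h1.symm
    · obtain ⟨h1, h2, h3⟩ := (hP p).1 hp
      have h4 : ∀ x, (p.1 x = ν x ∧ p.2 x = t x) ∨ (p.1 x = t x ∧ p.2 x = ν x) :=
        fun x => Sym2.eq_iff.1 (h3 x)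
      have h5 : ∀ x, (p.1 (π x) = t (π x) ↔ p.1 x = t x) := by
        intro x
        constructor
        · intro h
          rcases h4 x with h6 | h6
          · have : π x = x := h1.2.1 (by simp only; rw [h, hπ, h6.1])
            rwa [this] at h
          · exact h6.1
        · intro h
          rcases h4 (π x) with h6 | h6
          · have h7 : p.2 x = ν x := by
              rcases h4 x with h8 | h8
              · exact absurd (h8.1.symm.trans h) (hne x)
              · exact h8.2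
            have : π x = x := h2.2.1 (by simp only; rw [h6.2, hπ, h7])
            rwa [this]
          · exact h6.1
      have h6 : ∀ x y, π.SameCycle x y → decide (p.1 x = t x) = decide (p.1 y = t y) := by
        intro x y hxy
        obtain ⟨n, -, rfl⟩ := hxy.exists_pow_eq'
        clear hxy
        induction n with
        | zero => simp
        | succ n ih => rw [ih, pow_succ', Equiv.Perm.mul_apply]; simp only [h5]
      refine ⟨Quotient.lift (fun x => decide (p.1 x = t x)) h6, mem_univ _, ?_⟩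
      ext x
      · simp only [q, Quotient.lift_mk, decide_eq_true_eq]
        split_ifs with h
        · exact h.symm
        · rcases h4 x with h8 | h8
          · exact h8.1.symm
          · exact absurd h8.1 h
      · simp only [q, Quotient.lift_mk, decide_eq_true_eq]
        split_ifs with h
        · rcases h4 x with h8 | h8
          · exact absurd (h8.1.symm.trans h) (hne x)
          · exact h8.2.symm
        · rcases h4 x with h8 | h8
          · exact h8.2.symm
          · exact absurd h8.1 h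
  rw [← hbij]
  have hfib : ∀ A : Q → Bool, ∏ x, D.wt o φ ε (if A (q x) = true then t x else ν x)
      (if A (q x) = true then ν x else t x) = ∏ c : Q, ∏ x with q x = c,
        D.wt o φ ε (if A c = true then t x else ν x) (if A c = true then ν x else t x) := by
    intro A
    rw [← Finset.prod_fiberwise (s := univ) (g := q)]
    refine Finset.prod_congr rfl fun c _ => Finset.prod_congr rfl fun x hx => ?_
    rw [(mem_filter.1 hx).2]
  simp only [hfib]
  rw [← Fintype.prod_sum (fun (c : Q) (β : Bool) => ∏ x with q x = c,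
    D.wt o φ ε (if β = true then t x else ν x) (if β = true then ν x else t x))]
  choose r hr0 hr using fun c : Q => D.orbit_factor hE o e0 ν t hν ht hne π hπ c.out
    (univ.filter fun x => q x = c) (fun x => by
      rw [mem_filter, ← hq, show q c.out = c from c.out_eq]
      exact ⟨fun h => h.2.symm, fun h => ⟨mem_univ _, h.symm⟩⟩) φ hφ ε hε hb
  simp only [Fintype.sum_bool, if_true, Bool.false_eq_true, if_false]
  simp only [add_comm (∏ x with q x = _, D.wt o φ ε (t x) (ν x)), hr, Finset.prod_mul_distrib,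
    Finset.prod_pow_eq_pow_sum, ← Complex.exp_sum, ← Finset.mul_sum, ← Complex.ofReal_sum,
    ← Complex.ofReal_prod, ← Finset.sum_div, Finset.sum_add_distrib, Finset.sum_fiberwise]
  rw [← Finset.card_eq_sum_card_fiberwise (fun _ _ => mem_univ _), card_univ,
    inv_mul_cancel_left₀ (pow_ne_zero _ Complex.I_ne_zero), Complex.re_ofReal_mul,
    mul_comm Complex.I, Complex.exp_ofReal_mul_I_re]
  refine mul_pos (Finset.prod_pos fun c _ => hr0 c) (Real.cos_pos_of_mem_Ioo ?_)
  have h8 := abs_le.1 (hb univ ν)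
  have h9 := abs_le.1 (hb univ t)
  constructor <;> nlinarith [Real.pi_gt_three]

theorem exists_forest (hE : D.Euler) (o : D.Om) (e0 : E) (ν0 t0 : D.Wp (D.w e0) → E)
    (hν0 : D.IsState (D.w e0) ν0) (ht0 : D.IsState (D.w e0) t0) (hne0 : ∀ x, ν0 x ≠ t0 x) :
    ∃ ν : D.Wp (D.w e0) → E, D.IsState (D.w e0) ν ∧
      ∀ μ : V → ℚ, (∀ v ∈ D.R (D.w e0), μ v = 0) →
        (∀ x, μ (D.hd (o.ω (ν x))) = μ (D.tl (o.ω (ν x)))) → ∀ v, μ v = 0 := by
  classical
  by_contra hcon
  push Not at hcon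
  obtain ⟨φ, hφ⟩ := D.exists_phi o (D.b e0)
  let K : ℝ := Fintype.card (D.Wp (D.w e0)) * ∑ e, |(φ e : ℝ)| + 1
  have hK : 0 < K := by positivity
  have hb : ∀ (C : Finset (D.Wp (D.w e0))) (a : D.Wp (D.w e0) → E),
      |K⁻¹ * ∑ x ∈ C, (φ (a x) : ℝ)| ≤ 1 := by
    intro C a
    rw [abs_mul, abs_of_pos (inv_pos.2 hK), inv_mul_le_iff₀ hK, mul_one]
    refine (Finset.abs_sum_le_sum_abs _ _).trans ?_
    refine (Finset.sum_le_card_nsmul C _ (∑ e, |(φ e : ℝ)|) fun x _ =>
      Finset.single_le_sum (f := fun e => |(φ e : ℝ)|) (fun _ _ => abs_nonneg _)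
        (mem_univ _)).trans ?_
    rw [nsmul_eq_mul]
    have h1 : (C.card : ℝ) ≤ Fintype.card (D.Wp (D.w e0)) := by exact_mod_cast C.card_le_univ
    have h2 : 0 ≤ ∑ e, |(φ e : ℝ)| := by positivity
    simp only [K]
    nlinarith
  let S : Finset (D.Wp (D.w e0) → E) := univ.filter fun t => D.IsState (D.w e0) t
  let P := (S ×ˢ S).filter fun p => ∀ x, p.1 x ≠ p.2 x
  have h1 : ∑ p ∈ P, ∏ x, D.wt o φ K⁻¹ (p.1 x) (p.2 x) = 0 := by
    rw [Finset.sum_filter_of_ne (fun p _ hp x h => hp (Finset.prod_eq_zero (mem_univ x) (by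
      simp [wt, h, D.eps_self]))), Finset.sum_product]
    refine Finset.sum_eq_zero fun ν hν => ?_
    obtain ⟨μ, h0, h1, v, hv⟩ := hcon ν (mem_filter.1 hν).2
    have := D.sum_eps_zero hE o e0 t0 ν ht0 (mem_filter.1 hν).2 μ h0 h1 v hv
    simp only [wt, Finset.prod_mul_distrib, ← Finset.mul_sum]
    rw [show ∑ t ∈ S, ∏ x, (D.eps o (ν x) (t x) : ℂ) = 0 by exact_mod_cast this, mul_zero]
  let u : (D.Wp (D.w e0) → E) × (D.Wp (D.w e0) → E) → D.Wp (D.w e0) → Sym2 E :=
    fun p x => s(p.1 x, p.2 x)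
  rw [← Finset.sum_fiberwise_of_maps_to (s := P) (t := P.image u) (g := u)
    (fun p hp => mem_image_of_mem _ hp)] at h1
  have h2 := congrArg (fun z => ((Complex.I ^ Fintype.card (D.Wp (D.w e0)))⁻¹ * z).re) h1
  simp only [Finset.mul_sum (s := P.image u), Complex.re_sum, mul_zero, Complex.zero_re] at h2
  refine (Finset.sum_pos (fun c hc => ?_) ⟨u (ν0, t0), mem_image_of_mem _ ?_⟩).ne' h2
  · obtain ⟨p, hp, rfl⟩ := mem_image.1 hc
    simp only [P, S, mem_filter, mem_product, mem_univ, true_and] at hp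
    refine D.class_sum hE o e0 p.1 p.2 hp.1.1 hp.1.2 hp.2 φ
      (fun y hy hy0 => hφ y hy hy0 (D.isB_b e0)) K⁻¹ (inv_pos.2 hK) hb _ fun p' => ?_
    simp only [P, S, u, mem_filter, mem_product, mem_univ, true_and, funext_iff]
    constructor
    · rintro ⟨⟨h3, -⟩, h4⟩; exact ⟨h3.1, h3.2, h4⟩
    · rintro ⟨h3, h4, h5⟩
      refine ⟨⟨⟨h3, h4⟩, fun x h => ?_⟩, h5⟩
      rcases Sym2.eq_iff.1 (h5 x) with h6 | h6
      · exact hp.2 x (by rw [← h6.1, ← h6.2, h])
      · exact hp.2 x (by rw [← h6.1, ← h6.2, h])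
  · simp only [P, S, mem_filter, mem_product, mem_univ, true_and]
    exact ⟨⟨hν0, ht0⟩, hne0⟩

end Data

end Vale.Agent.P039
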