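import Mathlib

/-! Logarithmic increments of plane paths around points. -/

namespace Vale.Agent.P039

open Complex

theorem exists_log {A : Type} [TopologicalSpace A] [SimplyConnectedSpace A]
    [LocallyPathConnectedSpace A] (f : A → ℂ) (hf : Continuous f) (h0 : ∀ a, f a ≠ 0) :
    ∃ l : A → ℂ, Continuous l ∧ ∀ a, exp (l a) = f a := by
  obtain ⟨a0⟩ : Nonempty A := inferInstance
  obtain ⟨F, ⟨-, hF⟩, -⟩ := isCoveringMapOn_exp.existsUnique_continuousMap_lifts
    (⟨f, hf⟩ : C(A, ℂ)) (a₀ := a0) (exp_log (h0 a0)) (fun a => h0 a)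
  exact ⟨F, F.continuous, fun a => congrFun hF a⟩

theorem log_unique (l l' : ℝ → ℂ) (hl : Continuous l) (hl' : Continuous l')
    (h : ∀ t, exp (l t) = exp (l' t)) : l 1 - l 0 = l' 1 - l' 0 := by
  have h0 : exp (l 0 - l' 0) = 1 := by rw [exp_sub, h, div_self (exp_ne_zero _)]
  have h1 : ∀ t, exp (l' t + (l 0 - l' 0)) = exp (l t) := fun t => by
    rw [exp_add, h0, mul_one, h]
  obtain ⟨F, -, hF⟩ := isCoveringMapOn_exp.existsUnique_continuousMap_lifts
    (⟨fun t => exp (l t), by fun_prop⟩ : C(ℝ, ℂ)) (a₀ := 0) (e₀ := l 0) rfl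
    (fun a => exp_ne_zero _)
  have e1 := hF ⟨l, hl⟩ ⟨rfl, rfl⟩
  have e2 := hF ⟨fun t => l' t + (l 0 - l' 0), by fun_prop⟩ ⟨by simp, funext h1⟩
  have e3 := congrArg (fun G : C(ℝ, ℂ) => G 1) (e1.trans e2.symm)
  simp only [ContinuousMap.coe_mk] at e3
  rw [e3]; ring

open Classical in
/-- The increment of a continuous logarithm of `α - x` between times `0` and `1`. -/
noncomputable def logInc (α : ℝ → ℂ) (x : ℂ) : ℂ :=
  if h : ∃ l : ℝ → ℂ, Continuous l ∧ ∀ t, exp (l t) = α t - x then h.choose 1 - h.choose 0 else 0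

theorem logInc_eq (α : ℝ → ℂ) (x : ℂ) (l : ℝ → ℂ) (hl : Continuous l)
    (h : ∀ t, exp (l t) = α t - x) : logInc α x = l 1 - l 0 := by
  have h' : ∃ l : ℝ → ℂ, Continuous l ∧ ∀ t, exp (l t) = α t - x := ⟨l, hl, h⟩
  rw [logInc, dif_pos h']
  exact log_unique _ _ h'.choose_spec.1 hl fun t => by rw [h'.choose_spec.2, h]

theorem exp_logInc (α : ℝ → ℂ) (hα : Continuous α) (x : ℂ) (h : ∀ t, α t ≠ x) :
    exp (logInc α x) * (α 0 - x) = α 1 - x := by
  obtain ⟨l, hl, h1⟩ := exists_log (fun t => α t - x) (by fun_prop) fun t => sub_ne_zero.2 (h t)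
  rw [logInc_eq α x l hl h1, ← h1, ← h1, ← exp_add]
  congr 1; ring

theorem logInc_square (α β : ℝ → ℂ) (hα : Continuous α) (hβ : Continuous β)
    (h : ∀ s t, α s ≠ β t) :
    logInc α (β 1) - logInc α (β 0) = logInc β (α 1) - logInc β (α 0) := by
  obtain ⟨l, hl, h1⟩ := exists_log (fun q : ℝ × ℝ => α q.1 - β q.2) (by fun_prop)
    fun q => sub_ne_zero.2 (h q.1 q.2)
  have e1 : ∀ t, logInc α (β t) = l (1, t) - l (0, t) := fun t =>
    logInc_eq α (β t) (fun s => l (s, t)) (by fun_prop) fun s => h1 (s, t)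
  have e2 : ∀ s, logInc β (α s) = l (s, 1) - l (s, 0) := fun s => by
    rw [logInc_eq β (α s) (fun t => l (s, t) + Real.pi * I) (by fun_prop) fun t => by
      rw [exp_add, exp_pi_mul_I, h1]; ring]
    ring
  rw [e1, e1, e2, e2]; ring

end Vale.Agent.P039
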