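import Mathlib

/-! Winding data of a drawing of a cubic graph: a rotation system for which every cycle modulo two
is a boundary. -/

namespace Vale.Agent.P039

open Complex Finset

/-- Darts (half-edges) with the logarithmic increments of the half-edges around vertices and
midpoints. -/
structure Wind (Dt V : Type) where
  fst : Dt → V
  rev : Dt → Dt
  rev_rev : ∀ d, rev (rev d) = d
  fst_rev : ∀ d, fst (rev d) ≠ fst d
  o : Dt → Bool
  o_rev : ∀ d, o (rev d) = !o d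
  p : V → ℂ
  m : Dt → ℂ
  L : Dt → ℂ → ℂ
  m_rev : ∀ d, m (rev d) = m d
  p_inj : Function.Injective p
  p_ne_m : ∀ u g, p u ≠ m g
  m_ne : ∀ d g, g ≠ d → g ≠ rev d → m d ≠ m g
  A1 : ∀ d g, g ≠ d → g ≠ rev d → exp (L d (m g)) * (p (fst d) - m g) = m d - m g
  A2 : ∀ d u, u ≠ fst d → exp (L d (p u)) * (p (fst d) - p u) = m d - p u
  A3 : ∀ d g, fst d ≠ fst g → g ≠ rev d →
    L d (m g) - L d (p (fst g)) = L g (m d) - L g (p (fst d))
  cubic : ∀ d, ∃ d' d'', d ≠ d' ∧ d ≠ d'' ∧ d' ≠ d'' ∧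
    ∀ g, fst g = fst d ↔ g = d ∨ g = d' ∨ g = d''

namespace Wind

variable {Dt V : Type} (W : Wind Dt V)

theorem ne_rev {a b : Dt} (h : W.fst a = W.fst b) : a ≠ W.rev b := by
  rintro rfl; exact W.fst_rev b h

theorem B1 (d g : Dt) (h1 : g ≠ d) (h2 : g ≠ W.rev d) :
    exp (W.L d (W.m g)) = (W.m d - W.m g) / (W.p (W.fst d) - W.m g) := by
  rw [eq_div_iff (sub_ne_zero.2 (W.p_ne_m _ _)), W.A1 d g h1 h2]

theorem B2 (d : Dt) (u : V) (h : u ≠ W.fst d) :
    exp (W.L d (W.p u)) = (W.m d - W.p u) / (W.p (W.fst d) - W.p u) := by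
  rw [eq_div_iff (sub_ne_zero.2 fun h' => h (W.p_inj h').symm), W.A2 d u h]

/-- The half turn around a vertex. -/
noncomputable def N (a b e : Dt) : ℂ :=
  W.L e (W.m a) - W.L b (W.m a) + W.L b (W.m e) - W.L a (W.m e) + W.L a (W.m b) - W.L e (W.m b)

theorem exp_N (a b e : Dt) (hab : a ≠ b) (hae : a ≠ e) (hbe : b ≠ e) (h1 : W.fst b = W.fst a)
    (h2 : W.fst e = W.fst a) : exp (W.N a b e / 2) = I ∨ exp (W.N a b e / 2) = -I := by
  have h : exp (W.N a b e / 2) ^ 2 = I ^ 2 := by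
    rw [← exp_nat_mul, I_sq, show ((2 : ℕ) : ℂ) * (W.N a b e / 2) = W.N a b e by push_cast; ring]
    simp only [N, exp_add, exp_sub]
    rw [W.B1 e a hae (W.ne_rev h2.symm), W.B1 b a hab (W.ne_rev h1.symm),
      W.B1 b e hbe.symm (W.ne_rev (h2.trans h1.symm)), W.B1 a e hae.symm (W.ne_rev h2),
      W.B1 a b hab.symm (W.ne_rev h1), W.B1 e b hbe (W.ne_rev (h1.trans h2.symm)), h1, h2]
    have e1 := sub_ne_zero.2 (W.p_ne_m (W.fst a) a)
    have e2 := sub_ne_zero.2 (W.p_ne_m (W.fst a) b)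
    have e3 := sub_ne_zero.2 (W.p_ne_m (W.fst a) e)
    have e4 := sub_ne_zero.2 (W.m_ne b a hab (W.ne_rev h1.symm))
    have e5 := sub_ne_zero.2 (W.m_ne a e hae.symm (W.ne_rev h2))
    have e6 := sub_ne_zero.2 (W.m_ne e b hbe (W.ne_rev (h1.trans h2.symm)))
    field_simp
    ring
  exact sq_eq_sq_iff_eq_or_eq_neg.1 h

theorem exp_N_swap (a b e : Dt) (h : exp (W.N a b e / 2) = I) : exp (W.N a e b / 2) = -I := by
  rw [show W.N a e b / 2 = -(W.N a b e / 2) by simp only [N]; ring, exp_neg, h, inv_I]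

/-- Positively oriented triples of darts at a vertex. -/
def Pos (a b e : Dt) : Prop :=
  a ≠ b ∧ a ≠ e ∧ b ≠ e ∧ (∀ g, W.fst g = W.fst a ↔ g = a ∨ g = b ∨ g = e) ∧
    exp (W.N a b e / 2) = I

theorem Pos.rot {W : Wind Dt V} {a b e : Dt} (h : W.Pos a b e) : W.Pos b e a := by
  obtain ⟨h1, h2, h3, h4, h5⟩ := h
  refine ⟨h3, h1.symm, h2.symm, fun g => ?_, ?_⟩
  · rw [(h4 b).2 (by simp), h4]; tauto
  · rw [← h5]; congr 2; simp only [N]; ring

theorem exists_rho : ∃ ρ : Dt → Dt, (∀ d, ρ (ρ (ρ d)) = d) ∧ ∀ d, W.Pos d (ρ d) (ρ (ρ d)) := by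
  have h1 : ∀ d, ∃ d' d'', W.Pos d d' d'' := by
    intro d
    obtain ⟨d', d'', h1, h2, h3, h4⟩ := W.cubic d
    rcases W.exp_N d d' d'' h1 h2 h3 ((h4 _).2 (by simp)) ((h4 _).2 (by simp)) with h | h
    · exact ⟨d', d'', h1, h2, h3, h4, h⟩
    · refine ⟨d'', d', h2, h1, h3.symm, fun g => by rw [h4]; tauto, ?_⟩
      rw [show W.N d d'' d' / 2 = -(W.N d d' d'' / 2) by simp only [N]; ring, exp_neg, h]
      simp
  have h2 : ∀ d a b a' b', W.Pos d a b → W.Pos d a' b' → a = a' ∧ b = b' := by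
    rintro d a b a' b' ⟨h1, h2, h3, h4, h5⟩ ⟨h1', h2', h3', h4', h5'⟩
    have e1 := (h4 a').1 ((h4' a').2 (by simp))
    have e2 := (h4 b').1 ((h4' b').2 (by simp))
    by_cases h : a = a'
    · exact ⟨h, by grind⟩
    · have e3 : a' = b := by grind
      have e4 : b' = a := by grind
      rw [e3, e4, W.exp_N_swap _ _ _ h5] at h5'
      have : (2 : ℂ) * I = 0 := by linear_combination -h5'
      simp at this
  choose ρ ρ2 h using h1
  have h3 : ∀ d, ρ (ρ d) = ρ2 d := fun d => (h2 _ _ _ _ _ (h (ρ d)) (h d).rot).1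
  refine ⟨ρ, fun d => ?_, fun d => by rw [h3]; exact h d⟩
  rw [h3 d]
  exact (h2 _ _ _ _ _ (h (ρ2 d)) (h d).rot.rot).1

variable [DecidableEq Dt] [DecidableEq V]

/-- The winding number modulo two (written multiplicatively) of the cycle `z` around `x`. -/
noncomputable def sg (z : Finset Dt) (x : ℂ) : ℂ :=
  (∏ g ∈ z.filter (fun g => W.o g = true), (W.m g - x)) * exp (-(∑ g ∈ z, W.L g x) / 2) /
    ∏ u ∈ z.image W.fst, (W.p u - x)

omit [DecidableEq V] [DecidableEq Dt] in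
theorem sum_rev (z : Finset Dt) (hz : ∀ d ∈ z, W.rev d ∈ z) (f : Dt → ℂ)
    (hf : ∀ d, f (W.rev d) = f d) :
    ∑ g ∈ z, f g = 2 * ∑ g ∈ z.filter (fun g => W.o g = true), f g := by
  rw [← Finset.sum_filter_add_sum_filter_not z (fun g => W.o g = true), two_mul]
  congr 1
  refine Finset.sum_bij' (fun g _ => W.rev g) (fun g _ => W.rev g) ?_ ?_ ?_ ?_ ?_
  · intro g hg; rw [mem_filter] at hg ⊢; exact ⟨hz g hg.1, by simpa [W.o_rev] using hg.2⟩
  · intro g hg; rw [mem_filter] at hg ⊢; exact ⟨hz g hg.1, by simpa [W.o_rev] using hg.2⟩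
  · intro g _; exact W.rev_rev g
  · intro g _; exact W.rev_rev g
  · intro g _; exact (hf g).symm

omit [DecidableEq Dt] in
theorem sum_fst (z : Finset Dt) (hz : ∀ d ∈ z, (z.filter fun g => W.fst g = W.fst d).card = 2)
    (f : V → ℂ) : ∑ g ∈ z, f (W.fst g) = 2 * ∑ u ∈ z.image W.fst, f u := by
  rw [Finset.sum_comp f W.fst, Finset.mul_sum]
  refine Finset.sum_congr rfl fun u hu => ?_
  obtain ⟨d, hd, rfl⟩ := mem_image.1 hu
  rw [hz d hd]; simp

theorem sg_sq (z : Finset Dt) (hz1 : ∀ d ∈ z, W.rev d ∈ z)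
    (hz2 : ∀ d ∈ z, (z.filter fun g => W.fst g = W.fst d).card = 2) (b : Dt) (hb : b ∉ z) :
    W.sg z (W.m b) = 1 ∨ W.sg z (W.m b) = -1 := by
  have hne : ∀ g ∈ z, b ≠ g ∧ b ≠ W.rev g := fun g hg =>
    ⟨fun h => hb (h ▸ hg), fun h => hb (h ▸ hz1 g hg)⟩
  have e1 : ∏ g ∈ z.filter (fun g => W.o g = true), (W.m g - W.m b) =
      exp (∑ g ∈ z.filter (fun g => W.o g = true), log (W.m g - W.m b)) := by
    rw [exp_sum]
    refine Finset.prod_congr rfl fun g hg => (exp_log (sub_ne_zero.2 ?_)).symm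
    exact W.m_ne g b (hne g (mem_filter.1 hg).1).1 (hne g (mem_filter.1 hg).1).2
  have e2 : ∏ u ∈ z.image W.fst, (W.p u - W.m b) =
      exp (∑ u ∈ z.image W.fst, log (W.p u - W.m b)) := by
    rw [exp_sum]
    exact Finset.prod_congr rfl fun u _ => (exp_log (sub_ne_zero.2 (W.p_ne_m _ _))).symm
  have e3 := W.sum_rev z hz1 (fun g => log (W.m g - W.m b)) (fun d => by simp only [W.m_rev])
  have e4 := W.sum_fst z hz2 (fun u => log (W.p u - W.m b))
  have h : W.sg z (W.m b) ^ 2 = 1 ^ 2 := by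
    rw [sg, e1, e2, ← exp_add, ← exp_sub, ← exp_nat_mul, one_pow]
    have : ((2 : ℕ) : ℂ) * (∑ g ∈ z.filter (fun g => W.o g = true), log (W.m g - W.m b) +
        -(∑ g ∈ z, W.L g (W.m b)) / 2 - ∑ u ∈ z.image W.fst, log (W.p u - W.m b)) =
        ∑ g ∈ z, (log (W.m g - W.m b) - W.L g (W.m b) - log (W.p (W.fst g) - W.m b)) := by
      rw [Finset.sum_sub_distrib, Finset.sum_sub_distrib, e3, e4]; push_cast; ring
    rw [this, exp_sum]
    refine Finset.prod_eq_one fun g hg => ?_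
    have e5 := sub_ne_zero.2 (W.m_ne g b (hne g hg).1 (hne g hg).2)
    have e6 := sub_ne_zero.2 (W.p_ne_m (W.fst g) b)
    rw [exp_sub, exp_sub, exp_log e5, exp_log e6, W.B1 g b (hne g hg).1 (hne g hg).2]
    field_simp
  exact sq_eq_sq_iff_eq_or_eq_neg.1 h

theorem sg_ratio (z : Finset Dt) (hz1 : ∀ d ∈ z, W.rev d ∈ z)
    (hz2 : ∀ d ∈ z, (z.filter fun g => W.fst g = W.fst d).card = 2) (x y : ℂ)
    (Lm : Dt → ℂ) (Lp : V → ℂ) (hLm : ∀ g, Lm (W.rev g) = Lm g)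
    (h1 : ∀ g ∈ z, exp (Lm g) * (W.m g - x) = W.m g - y)
    (h2 : ∀ g ∈ z, exp (Lp (W.fst g)) * (W.p (W.fst g) - x) = W.p (W.fst g) - y) :
    W.sg z y = W.sg z x * exp (-(∑ g ∈ z, (W.L g y - W.L g x - Lm g + Lp (W.fst g))) / 2) := by
  have e1 : ∏ g ∈ z.filter (fun g => W.o g = true), (W.m g - y) =
      exp (∑ g ∈ z.filter (fun g => W.o g = true), Lm g) *
        ∏ g ∈ z.filter (fun g => W.o g = true), (W.m g - x) := by
    rw [exp_sum, ← Finset.prod_mul_distrib]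
    exact Finset.prod_congr rfl fun g hg => (h1 g (mem_filter.1 hg).1).symm
  have e2 : ∏ u ∈ z.image W.fst, (W.p u - y) =
      exp (∑ u ∈ z.image W.fst, Lp u) * ∏ u ∈ z.image W.fst, (W.p u - x) := by
    rw [exp_sum, ← Finset.prod_mul_distrib]
    refine Finset.prod_congr rfl fun u hu => ?_
    obtain ⟨g, hg, rfl⟩ := mem_image.1 hu
    exact (h2 g hg).symm
  have e3 : -(∑ g ∈ z, (W.L g y - W.L g x - Lm g + Lp (W.fst g))) / 2 =
      (∑ g ∈ z.filter (fun g => W.o g = true), Lm g) + -(∑ g ∈ z, W.L g y) / 2 -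
        (∑ u ∈ z.image W.fst, Lp u) - -(∑ g ∈ z, W.L g x) / 2 := by
    rw [Finset.sum_add_distrib, Finset.sum_sub_distrib, Finset.sum_sub_distrib,
      W.sum_rev z hz1 Lm hLm, W.sum_fst z hz2 Lp]
    ring
  rw [sg, sg, e1, e2, e3, exp_sub, exp_sub, exp_add]
  have := exp_ne_zero (∑ u ∈ z.image W.fst, Lp u)
  have := exp_ne_zero (-(∑ g ∈ z, W.L g x) / 2)
  simp only [div_eq_mul_inv, mul_inv] at this ⊢
  field_simp

theorem sg_vertex (z : Finset Dt) (hz1 : ∀ d ∈ z, W.rev d ∈ z)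
    (hz2 : ∀ d ∈ z, (z.filter fun g => W.fst g = W.fst d).card = 2) (a b : Dt)
    (hab : W.fst b = W.fst a) (hv : ∀ g ∈ z, W.fst g ≠ W.fst a) :
    W.sg z (W.m b) = W.sg z (W.m a) := by
  have hne : ∀ g ∈ z, ∀ c, W.fst c = W.fst a → g ≠ c ∧ g ≠ W.rev c ∧ c ≠ W.rev g := by
    intro g hg c hc
    refine ⟨fun h => hv g hg (h ▸ hc), fun h => hv _ (hz1 g hg) ?_, fun h => hv _ (hz1 g hg) ?_⟩
    · rw [h, W.rev_rev, hc]
    · rw [← h, hc]
  rw [W.sg_ratio z hz1 hz2 (W.m a) (W.m b) (fun g => W.L b (W.m g) - W.L a (W.m g))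
    (fun u => W.L b (W.p u) - W.L a (W.p u)) (fun g => by simp only [W.m_rev]) (fun g hg => ?_)
    (fun g hg => ?_), Finset.sum_eq_zero (fun g hg => ?_)]
  · simp
  · have h1 := W.A3 g b (hab ▸ hv g hg) (hne g hg b hab).2.2
    have h2 := W.A3 g a (hv g hg) (hne g hg a rfl).2.2
    rw [hab] at h1
    linear_combination h1 - h2
  · have e1 := sub_ne_zero.2 (W.p_ne_m (W.fst a) g)
    have e2 := sub_ne_zero.2 (W.m_ne a g (hne g hg a rfl).1 (hne g hg a rfl).2.1)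
    rw [exp_sub, W.B1 b g (hne g hg b hab).1 (hne g hg b hab).2.1,
      W.B1 a g (hne g hg a rfl).1 (hne g hg a rfl).2.1, hab]
    field_simp
    ring
  · have e1 := sub_ne_zero.2 (W.p_ne_m (W.fst g) a).symm
    have e2 : W.p (W.fst a) - W.p (W.fst g) ≠ 0 :=
      sub_ne_zero.2 fun h => hv g hg (W.p_inj h).symm
    rw [exp_sub, W.B2 b _ (hab ▸ hv g hg), W.B2 a _ (hv g hg), hab]
    field_simp
    ring

theorem sg_edge (z : Finset Dt) (hz1 : ∀ d ∈ z, W.rev d ∈ z)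
    (hz2 : ∀ d ∈ z, (z.filter fun g => W.fst g = W.fst d).card = 2) (e a b c d : Dt)
    (he : e ∈ z) (ha : a ∈ z) (hb : b ∉ z) (hc : c ∈ z) (hd : d ∉ z) (hae : a ≠ e)
    (hce : c ≠ W.rev e) (h1 : ∀ g, W.fst g = W.fst e ↔ g = a ∨ g = b ∨ g = e)
    (h2 : ∀ g, W.fst g = W.fst (W.rev e) ↔ g = c ∨ g = d ∨ g = W.rev e) :
    W.sg z (W.m d) * exp (W.N c d (W.rev e) / 2) = -(W.sg z (W.m b) * exp (W.N a b e / 2)) := by
  have hvv : W.fst (W.rev e) ≠ W.fst e := W.fst_rev e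
  have fa : W.fst a = W.fst e := (h1 a).2 (by simp)
  have fb : W.fst b = W.fst e := (h1 b).2 (by simp)
  have fc : W.fst c = W.fst (W.rev e) := (h2 c).2 (by simp)
  have fd : W.fst d = W.fst (W.rev e) := (h2 d).2 (by simp)
  have he' := hz1 e he
  have hout : ∀ g ∈ z, ∀ x, x ∉ z → g ≠ x ∧ g ≠ W.rev x ∧ x ≠ W.rev g ∧ x ≠ g := by
    intro g hg x hx
    refine ⟨fun h => hx (h ▸ hg), fun h => hx ?_, fun h => hx (h ▸ hz1 g hg), fun h => hx (h ▸ hg)⟩
    rw [← W.rev_rev x, ← h]; exact hz1 g hg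
  have rinj : ∀ x y, W.rev x = W.rev y → x = y := fun x y h => by
    rw [← W.rev_rev x, h, W.rev_rev]
  have n1 := sub_ne_zero.2 (W.m_ne e b (hout e he b hb).2.2.2 (hout e he b hb).2.2.1)
  have n2 := sub_ne_zero.2 (W.m_ne e d (hout e he d hd).2.2.2 (hout e he d hd).2.2.1)
  have n3 := fun u g => sub_ne_zero.2 (W.p_ne_m u g)
  have n3' := fun u g => sub_ne_zero.2 (W.p_ne_m u g).symm
  have n4 : W.p (W.fst e) - W.p (W.fst (W.rev e)) ≠ 0 :=
    sub_ne_zero.2 fun h => hvv (W.p_inj h).symm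
  have n4' : W.p (W.fst (W.rev e)) - W.p (W.fst e) ≠ 0 :=
    sub_ne_zero.2 fun h => hvv (W.p_inj h)
  let Λ : ℂ → ℂ := fun q => W.L e q - W.L b q - W.L (W.rev e) q + W.L d q
  let le := log ((W.m e - W.m d) / (W.m e - W.m b))
  let lp : V → ℂ := fun u => log ((W.p u - W.m d) / (W.p u - W.m b))
  have hle : exp le = (W.m e - W.m d) / (W.m e - W.m b) := exp_log (div_ne_zero n2 n1)
  have hlp : ∀ u, exp (lp u) = (W.p u - W.m d) / (W.p u - W.m b) := fun u =>
    exp_log (div_ne_zero (n3 _ _) (n3 _ _))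
  rw [W.sg_ratio z hz1 hz2 (W.m b) (W.m d)
    (fun g => if g = e ∨ g = W.rev e then le else Λ (W.m g))
    (fun u => if u = W.fst e ∨ u = W.fst (W.rev e) then lp u else Λ (W.p u)) (fun g => ?_)
    (fun g hg => ?_) (fun g hg => ?_),
    ← Finset.sum_subset (s₁ := {a, e, W.rev e, c}) (fun g hg => ?_) (fun g hg hg' => ?_)]
  · have hae' : a ≠ W.rev e := fun h => hvv (h ▸ fa)
    have hac : a ≠ c := fun h => hvv (fc.symm.trans (h ▸ fa))
    have hee : e ≠ W.rev e := fun h => hvv (h ▸ rfl)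
    have hec : e ≠ c := fun h => hvv (fc.symm.trans (h ▸ rfl))
    rw [Finset.sum_insert (by simp [hae, hae', hac]), Finset.sum_insert (by simp [hee, hec]),
      Finset.sum_pair hce.symm]
    simp only [hae, hae', hec.symm, hce, fa, fc, or_self, if_false, true_or, or_true, if_true]
    have s1 := W.A3 a d (by rw [fa, fd]; exact hvv.symm) (hout a ha d hd).2.2.1
    have s2 := W.A3 b c (by rw [fb, fc]; exact hvv.symm) (hout c hc b hb).2.1
    have s3 := W.A3 a (W.rev e) (by rw [fa]; exact hvv.symm) (fun h => hae (rinj _ _ h).symm)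
    have s4 := W.A3 b (W.rev e) (by rw [fb]; exact hvv.symm) (hout _ he' b hb).2.1
    have s5 := W.A3 e c (by rw [fc]; exact hvv.symm) hce
    have s6 := W.A3 e d (by rw [fd]; exact hvv.symm) (hout _ he' d hd).2.2.2
    rw [fa, fd] at s1
    rw [fb, fc] at s2
    rw [fa, W.m_rev] at s3
    rw [fb, W.m_rev] at s4
    rw [fc] at s5
    rw [fd] at s6
    rw [mul_assoc, ← exp_add, ← mul_neg]
    congr 1
    have key : exp (W.L e (W.m b) - W.L (W.rev e) (W.m d) + W.L d (W.p (W.fst e)) -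
        W.L b (W.p (W.fst (W.rev e))) + le - lp (W.fst e) - lp (W.fst (W.rev e))) = -1 := by
      simp only [exp_add, exp_sub, hle, hlp]
      rw [W.B1 e b (hout e he b hb).2.2.2 (hout e he b hb).2.2.1,
        W.B1 (W.rev e) d (hout _ he' d hd).2.2.2 (hout _ he' d hd).2.2.1,
        W.B2 d _ (by rw [fd]; exact hvv.symm), W.B2 b _ (by rw [fb]; exact hvv), fb, fd, W.m_rev]
      have := n3 (W.fst e) b
      have := n3 (W.fst e) d
      have := n3 (W.fst (W.rev e)) b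
      have := n3 (W.fst (W.rev e)) d
      have := n3' (W.fst (W.rev e)) b
      field_simp
      ring
    rw [← neg_one_mul (exp (W.N a b e / 2)), ← key, ← exp_add]
    congr 1
    simp only [N, Λ, W.m_rev]
    linear_combination (-1 / 2 : ℂ) * s1 + (-1 / 2 : ℂ) * s2 + (1 / 2 : ℂ) * s3 +
      (-1 / 2 : ℂ) * s4 + (1 / 2 : ℂ) * s5 + (-1 / 2 : ℂ) * s6
  · simp only [mem_insert, mem_singleton] at hg
    rcases hg with rfl | rfl | rfl | rfl <;> assumption
  · simp only [mem_insert, mem_singleton, not_or] at hg'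
    have g1 : W.fst g ≠ W.fst e := by
      rw [Ne, h1]; push Not; exact ⟨hg'.1, (hout g hg b hb).1, hg'.2.1⟩
    have g2 : W.fst g ≠ W.fst (W.rev e) := by
      rw [Ne, h2]; push Not; exact ⟨hg'.2.2.2, (hout g hg d hd).1, hg'.2.2.1⟩
    simp only [hg'.2.1, hg'.2.2.1, g1, g2, or_self, if_false, Λ]
    have s1 := W.A3 g b (by rw [fb]; exact g1) (hout g hg b hb).2.2.1
    have s2 := W.A3 g e g1 (fun h => hg'.2.2.1 (by rw [h, W.rev_rev]))
    have s3 := W.A3 g (W.rev e) g2 (fun h => hg'.2.1 (rinj _ _ h).symm)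
    have s4 := W.A3 g d (by rw [fd]; exact g2) (hout g hg d hd).2.2.1
    rw [fb] at s1
    rw [W.m_rev] at s3
    rw [fd] at s4
    linear_combination s2 - s1 - s3 + s4
  · have : (W.rev g = e ∨ W.rev g = W.rev e) ↔ (g = e ∨ g = W.rev e) := by
      constructor
      · rintro (h | h)
        · right; rw [← h, W.rev_rev]
        · left; exact rinj _ _ h
      · rintro (h | h)
        · right; rw [h]
        · left; rw [h, W.rev_rev]
    simp only [this, W.m_rev]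
  · split_ifs with h
    · have : W.m g = W.m e := by rcases h with rfl | rfl <;> simp [W.m_rev]
      rw [this, hle]; field_simp
    · push Not at h
      simp only [Λ, exp_add, exp_sub]
      rw [W.B1 e g h.1 h.2, W.B1 b g (hout g hg b hb).1 (hout g hg b hb).2.1,
        W.B1 (W.rev e) g h.2 (by rw [W.rev_rev]; exact h.1),
        W.B1 d g (hout g hg d hd).1 (hout g hg d hd).2.1, fb, fd, W.m_rev]
      have := n3 (W.fst e) g
      have := n3 (W.fst (W.rev e)) g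
      have := sub_ne_zero.2 (W.m_ne e g h.1 h.2)
      have := sub_ne_zero.2 (W.m_ne b g (hout g hg b hb).1 (hout g hg b hb).2.1)
      field_simp
      ring
  · split_ifs with h
    · have := n3 (W.fst g) b
      rw [hlp]; field_simp
    · push Not at h
      simp only [Λ, exp_add, exp_sub]
      rw [W.B2 e _ h.1, W.B2 b _ (by rw [fb]; exact h.1), W.B2 (W.rev e) _ h.2,
        W.B2 d _ (by rw [fd]; exact h.2), fb, fd, W.m_rev]
      have := n3' (W.fst g) e
      have := n3' (W.fst g) b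
      have : W.p (W.fst e) - W.p (W.fst g) ≠ 0 := sub_ne_zero.2 fun h' => h.1 (W.p_inj h').symm
      have : W.p (W.fst (W.rev e)) - W.p (W.fst g) ≠ 0 :=
        sub_ne_zero.2 fun h' => h.2 (W.p_inj h').symm
      field_simp
      ring

theorem exists_h (ρ : Dt → Dt) (hρ3 : ∀ d, ρ (ρ (ρ d)) = d)
    (hρ : ∀ d, W.Pos d (ρ d) (ρ (ρ d))) (z : Finset Dt) (hz1 : ∀ d ∈ z, W.rev d ∈ z)
    (hz : ∀ d, d ∈ z ↔ ¬ (ρ d ∈ z ↔ ρ (ρ d) ∈ z)) :
    ∃ h : Dt → ZMod 2, (∀ d, h (ρ d) = h d + if d ∈ z then 1 else 0) ∧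
      ∀ d, h (W.rev d) = h d + if d ∈ z then 1 else 0 := by
  have hz2 : ∀ d ∈ z, (z.filter fun g => W.fst g = W.fst d).card = 2 := by
    intro d hd
    obtain ⟨h1, h2, h3, h4, -⟩ := hρ d
    have h5 := (hz d).1 hd
    rw [Finset.card_eq_two]
    by_cases h : ρ d ∈ z
    · refine ⟨d, ρ d, h1, ?_⟩
      ext g
      simp only [mem_filter, h4, mem_insert, mem_singleton]
      grind
    · refine ⟨d, ρ (ρ d), h2, ?_⟩
      ext g
      simp only [mem_filter, h4, mem_insert, mem_singleton]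
      grind
  let τ : Dt → ℂ := fun d => if d ∉ z then W.sg z (W.m d) else
    if ρ (ρ d) ∉ z then W.sg z (W.m (ρ (ρ d))) else -W.sg z (W.m (ρ d))
  have t0 : ∀ d, τ d = 1 ∨ τ d = -1 := by
    intro d
    simp only [τ]
    split_ifs with h1 h2
    · have := W.sg_sq z hz1 hz2 (ρ d) (by have := (hz d).1 h1; tauto)
      rcases this with h | h <;> simp [h]
    · exact W.sg_sq z hz1 hz2 _ h2
    · exact W.sg_sq z hz1 hz2 _ h1
  have t1 : ∀ d, τ (ρ d) = if d ∈ z then -τ d else τ d := by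
    intro d
    have h5 := hz d
    simp only [τ, hρ3]
    by_cases h1 : d ∈ z <;> by_cases h2 : ρ d ∈ z <;> by_cases h3 : ρ (ρ d) ∈ z <;>
      simp only [h1, h2, h3, not_true, not_false_iff, if_true, if_false, neg_neg] <;>
      try (exfalso; tauto)
    obtain ⟨-, -, -, h4, -⟩ := hρ d
    refine W.sg_vertex z hz1 hz2 d (ρ d) ((h4 _).2 (by simp)) fun g hg h => ?_
    rcases (h4 g).1 h with rfl | rfl | rfl <;> contradiction
  have t2 : ∀ e ∈ z, ∃ a b, a ∈ z ∧ b ∉ z ∧ a ≠ e ∧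
      (∀ g, W.fst g = W.fst e ↔ g = a ∨ g = b ∨ g = e) ∧
      τ e = -I * (W.sg z (W.m b) * exp (W.N a b e / 2)) := by
    intro e he
    have h5 := (hz e).1 he
    have hp := hρ e
    by_cases h : ρ (ρ e) ∈ z
    · refine ⟨ρ (ρ e), ρ e, h, by tauto, hp.2.1.symm, fun g => by rw [hp.2.2.2.1]; tauto, ?_⟩
      rw [W.exp_N_swap _ _ _ hp.rot.rot.2.2.2.2]
      simp only [τ, he, h, not_true, if_false]
      linear_combination (-W.sg z (W.m (ρ e))) * I_mul_I
    · refine ⟨ρ e, ρ (ρ e), by tauto, h, hp.1.symm, fun g => by rw [hp.2.2.2.1]; tauto, ?_⟩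
      rw [hp.rot.2.2.2.2]
      simp only [τ, he, h, not_true, not_false_iff, if_true, if_false]
      linear_combination (W.sg z (W.m (ρ (ρ e)))) * I_mul_I
  have t3 : ∀ d, τ (W.rev d) = if d ∈ z then -τ d else τ d := by
    intro e
    split_ifs with he
    · obtain ⟨a, b, ha, hb, hae, h1, h2⟩ := t2 e he
      obtain ⟨c, d, hc, hd, hce, h3, h4⟩ := t2 _ (hz1 e he)
      rw [h2, h4, W.sg_edge z hz1 hz2 e a b c d he ha hb hc hd hae hce h1 h3]
      ring
    · have : W.rev e ∉ z := fun h => he (W.rev_rev e ▸ hz1 _ h)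
      simp only [τ, he, this, not_false_iff, if_true, W.m_rev]
  have key : ∀ d g, τ g = (if d ∈ z then -τ d else τ d) →
      (if τ g = 1 then (0 : ZMod 2) else 1) =
        (if τ d = 1 then (0 : ZMod 2) else 1) + if d ∈ z then 1 else 0 := by
    intro d g h
    have hne : (-1 : ℂ) ≠ 1 := by norm_num
    rw [h]
    rcases t0 d with h1 | h1 <;> by_cases hd : d ∈ z <;> simp [h1, hd, hne]
    decide
  exact ⟨fun d => if τ d = 1 then 0 else 1, fun d => key d _ (t1 d), fun d => key d _ (t3 d)⟩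

end Wind

end Vale.Agent.P039
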