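import Vale.Agent.P039.TopDefs
import Vale.Agent.P039.Top1
import Vale.Agent.P039.Top2
import Vale.Agent.P039.Bridge

/-! From a plane drawing to a rotation system satisfying Euler's inequality. -/

namespace Vale.Agent.P039

open Finset

theorem Wind.euler {Dt V Φ : Type} [Fintype Dt] [Fintype V] [Fintype Φ] [DecidableEq Dt]
    [DecidableEq V] [DecidableEq Φ] [Nonempty V] [Nonempty Φ] (W : Wind Dt V) (ρ : Dt → Dt)
    (hρ3 : ∀ d, ρ (ρ (ρ d)) = d) (hρ : ∀ d, W.Pos d (ρ d) (ρ (ρ d))) (φ : Dt → Φ)
    (hφ : ∀ h : Dt → ZMod 2, (∀ d, h (ρ (W.rev d)) = h d) → ∃ h' : Φ → ZMod 2, ∀ d, h' (φ d) = h d) :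
    Fintype.card {d // W.o d = true} + 2 ≤ Fintype.card V + Fintype.card Φ := by
  let O := {d // W.o d = true}
  let ex : Dt → O := fun d => if h : W.o d = true then ⟨d, h⟩ else
    ⟨W.rev d, by simpa [W.o_rev] using h⟩
  have ex1 : ∀ e : O, ex e.1 = e := fun e => by simp [ex, e.2]
  have ex2 : ∀ d, ex (W.rev d) = ex d := by
    intro d
    by_cases h : W.o d = true
    · simp [ex, h, W.o_rev, W.rev_rev]
    · simp [ex, h, W.o_rev]
  let d1 : (O → ZMod 2) →ₗ[ZMod 2] (V → ZMod 2) :=
    { toFun := fun x v => ∑ d with W.fst d = v, x (ex d)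
      map_add' := fun x y => by funext v; simp [Finset.sum_add_distrib]
      map_smul' := fun r x => by funext v; simp [Finset.mul_sum] }
  let d2 : (Φ → ZMod 2) →ₗ[ZMod 2] (O → ZMod 2) :=
    { toFun := fun h e => h (φ e.1) + h (φ (W.rev e.1))
      map_add' := fun x y => by funext v; simp; ring
      map_smul' := fun r x => by funext v; simp; ring }
  have two : ∀ a : ZMod 2, a + a = 0 := by decide
  have h1 : LinearMap.ker d1 ≤ LinearMap.range d2 := by
    intro x hx
    have hx' : ∀ d, x (ex d) + (x (ex (ρ d)) + x (ex (ρ (ρ d)))) = 0 := by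
      intro d
      have h2 := congrFun (LinearMap.mem_ker.1 hx) (W.fst d)
      obtain ⟨n1, n2, n3, h4, -⟩ := hρ d
      have h3 : (univ.filter fun g => W.fst g = W.fst d) = {d, ρ d, ρ (ρ d)} := by
        ext g; simp [h4]
      simp only [d1, LinearMap.coe_mk, AddHom.coe_mk, h3] at h2
      rwa [Finset.sum_insert (by simp [n1, n2]), Finset.sum_pair n3] at h2
    obtain ⟨h, h2, h3⟩ := W.exists_h ρ hρ3 hρ (univ.filter fun d => x (ex d) = 1)
      (fun d hd => by simpa [ex2] using hd) (fun d => by
        simp only [mem_filter, mem_univ, true_and]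
        have := hx' d
        revert this
        generalize x (ex d) = a
        generalize x (ex (ρ d)) = b
        generalize x (ex (ρ (ρ d))) = c
        revert a b c
        decide)
    have h4 : ∀ d, (if d ∈ univ.filter (fun d => x (ex d) = 1) then (1 : ZMod 2) else 0) =
        x (ex d) := by
      intro d
      simp only [mem_filter, mem_univ, true_and]
      generalize x (ex d) = a
      revert a
      decide
    simp only [h4] at h2 h3
    obtain ⟨h', hh⟩ := hφ h (fun d => by rw [h2, h3, ex2, add_assoc, two, add_zero])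
    refine ⟨h', funext fun e => ?_⟩
    simp only [d2, LinearMap.coe_mk, AddHom.coe_mk, hh, h3, ex1]
    rw [← add_assoc, two, zero_add]
  have h2 : LinearMap.range d1 < ⊤ := by
    rw [lt_top_iff_ne_top]
    intro htop
    obtain ⟨v0⟩ : Nonempty V := inferInstance
    obtain ⟨x, hx⟩ : (Pi.single v0 1 : V → ZMod 2) ∈ LinearMap.range d1 := by
      rw [htop]; trivial
    have h3 : ∑ v, d1 x v = 0 := by
      simp only [d1, LinearMap.coe_mk, AddHom.coe_mk]
      rw [Finset.sum_fiberwise]
      exact Finset.sum_involution (fun d _ => W.rev d) (fun d _ => by rw [ex2, two])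
        (fun d _ _ h => W.fst_rev d (by rw [h])) (fun d _ => mem_univ _) (fun d _ => W.rev_rev d)
    rw [hx] at h3
    simp at h3
  have h3 : LinearMap.ker d2 ≠ ⊥ := by
    intro hbot
    have : (fun _ => 1 : Φ → ZMod 2) ∈ LinearMap.ker d2 := by
      rw [LinearMap.mem_ker]; funext e; exact two 1
    rw [hbot, Submodule.mem_bot] at this
    obtain ⟨f0⟩ : Nonempty Φ := inferInstance
    simpa using congrFun this f0
  have e1 := LinearMap.finrank_range_add_finrank_ker d1
  have e2 := LinearMap.finrank_range_add_finrank_ker d2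
  have e3 := Submodule.finrank_mono h1
  have e4 := Submodule.finrank_lt_finrank_of_lt h2
  have e5 : 0 < Module.finrank (ZMod 2) (LinearMap.ker d2) := by
    rw [Nat.pos_iff_ne_zero, Ne, Submodule.finrank_eq_zero]; exact h3
  simp only [finrank_top, Module.finrank_fintype_fun_eq_card] at e1 e2 e4
  change Fintype.card O + 2 ≤ _
  omega

theorem exists_wind {V : Type} [Fintype V] [DecidableEq V] (G : SimpleGraph V)
    [DecidableRel G.Adj] (hcubic : G.IsRegularOfDegree 3) (o : G.Dart → Bool)
    (ho : ∀ d, o d.symm = !o d) (h : HasPlaneDrawing G) :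
    ∃ W : Wind G.Dart V, (∀ d, W.fst d = d.fst) ∧ (∀ d, W.rev d = d.symm) ∧ W.o = o := by
  obtain ⟨p, γ, hp, hγ, hs, hv, hd⟩ := h
  let c : ℝ → unitInterval := fun t => ⟨max 0 (min 1 t) / 2, by
    constructor
    · positivity
    · have : max 0 (min 1 t) ≤ 1 := max_le zero_le_one (min_le_left _ _)
      linarith⟩
  have hc : Continuous c := Continuous.subtype_mk (by fun_prop) _
  have hc0 : c 0 = 0 := Subtype.ext (by simp [c])
  have hc1 : ∀ t, (c t : ℝ) ≤ (c 1 : ℝ) := fun t => by
    have : max 0 (min 1 t) ≤ 1 := max_le zero_le_one (min_le_left _ _)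
    simp only [c, min_self, zero_le_one, max_eq_right]; linarith
  have hc2 : (c 1 : ℝ) = 1 / 2 := by simp [c]
  have hc3 : unitInterval.symm (c 1) = c 1 := Subtype.ext (by
    rw [unitInterval.coe_symm_eq, hc2]; norm_num)
  have hne1 : ∀ t, c t ≠ 1 := fun t h => by
    have := hc1 t; rw [h, hc2] at this; norm_num at this
  have hne0 : c 1 ≠ 0 := fun h => by rw [h] at hc2; norm_num at hc2
  let H : G.Dart → ℝ → ℂ := fun d t => γ d (c t)
  have hH : ∀ d, Continuous (H d) := fun d => (γ d).continuous.comp hc
  have hH0 : ∀ d, H d 0 = p d.fst := fun d => by simp [H, hc0]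
  have meet : ∀ d g s t, g ≠ d → g ≠ d.symm → H d s = H g t → c t = 0 ∧ d.fst = g.fst := by
    intro d g s t h1 h2 h3
    have h4 := hd d g _ _ (fun h => by
      rcases (SimpleGraph.dart_edge_eq_iff _ _).1 h.symm with h | h
      · exact h1 h
      · exact h2 h) h3
    have h5 := h4.1.resolve_right (hne1 s)
    have h6 := h4.2.resolve_right (hne1 t)
    refine ⟨h6, hp ?_⟩
    simpa [H, h5, h6] using h3
  have n1 : ∀ d g s, g ≠ d → g ≠ d.symm → H d s ≠ H g 1 := fun d g s h1 h2 h3 =>
    hne0 (meet d g s 1 h1 h2 h3).1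
  refine ⟨{ fst := fun d => d.fst
            rev := fun d => d.symm
            rev_rev := fun d => d.symm_symm
            fst_rev := fun d => d.snd_ne_fst
            o := o
            o_rev := ho
            p := p
            m := fun d => H d 1
            L := fun d => logInc (H d)
            m_rev := fun d => by simp only [H, hs, hc3]
            p_inj := hp
            p_ne_m := fun u g h => ?_
            m_ne := fun d g h1 h2 => n1 d g 1 h1 h2
            A1 := fun d g h1 h2 => ?_
            A2 := fun d u h => ?_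
            A3 := fun d g h1 h2 => ?_
            cubic := fun d => ?_ }, fun _ => rfl, fun _ => rfl, rfl⟩
  · rcases hv g _ u h.symm with h | h
    · exact hne0 h
    · exact hne1 1 h
  · rw [← hH0]; exact exp_logInc (H d) (hH d) _ fun t => n1 d g t h1 h2
  · rw [← hH0 d]
    refine exp_logInc (H d) (hH d) _ fun t h' => ?_
    have h1 := (hv d _ u h').resolve_right (hne1 t)
    simp only [H, h1, Path.source] at h'
    exact h (hp h').symm
  · rw [← hH0, ← hH0]
    exact logInc_square (H d) (H g) (hH d) (hH g) fun s t h =>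
      h1 (meet d g s t (fun h => h1 (by rw [h])) h2 h).2
  · obtain ⟨a, b, e, h1, h2, h3, h4⟩ := Finset.card_eq_three.1 (bridge_fiber hcubic d.fst)
    have h5 : ∀ g : G.Dart, g.fst = d.fst ↔ g = a ∨ g = b ∨ g = e := fun g => by
      have : g ∈ (univ.filter fun g : G.Dart => g.fst = d.fst) ↔ g ∈ ({a, b, e} : Finset _) := by
        rw [h4]
      simpa using this
    rcases (h5 d).1 rfl with h | h | h
    · exact ⟨b, e, h ▸ h1, h ▸ h2, h3, fun g => by rw [h5, ← h]⟩
    · exact ⟨a, e, h ▸ h1.symm, h ▸ h3, h2, fun g => by rw [h5, ← h]; tauto⟩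
    · exact ⟨a, b, h ▸ h2.symm, h ▸ h3.symm, h1, fun g => by rw [h5, ← h]; tauto⟩

theorem hamiltonian_of_drawing
    (core : ∀ (E F V : Type) [Fintype E] [Fintype F] [Fintype V] [DecidableEq E]
      [DecidableEq F] [DecidableEq V] (D : Data E F V), D.Euler →
      ∀ e0 : E, ∃ M : Finset E, e0 ∈ M ∧ D.Good M)
    {V : Type} [Fintype V] [DecidableEq V] (G : SimpleGraph V) [DecidableRel G.Adj]
    (hcubic : G.IsRegularOfDegree 3) (hbip : G.IsBipartite) (hplanar : HasPlaneDrawing G)
    (hconn : IsThreeConnected G) :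
    ∃ (a : V) (p : G.Walk a a), p.IsHamiltonianCycle := by
  classical
  obtain ⟨C0⟩ := id hbip
  let C : G.Coloring Bool := SimpleGraph.recolorOfEquiv G finTwoEquiv C0
  have hC : ∀ d : G.Dart, C d.snd = !C d.fst := by
    intro d
    have := C.valid d.adj
    revert this
    cases C d.fst <;> cases C d.snd <;> simp
  obtain ⟨W, hW1, hW2, hW3⟩ := exists_wind G hcubic (fun d => C d.fst) hC hplanar
  obtain ⟨r, hr3, hr⟩ := W.exists_rho
  let ρ : Equiv.Perm G.Dart := ⟨r, fun d => r (r d), hr3, hr3⟩
  have hfst : ∀ d, (ρ d).fst = d.fst := fun d => by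
    have := ((hr d).2.2.2.1 (r d)).2 (by simp)
    rwa [hW1, hW1] at this
  have hρ : IsRotationSystem G ρ := by
    intro d d'
    constructor
    · intro h
      obtain ⟨n, -, rfl⟩ := h.exists_pow_eq'
      clear h
      induction n with
      | zero => simp
      | succ n ih => rw [ih, pow_succ', Equiv.Perm.mul_apply, hfst]
    · intro h
      rcases ((hr d).2.2.2.1 d').1 (by rw [hW1, hW1, h]) with rfl | rfl | rfl
      · exact Equiv.Perm.SameCycle.refl _ _
      · exact ⟨1, rfl⟩
      · exact ⟨2, rfl⟩
  let Φ := Quotient (Equiv.Perm.SameCycle.setoid (ρ * reversal G))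
  letI : Fintype Φ := Fintype.ofFinite _
  have hV : 4 ≤ Fintype.card V := by
    have := hconn.1
    rwa [Nat.card_eq_fintype_card] at this
  haveI : Nonempty V := Fintype.card_pos_iff.1 (by omega)
  haveI : Nonempty Φ := by
    obtain ⟨v⟩ : Nonempty V := inferInstance
    obtain ⟨d, -⟩ := Finset.card_pos.1 (show 0 < (univ.filter fun d : G.Dart => d.fst = v).card by
      rw [bridge_fiber hcubic]; omega)
    exact ⟨Quotient.mk _ d⟩
  have key := W.euler r hr3 hr (Φ := Φ) (Quotient.mk _) (fun h hh => by
    refine ⟨Quotient.lift h fun x y hxy => ?_, fun d => rfl⟩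
    obtain ⟨n, -, rfl⟩ := Equiv.Perm.SameCycle.exists_pow_eq' hxy
    clear hxy
    induction n with
    | zero => simp
    | succ n ih =>
      rw [ih, pow_succ', Equiv.Perm.mul_apply, Equiv.Perm.mul_apply, ← hh, hW2]
      rfl)
  have cardE : Fintype.card {d // W.o d = true} = G.edgeFinset.card := by
    have h1 := G.dart_card_eq_twice_card_edges
    have h2 := Finset.card_filter_add_card_filter_not (s := (univ : Finset G.Dart))
      (fun d => C d.fst = true)
    have h3 : (univ.filter fun d : G.Dart => ¬ C d.fst = true).card =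
        (univ.filter fun d : G.Dart => C d.fst = true).card := by
      refine Finset.card_bijective SimpleGraph.Dart.symm
        SimpleGraph.Dart.symm_involutive.bijective ?_
      intro d
      simp [hC]
    rw [Fintype.card_subtype, hW3]
    dsimp only
    rw [card_univ] at h2
    omega
  refine hamiltonian_of_faces core G hcubic hbip hconn ρ hρ (Φ := Φ) (Quotient.mk _) ?_
    Quotient.mk_surjective (by omega)
  intro d
  apply Quotient.sound
  refine ⟨1, ?_⟩
  simp [reversal]

end Vale.Agent.P039
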