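import Mathlib

namespace Vale.Agent.P039

/-- Planarity: the graph can be drawn in the plane (modelled by `ℂ`) with the vertices at distinct
points `p v` and every edge drawn as a simple continuous arc between its two endpoints (`γ d` is
the arc of the edge of the dart `d`, run from `d.fst` to `d.snd`), such that no arc passes
through a vertex in its interior and arcs of different edges meet only at endpoints. -/
def HasPlaneDrawing {V : Type} (G : SimpleGraph V) : Prop :=
  ∃ (p : V → ℂ) (γ : ∀ d : G.Dart, Path (p d.fst) (p d.snd)),
    Function.Injective p ∧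
    (∀ d, Function.Injective (γ d)) ∧
    (∀ d t, γ d.symm t = γ d (unitInterval.symm t)) ∧
    (∀ d t v, γ d t = p v → t = 0 ∨ t = 1) ∧
    ∀ d d' s t, d.edge ≠ d'.edge → γ d s = γ d' t → (s = 0 ∨ s = 1) ∧ (t = 0 ∨ t = 1)

end Vale.Agent.P039
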